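import Vale.Agent.P161L.Bayes

open MeasureTheory ProbabilityTheory Set Filter Topology

namespace Vale.Agent.P161L

variable {V : Type*}

theorem recon_succ' (a : V → ℕ → (V × ℕ → unitInterval) → ℝ) (n : ℕ)
    (u : V × ℕ → unitInterval) : recon a (n + 1) u = reconStep a u (recon a n u) := by
  unfold recon
  rw [Function.iterate_succ_apply']

theorem recon_label (a : V → ℕ → (V × ℕ → unitInterval) → ℝ) (n : ℕ)
    (u : V × ℕ → unitInterval) (v : V) : recon a n u (v, 0) = u (v, 0) := by
  cases n with
  | zero => rfl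
  | succ n => rw [recon_succ']; rfl

theorem postMean_congr' (μ : Measure (V → Bool)) (D : Finset V) (v : V) {y y' : V → ℝ}
    (h : ∀ u ∈ D, y u = y' u) : postMean μ D v y = postMean μ D v y' := by
  unfold postMean
  have : ∀ σ : V → Bool, ∑ u ∈ D, y u * spin (σ u) = ∑ u ∈ D, y' u * spin (σ u) := fun σ =>
    Finset.sum_congr rfl fun u hu => by rw [h u hu]
  simp_rw [this]

open Classical in
/-- the rank of the event `(v,k)` -/
noncomputable def rank (D : Finset V) (x : V × ℕ → unitInterval) (v : V) (k : ℕ) : ℕ :=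
  k * (D.card + 1) + (D.filter fun u => x (u, 0) < x (v, 0)).card

theorem rank_lt (D : Finset V) (x : V × ℕ → unitInterval) {u v : V} {i k : ℕ} (hu : u ∈ D)
    (h : i < k ∨ (i = k ∧ x (u, 0) < x (v, 0))) : rank D x u i < rank D x v k := by
  classical
  unfold rank
  rcases h with h | ⟨h, h'⟩
  · have h1 : (D.filter fun w => x (w, 0) < x (u, 0)).card ≤ D.card := Finset.card_filter_le _ _
    have h2 : (i + 1) * (D.card + 1) ≤ k * (D.card + 1) := Nat.mul_le_mul_right _ h
    nlinarith
  · subst h
    have : (D.filter fun w => x (w, 0) < x (u, 0)).card <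
        (D.filter fun w => x (w, 0) < x (v, 0)).card := by
      apply Finset.card_lt_card
      rw [Finset.ssubset_iff_of_subset]
      · exact ⟨u, Finset.mem_filter.2 ⟨hu, h'⟩, by simp⟩
      · intro w hw
        rw [Finset.mem_filter] at hw ⊢
        exact ⟨hw.1, hw.2.trans h'⟩
    omega

theorem rank_lt' (D : Finset V) (x : V × ℕ → unitInterval) (v : V) (k : ℕ) :
    rank D x v k < (k + 1) * (D.card + 1) := by
  classical
  unfold rank
  have h1 : (D.filter fun w => x (w, 0) < x (v, 0)).card ≤ D.card := Finset.card_filter_le _ _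
  nlinarith

/-- reconstruction is exact after enough steps -/
theorem recon_innov (μ : Measure (V → Bool)) [IsProbabilityMeasure μ] {ε : ℝ}
    (h0 : 0 < ε) (h1 : ε < 1) (D : Finset V) (x : V × ℕ → unitInterval) (v : V) (k n : ℕ)
    (hn : (k + 1) * (D.card + 1) ≤ n) (_hv : v ∈ D) :
    recon (predFin μ ε D) n (innov (predFin μ ε D) x) (v, k + 1) = x (v, k + 1) := by
  classical
  set a := predFin μ ε D with ha
  have key : ∀ n : ℕ, ∀ v k, rank D x v k < n → recon a n (innov a x) (v, k + 1) = x (v, k + 1) := by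
    intro n
    induction n with
    | zero => intro v k h; omega
    | succ n ih =>
      intro v k h
      rw [recon_succ']
      change quant (a v k (recon a n (innov a x))) (innov a x (v, k + 1)) = _
      rw [innov_succ]
      have hlab : ∀ w, recon a n (innov a x) (w, 0) = x (w, 0) := fun w => by
        rw [recon_label]; rfl
      have e1 : a v k (recon a n (innov a x)) = a v k x := by
        simp only [ha, predFin]
        split_ifs with hvD
        · congr 1
          refine postMean_congr' μ D v fun u hu => ?_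
          unfold fieldOf
          refine Finset.sum_congr rfl fun i _ => ?_
          congr 1
          rw [mask_succ, mask_succ]
          simp only [← ha, hlab]
          split_ifs with hb
          · exact ih u i (lt_of_lt_of_le (rank_lt D x hu hb) (Nat.lt_succ_iff.1 h))
          · rfl
        · rfl
      rw [e1]
      refine quant_cdfF ?_ _
      simp only [ha, predFin]
      split_ifs
      · rw [abs_mul, abs_of_pos h0]
        calc ε * |postMean μ D v (fieldOf ε v k x)| ≤ ε * 1 :=
              mul_le_mul_of_nonneg_left (abs_postMean_le _ _ _ _) h0.le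
          _ < 1 := by linarith
      · simp
  exact key n v k (lt_of_lt_of_le (rank_lt' D x v k) hn)

/-- reconstruction is Lipschitz with exponentially decaying influences -/
theorem recon_lip (G : SimpleGraph V) (μ : Measure (V → Bool)) [IsProbabilityMeasure μ]
    {ε θ ρ C : ℝ} (h0 : 0 < ε) (h1 : ε ≤ 1 / 2) (hθ : 0 ≤ θ) (hρ : 0 < ρ) (hC : 0 < C)
    (hεC : 8 / 3 * ε ^ 2 * C ≤ 1 / 2) (D : Finset V)
    (hlip : ∀ v ∈ D, ∀ y y' : V → ℝ,
      |postMean μ D v y - postMean μ D v y'| ≤ ∑ u ∈ D, θ ^ (G.dist v u) * |y u - y' u|)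
    (hker : ∀ v w : V,
      ∑ u ∈ D, θ ^ (G.dist v u) * ρ ^ (G.dist u w) ≤ C * ρ ^ (G.dist v w))
    (u u' : V × ℕ → unitInterval) (hlab : ∀ v, u (v, 0) = u' (v, 0)) (n : ℕ) :
    ∀ v ∈ D, ∀ k : ℕ,
      |(recon (predFin μ ε D) n u (v, k + 1) : ℝ) - recon (predFin μ ε D) n u' (v, k + 1)| ≤
        ∑ w ∈ D, ∑ i ∈ Finset.range (k + 1),
          4 * 2 ^ k * ρ ^ (G.dist v w) * |(u (w, i + 1) : ℝ) - u' (w, i + 1)| := by
  classical
  set a := predFin μ ε D with ha
  set dl : V → ℕ → ℝ := fun w i => |(u (w, i + 1) : ℝ) - u' (w, i + 1)| with hdl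
  have hdl0 : ∀ w i, 0 ≤ dl w i := fun w i => abs_nonneg _
  have habd : ∀ v k x, |a v k x| ≤ ε := by
    intro v k x
    simp only [ha, predFin]
    split_ifs
    · rw [abs_mul, abs_of_pos h0]
      calc ε * |postMean μ D v (fieldOf ε v k x)| ≤ ε * 1 :=
            mul_le_mul_of_nonneg_left (abs_postMean_le _ _ _ _) h0.le
        _ = ε := mul_one _
    · simpa using h0.le
  induction n with
  | zero =>
    intro v hv k
    change dl v k ≤ _
    calc dl v k ≤ 4 * 2 ^ k * ρ ^ (G.dist v v) * dl v k := by
          rw [SimpleGraph.dist_self, pow_zero, mul_one]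
          have : (1 : ℝ) ≤ 4 * 2 ^ k := by
            have : (1 : ℝ) ≤ 2 ^ k := one_le_pow₀ (by norm_num)
            linarith
          nlinarith [hdl0 v k]
      _ ≤ ∑ i ∈ Finset.range (k + 1), 4 * 2 ^ k * ρ ^ (G.dist v v) * dl v i :=
          Finset.single_le_sum (f := fun i => 4 * 2 ^ k * ρ ^ (G.dist v v) * dl v i)
            (fun i _ => by have := hdl0 v i; positivity) (Finset.self_mem_range_succ k)
      _ ≤ ∑ w ∈ D, ∑ i ∈ Finset.range (k + 1), 4 * 2 ^ k * ρ ^ (G.dist v w) * dl w i :=
          Finset.single_le_sum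
            (f := fun w => ∑ i ∈ Finset.range (k + 1), 4 * 2 ^ k * ρ ^ (G.dist v w) * dl w i)
            (fun w _ => Finset.sum_nonneg fun i _ => by have := hdl0 w i; positivity) hv
  | succ n ih =>
    intro v hv k
    set z : V → ℕ → ℝ := fun w i => |(recon a n u (w, i + 1) : ℝ) - recon a n u' (w, i + 1)|
      with hz
    have hz0 : ∀ w i, 0 ≤ z w i := fun w i => abs_nonneg _
    rw [recon_succ', recon_succ']
    change |(quant (a v k (recon a n u)) (u (v, k + 1)) : ℝ) -
      quant (a v k (recon a n u')) (u' (v, k + 1))| ≤ _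
    refine (quant_lip h1 (habd _ _ _) (habd _ _ _) _ _).trans ?_
    -- Lipschitz bound of the predictor
    have hA : |a v k (recon a n u) - a v k (recon a n u')| ≤
        ε * ∑ w ∈ D, θ ^ (G.dist v w) * (∑ i ∈ Finset.range (k + 1), 8 / 3 * ε * z w i) := by
      simp only [ha, predFin, if_pos hv]
      rw [← mul_sub, abs_mul, abs_of_pos h0]
      refine mul_le_mul_of_nonneg_left ?_ h0.le
      refine (hlip v hv _ _).trans (Finset.sum_le_sum fun w _ => ?_)
      refine mul_le_mul_of_nonneg_left ?_ (by positivity)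
      unfold fieldOf
      rw [← Finset.sum_sub_distrib]
      refine (Finset.abs_sum_le_sum_abs _ _).trans (Finset.sum_le_sum fun i _ => ?_)
      refine (ell_lip h0 h1 _ _).trans ?_
      refine mul_le_mul_of_nonneg_left ?_ (by positivity)
      rw [mask_succ, mask_succ]
      simp only [recon_label, hlab]
      split_ifs with hb
      · exact le_rfl
      · rw [sub_self, abs_zero]; exact hz0 w i
    -- insert the induction hypothesis
    have hB : ∑ w ∈ D, θ ^ (G.dist v w) * (∑ i ∈ Finset.range (k + 1), 8 / 3 * ε * z w i) ≤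
        8 / 3 * ε * (∑ i ∈ Finset.range (k + 1), 4 * 2 ^ i) *
          ∑ x ∈ D, ∑ j ∈ Finset.range (k + 1), C * ρ ^ (G.dist v x) * dl x j := by
      have h1' : ∀ w ∈ D, ∀ i ∈ Finset.range (k + 1), z w i ≤
          4 * 2 ^ i * ∑ x ∈ D, ∑ j ∈ Finset.range (k + 1), ρ ^ (G.dist w x) * dl x j := by
        intro w hw i hi
        refine (ih w hw i).trans ?_
        rw [Finset.mul_sum]
        refine Finset.sum_le_sum fun x _ => ?_
        rw [Finset.mul_sum]
        have hsub : Finset.range (i + 1) ⊆ Finset.range (k + 1) := by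
          intro j hj
          rw [Finset.mem_range] at hi hj ⊢
          omega
        refine (Finset.sum_le_sum_of_subset_of_nonneg hsub fun j _ _ => ?_).trans
          (le_of_eq (Finset.sum_congr rfl fun j _ => ?_))
        · have := hdl0 x j
          positivity
        · simp only [hdl]; ring
      calc ∑ w ∈ D, θ ^ (G.dist v w) * (∑ i ∈ Finset.range (k + 1), 8 / 3 * ε * z w i)
          ≤ ∑ w ∈ D, θ ^ (G.dist v w) * (∑ i ∈ Finset.range (k + 1), 8 / 3 * ε *
              (4 * 2 ^ i * ∑ x ∈ D, ∑ j ∈ Finset.range (k + 1), ρ ^ (G.dist w x) * dl x j)) := by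
            refine Finset.sum_le_sum fun w hw => ?_
            refine mul_le_mul_of_nonneg_left (Finset.sum_le_sum fun i hi => ?_) (by positivity)
            exact mul_le_mul_of_nonneg_left (h1' w hw i hi) (by positivity)
        _ = 8 / 3 * ε * (∑ i ∈ Finset.range (k + 1), 4 * 2 ^ i) *
              ∑ x ∈ D, ∑ j ∈ Finset.range (k + 1),
                (∑ w ∈ D, θ ^ (G.dist v w) * ρ ^ (G.dist w x)) * dl x j := by
            have e1 : ∀ w, (∑ i ∈ Finset.range (k + 1), 8 / 3 * ε *
              (4 * 2 ^ i * ∑ x ∈ D, ∑ j ∈ Finset.range (k + 1), ρ ^ (G.dist w x) * dl x j)) =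
              8 / 3 * ε * (∑ i ∈ Finset.range (k + 1), 4 * 2 ^ i) *
                ∑ x ∈ D, ∑ j ∈ Finset.range (k + 1), ρ ^ (G.dist w x) * dl x j := by
              intro w
              rw [← Finset.mul_sum, ← Finset.sum_mul]
              ring
            simp_rw [e1]
            have e2 : ∀ w, θ ^ (G.dist v w) * (8 / 3 * ε *
                (∑ i ∈ Finset.range (k + 1), 4 * 2 ^ i) *
                ∑ x ∈ D, ∑ j ∈ Finset.range (k + 1), ρ ^ (G.dist w x) * dl x j) =
                8 / 3 * ε * (∑ i ∈ Finset.range (k + 1), 4 * 2 ^ i) *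
                (∑ x ∈ D, ∑ j ∈ Finset.range (k + 1),
                  θ ^ (G.dist v w) * ρ ^ (G.dist w x) * dl x j) := by
              intro w
              have e3 : ∑ x ∈ D, ∑ j ∈ Finset.range (k + 1),
                  θ ^ (G.dist v w) * ρ ^ (G.dist w x) * dl x j =
                  θ ^ (G.dist v w) *
                  ∑ x ∈ D, ∑ j ∈ Finset.range (k + 1), ρ ^ (G.dist w x) * dl x j := by
                rw [Finset.mul_sum]
                refine Finset.sum_congr rfl fun x _ => ?_
                rw [Finset.mul_sum]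
                exact Finset.sum_congr rfl fun j _ => by ring
              rw [e3]; ring
            simp_rw [e2]
            rw [← Finset.mul_sum]
            congr 1
            rw [Finset.sum_comm]
            refine Finset.sum_congr rfl fun x _ => ?_
            rw [Finset.sum_comm]
            refine Finset.sum_congr rfl fun j _ => ?_
            rw [Finset.sum_mul]
        _ ≤ _ := by
            refine mul_le_mul_of_nonneg_left ?_ (by positivity)
            refine Finset.sum_le_sum fun x _ => Finset.sum_le_sum fun j _ => ?_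
            exact mul_le_mul_of_nonneg_right (hker v x) (hdl0 x j)
    have hgeom : ∑ i ∈ Finset.range (k + 1), (4 : ℝ) * 2 ^ i ≤ 8 * 2 ^ k := by
      rw [← Finset.mul_sum, geom_sum_eq (by norm_num)]
      rw [pow_succ]
      norm_num
      nlinarith [pow_pos (two_pos : (0 : ℝ) < 2) k]
    set T : ℝ := ∑ x ∈ D, ∑ j ∈ Finset.range (k + 1), ρ ^ (G.dist v x) * dl x j with hT
    have hT0 : 0 ≤ T := Finset.sum_nonneg fun x _ => Finset.sum_nonneg fun j _ => by
      have := hdl0 x j; positivity
    have hCT : ∑ x ∈ D, ∑ j ∈ Finset.range (k + 1), C * ρ ^ (G.dist v x) * dl x j = C * T := by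
      rw [hT, Finset.mul_sum]
      refine Finset.sum_congr rfl fun x _ => ?_
      rw [Finset.mul_sum]
      exact Finset.sum_congr rfl fun j _ => by ring
    rw [hCT] at hB
    have hfinal : ∑ w ∈ D, ∑ i ∈ Finset.range (k + 1), 4 * 2 ^ k * ρ ^ (G.dist v w) *
        |(u (w, i + 1) : ℝ) - u' (w, i + 1)| = 4 * 2 ^ k * T := by
      rw [hT, Finset.mul_sum]
      refine Finset.sum_congr rfl fun x _ => ?_
      rw [Finset.mul_sum]
      exact Finset.sum_congr rfl fun j _ => by simp only [hdl]; ring
    rw [hfinal]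
    have hown : dl v k ≤ T := by
      calc dl v k = ρ ^ (G.dist v v) * dl v k := by
            rw [SimpleGraph.dist_self, pow_zero, one_mul]
        _ ≤ ∑ i ∈ Finset.range (k + 1), ρ ^ (G.dist v v) * dl v i :=
            Finset.single_le_sum (f := fun i => ρ ^ (G.dist v v) * dl v i)
              (fun i _ => by have := hdl0 v i; positivity) (Finset.self_mem_range_succ k)
        _ ≤ T := Finset.single_le_sum
              (f := fun w => ∑ i ∈ Finset.range (k + 1), ρ ^ (G.dist v w) * dl w i)
              (fun w _ => Finset.sum_nonneg fun i _ => by have := hdl0 w i; positivity) hv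
    change _ / 2 + 2 * dl v k ≤ _
    have h2k : (1 : ℝ) ≤ 2 ^ k := one_le_pow₀ (by norm_num)
    have hstep : |a v k (recon a n u) - a v k (recon a n u')| ≤ 4 * 2 ^ k * T := by
      refine hA.trans ?_
      calc ε * _ ≤ ε * (8 / 3 * ε * (∑ i ∈ Finset.range (k + 1), 4 * 2 ^ i) * (C * T)) :=
            mul_le_mul_of_nonneg_left hB h0.le
        _ = (8 / 3 * ε ^ 2 * C) * (∑ i ∈ Finset.range (k + 1), 4 * 2 ^ i) * T := by ring
        _ ≤ 1 / 2 * (8 * 2 ^ k) * T := by
            refine mul_le_mul_of_nonneg_right ?_ hT0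
            exact mul_le_mul hεC hgeom (Finset.sum_nonneg fun i _ => by positivity)
              (by norm_num)
        _ = 4 * 2 ^ k * T := by ring
    nlinarith [mul_le_mul_of_nonneg_right h2k hT0]

end Vale.Agent.P161L
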