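import Vale.Agent.P161L.Levy
import Vale.Agent.P161L.Recon

open MeasureTheory ProbabilityTheory Set Filter Topology

namespace Vale.Agent.P161L

variable {V : Type*}

theorem recon_succ (a : V → ℕ → (V × ℕ → unitInterval) → ℝ) (n : ℕ) (u : V × ℕ → unitInterval) :
    recon a (n + 1) u = reconStep a u (recon a n u) := by
  unfold recon
  rw [Function.iterate_succ_apply']

theorem recon_zero (a : V → ℕ → (V × ℕ → unitInterval) → ℝ) (u : V × ℕ → unitInterval) :
    recon a 0 u = u := rfl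

theorem measurable_recon {a : V → ℕ → (V × ℕ → unitInterval) → ℝ}
    (ha : ∀ v k, Measurable (a v k)) (n : ℕ) : Measurable (recon a n) := by
  induction n with
  | zero => exact measurable_id
  | succ n ih =>
    have : recon a (n + 1) = fun u => reconStep a u (recon a n u) := by
      funext u; exact recon_succ a n u
    rw [this, measurable_pi_iff]
    rintro ⟨v, i⟩
    cases i with
    | zero => exact measurable_pi_apply _
    | succ i =>
      change Measurable fun u => quant (a v i (recon a n u)) (u (v, i + 1))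
      exact measurable_quant.comp (((ha v i).comp ih).prodMk (measurable_pi_apply _))

section

variable [Countable V] (μ : Measure (V → Bool)) [IsProbabilityMeasure μ]

/-- the innovations in the volume `D` -/
noncomputable def xiFin (ε : ℝ) (D : Finset V) (ω : (V → Bool) × (V × ℕ → unitInterval)) :
    V × ℕ → unitInterval := innov (predFin μ ε D) (obs (strOn ε D) ω)

/-- the innovations in infinite volume -/
noncomputable def xiInf (ε : ℝ) (B : V → ℕ → Finset V)
    (ω : (V → Bool) × (V × ℕ → unitInterval)) : V × ℕ → unitInterval :=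
  innov (predInf μ ε B) (obs (fun _ => ε) ω)

theorem measurable_xiFin {ε : ℝ} (h0 : 0 < ε) (h1 : ε < 1) (D : Finset V) :
    Measurable (xiFin μ ε D) :=
  (measurable_innov (isPredictor_predFin μ h0 h1 D).meas).comp (measurable_obs _)

theorem measurable_xiInf {ε : ℝ} (h0 : 0 < ε) (h1 : ε < 1) (B : V → ℕ → Finset V)
    (hmono : ∀ v, Monotone (B v)) (hcov : ∀ v u, ∃ N, u ∈ B v N) :
    Measurable (xiInf μ ε B) :=
  (measurable_innov (isPredictor_predInf μ h0 h1 B hmono hcov).meas).comp (measurable_obs _)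

omit [Countable V] [IsProbabilityMeasure μ] in
theorem xiFin_succ (ε : ℝ) {D : Finset V} {v : V} (hv : v ∈ D) (k : ℕ)
    (ω : (V → Bool) × (V × ℕ → unitInterval)) :
    xiFin μ ε D ω (v, k + 1) =
      cdfF (predFin μ ε D v k (obs (fun _ => ε) ω)) (obs (fun _ => ε) ω (v, k + 1)) := by
  classical
  unfold xiFin
  rw [innov_succ, obs_succ, obs_succ]
  have e1 : strOn ε D v = ε := by unfold strOn; rw [if_pos hv]
  have e2 : predFin μ ε D v k (obs (strOn ε D) ω) =
      predFin μ ε D v k (obs (fun _ => ε) ω) := by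
    unfold predFin; rw [if_pos hv, if_pos hv, postMean_obs]
  rw [e1, e2]

theorem tendsto_xi {ε : ℝ} (h0 : 0 < ε) (h1 : ε < 1) (B : V → ℕ → Finset V)
    (hmono : ∀ v, Monotone (B v)) (hcov : ∀ v u, ∃ N, u ∈ B v N) (o v : V) (k : ℕ) :
    Tendsto (fun N => ∫ ω, |(xiFin μ ε (B o N) ω (v, k + 1) : ℝ) - xiInf μ ε B ω (v, k + 1)|
      ∂(μ.prod (iidUniform (V × ℕ)))) atTop (𝓝 0) := by
  obtain ⟨N0, hN0⟩ := hcov o v
  have hX : Measurable (obs (fun _ => ε) : (V → Bool) × (V × ℕ → unitInterval) → _) :=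
    measurable_obs _
  have hA := isPredictor_predInf μ h0 h1 B hmono hcov
  refine tendsto_of_tendsto_of_tendsto_of_le_of_le' tendsto_const_nhds
    (tendsto_predFin μ h0 h1 B hmono hcov o v k) ?_ ?_
  · exact Eventually.of_forall fun N => integral_nonneg fun ω => abs_nonneg _
  · filter_upwards [eventually_ge_atTop N0] with N hN
    have hF := isPredictor_predFin μ h0 h1 (B o N)
    refine integral_mono_of_nonneg (Eventually.of_forall fun ω => abs_nonneg _) ?_ ?_
    · refine integrable_of_bdd (C := 2 * ε)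
        ((((hF.meas v k).comp hX).sub ((hA.meas v k).comp hX)).abs) fun ω => ?_
      rw [abs_abs]
      refine (abs_sub _ _).trans ?_
      have := hF.bound v k (obs (fun _ => ε) ω)
      have := hA.bound v k (obs (fun _ => ε) ω)
      linarith
    · refine Eventually.of_forall fun ω => ?_
      beta_reduce
      rw [xiFin_succ μ ε (hmono o hN hN0)]
      unfold xiInf
      rw [innov_succ]
      exact cdfF_lip ((hF.bound v k _).trans h1.le) ((hA.bound v k _).trans h1.le) _

theorem integral_abs_le_of_sq {Ω : Type*} [MeasurableSpace Ω] {P : Measure Ω}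
    [IsProbabilityMeasure P] {f : Ω → ℝ} (hf : Measurable f) {K : ℝ} (hK : ∀ x, |f x| ≤ K)
    {η : ℝ} (hη : 0 < η) (h : ∫ x, f x ^ 2 ∂P ≤ η ^ 2) : ∫ x, |f x| ∂P ≤ η := by
  have hK0 : ∀ x, |f x ^ 2| ≤ K ^ 2 := fun x => by
    rw [abs_pow]; exact pow_le_pow_left₀ (abs_nonneg _) (hK x) 2
  have hI : Integrable (fun x => f x ^ 2) P := integrable_of_bdd (hf.pow_const 2) hK0
  have h1 : ∫ x, |f x| ∂P ≤ ∫ x, (f x ^ 2 / (2 * η) + η / 2) ∂P := by
    refine integral_mono_of_nonneg (Eventually.of_forall fun _ => abs_nonneg _)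
      ((hI.div_const _).add (integrable_const _)) (Eventually.of_forall fun x => ?_)
    beta_reduce
    rw [div_add_div _ _ (by positivity) (by norm_num), le_div_iff₀ (by positivity)]
    nlinarith [sq_nonneg (|f x| - η), sq_abs (f x)]
  rw [integral_add (hI.div_const _) (integrable_const _), integral_div, integral_const] at h1
  simp only [probReal_univ, one_smul] at h1
  have h2 : (∫ x, f x ^ 2 ∂P) / (2 * η) ≤ η / 2 := by
    rw [div_le_div_iff₀ (by positivity) (by norm_num)]
    nlinarith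
  linarith

theorem exists_approx (G : SimpleGraph V) {ε θ ρ C : ℝ} (h0 : 0 < ε) (h1 : ε ≤ 1 / 2)
    (hθ : 0 ≤ θ) (hρ : 0 < ρ) (hC : 0 < C) (hεC : 8 / 3 * ε ^ 2 * C ≤ 1 / 2)
    (B : V → ℕ → Finset V) (hmono : ∀ v, Monotone (B v)) (hcov : ∀ v u, ∃ N, u ∈ B v N) (o : V)
    (hlip : ∀ N, ∀ v ∈ B o N, ∀ y y' : V → ℝ,
      |postMean μ (B o N) v y - postMean μ (B o N) v y'| ≤
        ∑ u ∈ B o N, θ ^ (G.dist v u) * |y u - y' u|)
    (hker : ∀ (D : Finset V) (v w : V),
      ∑ u ∈ D, θ ^ (G.dist v u) * ρ ^ (G.dist u w) ≤ C * ρ ^ (G.dist v w))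
    (hsum : Summable fun w => (ρ ^ (G.dist o w)) ^ 2) (k : ℕ) {δ : ℝ} (hδ : 0 < δ) :
    ∃ g : (V × ℕ → unitInterval) → ℝ, Measurable g ∧ (∀ x, |g x| ≤ 1) ∧
      ∫ ω, |(obs (fun _ => ε) ω (o, k + 1) : ℝ) - g (xiInf μ ε B ω)|
        ∂(μ.prod (iidUniform (V × ℕ))) ≤ δ := by
  classical
  have hε1 : ε < 1 := by linarith
  obtain ⟨emb, hemb⟩ : ∃ emb : V × ℕ ↪ V × ℕ, ∀ p, emb p = (p.1, p.2 + 1) :=
    ⟨⟨fun p => (p.1, p.2 + 1), fun p q h => by
      simp only [Prod.mk.injEq, add_left_inj] at h; exact Prod.ext h.1 h.2⟩, fun p => rfl⟩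
  set A : ℝ := 4 * 2 ^ k with hA
  have hApos : 0 < A := by positivity
  -- the exceptional set
  set δ1 : ℝ := (δ / 2) ^ 2 / ((k + 1) * A ^ 2) with hδ1
  have hδ1pos : 0 < δ1 := by positivity
  obtain ⟨s, hs⟩ := summable_iff_vanishing_norm.1 hsum δ1 hδ1pos
  -- convergence of the innovations in s
  have htend : Tendsto (fun N => ∑ w ∈ s, ∑ i ∈ Finset.range (k + 1),
      A * ρ ^ (G.dist o w) * ∫ ω, |(xiFin μ ε (B o N) ω (w, i + 1) : ℝ) -
        xiInf μ ε B ω (w, i + 1)| ∂(μ.prod (iidUniform (V × ℕ)))) atTop (𝓝 0) := by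
    have : (0 : ℝ) = ∑ w ∈ s, ∑ i ∈ Finset.range (k + 1), A * ρ ^ (G.dist o w) * 0 := by simp
    rw [this]
    refine tendsto_finsetSum _ fun w _ => tendsto_finsetSum _ fun i _ => ?_
    exact (tendsto_xi μ h0 hε1 B hmono hcov o w i).const_mul _
  obtain ⟨N0, hN0⟩ := hcov o o
  obtain ⟨N, hN, hNs⟩ := ((eventually_ge_atTop N0).and
    (htend.eventually (gt_mem_nhds (half_pos hδ)))).exists
  set D := B o N with hD
  have hoD : o ∈ D := hmono o hN hN0
  set n := (k + 1) * (D.card + 1) with hn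
  set F : (V × ℕ → unitInterval) → ℝ := fun u => recon (predFin μ ε D) n u (o, k + 1) with hF
  have hFm : Measurable F := measurable_subtype_coe.comp ((measurable_pi_apply _).comp
    (measurable_recon (isPredictor_predFin μ h0 hε1 D).meas n))
  have hI1 : ∀ x : unitInterval, |(x : ℝ)| ≤ 1 := fun x => by
    rw [abs_of_nonneg x.2.1]; exact x.2.2
  have hFb : ∀ u, |F u| ≤ 1 := fun u => hI1 _
  set S : Finset (V × ℕ) := (D ×ˢ Finset.range (k + 1)).map emb with hS
  set l : List (V × ℕ) := (((D \ s) ×ˢ Finset.range (k + 1)).map emb).toList with hl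
  set c : V × ℕ → ℝ := fun j => A * ρ ^ (G.dist o j.1) with hc
  have hc0 : ∀ j, 0 ≤ c j := fun j => by positivity
  set L : Set (V × ℕ) := {j | j.2 = 0} with hL
  have hFlip : ∀ u u', (∀ j ∈ L, u j = u' j) →
      |F u - F u'| ≤ ∑ j ∈ S, c j * |(u j : ℝ) - u' j| := by
    intro u u' huu
    have := recon_lip G μ h0 h1 hθ hρ hC hεC D (hlip N) (hker D) u u'
      (fun v => huu (v, 0) rfl) n o hoD k
    refine this.trans (le_of_eq ?_)
    rw [hS, Finset.sum_map, Finset.sum_product]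
    simp only [hemb, hc, hA]
  have hmeml : ∀ j, j ∈ l ↔ ∃ w i, w ∈ D ∧ w ∉ s ∧ i < k + 1 ∧ j = (w, i + 1) := by
    intro j
    simp only [hl, Finset.mem_toList, Finset.mem_map, Finset.mem_product, Finset.mem_sdiff,
      Finset.mem_range, hemb, Prod.exists]
    constructor
    · rintro ⟨w, i, ⟨⟨h1, h2⟩, h3⟩, rfl⟩
      exact ⟨w, i, h1, h2, h3, rfl⟩
    · rintro ⟨w, i, h1, h2, h3, rfl⟩
      exact ⟨w, i, ⟨⟨h1, h2⟩, h3⟩, rfl⟩
  have hmemS : ∀ j, j ∈ S ↔ ∃ w i, w ∈ D ∧ i < k + 1 ∧ j = (w, i + 1) := by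
    intro j
    simp only [hS, Finset.mem_map, Finset.mem_product,
      Finset.mem_range, hemb, Prod.exists]
    constructor
    · rintro ⟨w, i, ⟨h1, h3⟩, rfl⟩
      exact ⟨w, i, h1, h3, rfl⟩
    · rintro ⟨w, i, h1, h3, rfl⟩
      exact ⟨w, i, ⟨h1, h3⟩, rfl⟩
  -- oscillation
  have hosc : ∀ j ∈ l, ∀ u r, |F (Function.update u j r) - F u| ≤ c j := by
    intro j hj u r
    obtain ⟨w, i, hw, -, hi, rfl⟩ := (hmeml j).1 hj
    refine (hFlip _ _ ?_).trans ?_
    · intro j' hj'
      rw [Function.update_of_ne]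
      rintro rfl
      simp [hL] at hj'
    · have hjS : (w, i + 1) ∈ S := (hmemS _).2 ⟨w, i, hw, hi, rfl⟩
      rw [Finset.sum_eq_single_of_mem _ hjS]
      · rw [Function.update_self]
        have : |(r : ℝ) - u (w, i + 1)| ≤ 1 := by
          rw [abs_le]
          constructor <;> linarith [r.2.1, r.2.2, (u (w, i + 1)).2.1, (u (w, i + 1)).2.2]
        calc c (w, i + 1) * |(r : ℝ) - u (w, i + 1)| ≤ c (w, i + 1) * 1 :=
              mul_le_mul_of_nonneg_left this (hc0 _)
          _ = c (w, i + 1) := mul_one _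
      · intro j' _ hne
        rw [Function.update_of_ne hne, sub_self, abs_zero, mul_zero]
  have hES := efron_stein' l hFm ⟨1, hFb⟩ c hosc
  have hsuml : (l.map fun j => c j ^ 2).sum ≤ (δ / 2) ^ 2 := by
    have e1 : (l.map fun j => c j ^ 2).sum =
        ∑ w ∈ D \ s, ∑ i ∈ Finset.range (k + 1), (A * ρ ^ (G.dist o w)) ^ 2 := by
      rw [hl, Finset.sum_map_toList, Finset.sum_map, Finset.sum_product]
      simp only [hemb, hc]
    rw [e1]
    have e2 : ∑ w ∈ D \ s, ∑ i ∈ Finset.range (k + 1), (A * ρ ^ (G.dist o w)) ^ 2 =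
        ((k + 1) * A ^ 2) * ∑ w ∈ D \ s, (ρ ^ (G.dist o w)) ^ 2 := by
      rw [Finset.mul_sum]
      refine Finset.sum_congr rfl fun w _ => ?_
      rw [Finset.sum_const, Finset.card_range, nsmul_eq_mul]
      push_cast
      ring
    rw [e2]
    have hv := hs (D \ s) Finset.sdiff_disjoint
    rw [Real.norm_of_nonneg (Finset.sum_nonneg fun w _ => by positivity)] at hv
    calc ((k + 1) * A ^ 2) * ∑ w ∈ D \ s, (ρ ^ (G.dist o w)) ^ 2
        ≤ ((k + 1) * A ^ 2) * δ1 := mul_le_mul_of_nonneg_left hv.le (by positivity)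
      _ = (δ / 2) ^ 2 := by rw [hδ1]; field_simp
  have havm : Measurable (avgL l F) := avgL_measurable l hFm
  have havb : ∀ x, |avgL l F x| ≤ 1 := avgL_bounded l hFb
  refine ⟨avgL l F, havm, havb, ?_⟩
  set P := μ.prod (iidUniform (V × ℕ)) with hP
  have hxim : Measurable (xiFin μ ε D) := measurable_xiFin μ h0 hε1 D
  have hxiI : Measurable (xiInf μ ε B) := measurable_xiInf μ h0 hε1 B hmono hcov
  have hlaw : P.map (xiFin μ ε D) = iidUniform (V × ℕ) :=
    map_innov_obs μ hε1 (abs_strOn_le h0 D) (isPredictor_predFin μ h0 hε1 D)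
  -- exact reconstruction
  have hrec : ∀ ω, (obs (fun _ => ε) ω (o, k + 1) : ℝ) = F (xiFin μ ε D ω) := by
    intro ω
    simp only [hF, xiFin]
    rw [recon_innov μ h0 hε1 D _ o k n le_rfl hoD, obs_succ, obs_succ]
    have e1 : strOn ε D o = ε := by unfold strOn; rw [if_pos hoD]
    rw [e1]
  -- first error
  have herr1 : ∫ ω, |F (xiFin μ ε D ω) - avgL l F (xiFin μ ε D ω)| ∂P ≤ δ / 2 := by
    refine integral_abs_le_of_sq (f := fun ω => F (xiFin μ ε D ω) - avgL l F (xiFin μ ε D ω))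
      ((hFm.comp hxim).sub (havm.comp hxim)) (K := 2) (fun ω => ?_) (half_pos hδ) ?_
    · refine (abs_sub _ _).trans ?_
      have := hFb (xiFin μ ε D ω)
      have := havb (xiFin μ ε D ω)
      linarith
    · have : ∫ ω, (F (xiFin μ ε D ω) - avgL l F (xiFin μ ε D ω)) ^ 2 ∂P =
          ∫ u, (F u - avgL l F u) ^ 2 ∂(iidUniform (V × ℕ)) := by
        rw [← hlaw, integral_map hxim.aemeasurable]
        exact ((hFm.sub havm).pow_const 2).aestronglyMeasurable
      rw [this]
      exact hES.trans hsuml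
  -- second error
  have hlipav0 := avgL_lip l hFm ⟨1, hFb⟩ L S c hc0 (fun j hj => by
    obtain ⟨w, i, -, -, -, rfl⟩ := (hmeml j).1 hj
    simp [hL]) hFlip
  have hlipav : ∀ u u', (∀ j ∈ L, u j = u' j) →
      |avgL l F u - avgL l F u'| ≤ ∑ j ∈ S with j ∉ l, c j * |(u j : ℝ) - u' j| := by
    intro u u' h
    have h2 := hlipav0 u u' h
    rw [Finset.sum_filter] at h2 ⊢
    refine h2.trans (le_of_eq (Finset.sum_congr rfl fun j _ => ?_))
    by_cases hj : j ∈ l
    · rw [if_neg (not_not.2 hj), if_neg (not_not.2 hj)]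
    · rw [if_pos hj, if_pos hj]
  have hlipav' : ∀ ω, |avgL l F (xiFin μ ε D ω) - avgL l F (xiInf μ ε B ω)| ≤
      ∑ w ∈ s, ∑ i ∈ Finset.range (k + 1), A * ρ ^ (G.dist o w) *
        |(xiFin μ ε D ω (w, i + 1) : ℝ) - xiInf μ ε B ω (w, i + 1)| := by
    intro ω
    refine (hlipav (xiFin μ ε D ω) (xiInf μ ε B ω) ?_).trans ?_
    · rintro ⟨v, m⟩ hj
      have : m = 0 := hj
      subst this
      rfl
    · have e1 : ∑ w ∈ s, ∑ i ∈ Finset.range (k + 1), A * ρ ^ (G.dist o w) *
          |(xiFin μ ε D ω (w, i + 1) : ℝ) - xiInf μ ε B ω (w, i + 1)| =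
          ∑ j ∈ (s ×ˢ Finset.range (k + 1)).map emb,
            c j * |(xiFin μ ε D ω j : ℝ) - xiInf μ ε B ω j| := by
        rw [Finset.sum_map, Finset.sum_product]
        simp only [hemb, hc]
      rw [e1]
      refine Finset.sum_le_sum_of_subset_of_nonneg ?_ fun j _ _ =>
        mul_nonneg (hc0 j) (abs_nonneg _)
      intro j hj
      rw [Finset.mem_filter] at hj
      obtain ⟨w, i, hw, hi, rfl⟩ := (hmemS j).1 hj.1
      rw [Finset.mem_map]
      refine ⟨(w, i), ?_, hemb _⟩
      rw [Finset.mem_product, Finset.mem_range]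
      refine ⟨?_, hi⟩
      by_contra hws
      exact hj.2 ((hmeml _).2 ⟨w, i, hw, hws, hi, rfl⟩)
  have hmd : ∀ w i, Measurable fun ω =>
      |(xiFin μ ε D ω (w, i + 1) : ℝ) - xiInf μ ε B ω (w, i + 1)| := fun w i =>
    ((measurable_subtype_coe.comp ((measurable_pi_apply (w, i + 1)).comp hxim)).sub
      (measurable_subtype_coe.comp ((measurable_pi_apply (w, i + 1)).comp hxiI))).abs
  have hbd : ∀ w i ω, |(|(xiFin μ ε D ω (w, i + 1) : ℝ) - xiInf μ ε B ω (w, i + 1)|)| ≤ 1 := by
    intro w i ω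
    rw [abs_abs, abs_le]
    constructor <;> linarith [(xiFin μ ε D ω (w, i + 1)).2.1, (xiFin μ ε D ω (w, i + 1)).2.2,
      (xiInf μ ε B ω (w, i + 1)).2.1, (xiInf μ ε B ω (w, i + 1)).2.2]
  have hid : ∀ w i, Integrable (fun ω =>
      |(xiFin μ ε D ω (w, i + 1) : ℝ) - xiInf μ ε B ω (w, i + 1)|) P := fun w i =>
    integrable_of_bdd (hmd w i) (hbd w i)
  have herr2 : ∫ ω, |avgL l F (xiFin μ ε D ω) - avgL l F (xiInf μ ε B ω)| ∂P ≤ δ / 2 := by
    refine (integral_mono_of_nonneg (Eventually.of_forall fun _ => abs_nonneg _) ?_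
      (Eventually.of_forall hlipav')).trans ?_
    · exact integrable_finsetSum _ fun w _ => integrable_finsetSum _ fun i _ =>
        (hid w i).const_mul _
    · rw [integral_finsetSum]
      · refine le_trans (le_of_eq ?_) hNs.le
        refine Finset.sum_congr rfl fun w _ => ?_
        rw [integral_finsetSum]
        · refine Finset.sum_congr rfl fun i _ => ?_
          rw [integral_const_mul]
        · intro i _
          exact (hid w i).const_mul _
      · intro w _
        exact integrable_finsetSum _ fun i _ => (hid w i).const_mul _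
  -- combine
  have hI1' : Integrable (fun ω => |F (xiFin μ ε D ω) - avgL l F (xiFin μ ε D ω)|) P := by
    refine integrable_of_bdd (C := 2) ((hFm.comp hxim).sub (havm.comp hxim)).abs fun ω => ?_
    rw [abs_abs]
    refine (abs_sub _ _).trans ?_
    have := hFb (xiFin μ ε D ω)
    have := havb (xiFin μ ε D ω)
    linarith
  have hI2' : Integrable (fun ω => |avgL l F (xiFin μ ε D ω) - avgL l F (xiInf μ ε B ω)|) P := by
    refine integrable_of_bdd (C := 2) ((havm.comp hxim).sub (havm.comp hxiI)).abs fun ω => ?_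
    rw [abs_abs]
    refine (abs_sub _ _).trans ?_
    have := havb (xiInf μ ε B ω)
    have := havb (xiFin μ ε D ω)
    linarith
  calc ∫ ω, |(obs (fun _ => ε) ω (o, k + 1) : ℝ) - avgL l F (xiInf μ ε B ω)| ∂P
      ≤ ∫ ω, (|F (xiFin μ ε D ω) - avgL l F (xiFin μ ε D ω)| +
          |avgL l F (xiFin μ ε D ω) - avgL l F (xiInf μ ε B ω)|) ∂P := by
        refine integral_mono_of_nonneg (Eventually.of_forall fun _ => abs_nonneg _)
          (hI1'.add hI2') (Eventually.of_forall fun ω => ?_)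
        beta_reduce
        rw [hrec ω]
        exact abs_sub_le _ _ _
    _ = _ := integral_add hI1' hI2'
    _ ≤ δ / 2 + δ / 2 := add_le_add herr1 herr2
    _ = δ := add_halves δ

end

end Vale.Agent.P161L
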