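import Vale.Agent.P161L.Resample

open MeasureTheory ProbabilityTheory Set Filter Topology

namespace Vale.Agent.P161L

variable {V : Type*}

instance instProbIidUniform (ι : Type*) : IsProbabilityMeasure (iidUniform ι) := by
  unfold iidUniform; infer_instance

theorem abs_spin (b : Bool) : |spin b| = 1 := by cases b <;> simp [spin]

theorem measurable_spin : Measurable spin := measurable_of_countable _

theorem mask_zero (v : V) (k : ℕ) (x : V × ℕ → unitInterval) (u : V) :
    mask v k x (u, 0) = x (u, 0) := rfl

open Classical in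
theorem mask_succ (v : V) (k : ℕ) (x : V × ℕ → unitInterval) (u : V) (i : ℕ) :
    mask v k x (u, i + 1) =
      if i < k ∨ (i = k ∧ x (u, 0) < x (v, 0)) then x (u, i + 1) else half := rfl

theorem mask_mask {u v : V} {i k : ℕ} {x : V × ℕ → unitInterval}
    (h : (i < k ∨ (i = k ∧ x (u, 0) < x (v, 0))) ∨ (i = k ∧ u = v)) :
    mask u i (mask v k x) = mask u i x := by
  classical
  funext j
  obtain ⟨w, m⟩ := j
  cases m with
  | zero => rfl
  | succ m =>
    rw [mask_succ u i (mask v k x), mask_succ u i x, mask_zero, mask_zero]
    split_ifs with h1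
    · rw [mask_succ, if_pos]
      rcases h with (h | ⟨h, h'⟩) | ⟨h, h'⟩
      · rcases h1 with h1 | ⟨h1, h1'⟩
        · left; omega
        · left; omega
      · rcases h1 with h1 | ⟨h1, h1'⟩
        · left; omega
        · right; exact ⟨by omega, h1'.trans h'⟩
      · subst h; subst h'; exact h1
    · rfl

theorem mask_self (v : V) (k : ℕ) (x : V × ℕ → unitInterval) :
    mask v k (mask v k x) = mask v k x := mask_mask (Or.inr ⟨rfl, rfl⟩)

open Classical in
theorem mask_update_self (v : V) (k : ℕ) (x : V × ℕ → unitInterval) (r : unitInterval) :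
    mask v k (Function.update x (v, k + 1) r) = mask v k x := by
  funext j
  obtain ⟨w, m⟩ := j
  cases m with
  | zero => rw [mask_zero, mask_zero, Function.update_of_ne (by simp)]
  | succ m =>
    rw [mask_succ, mask_succ, Function.update_of_ne (by simp), Function.update_of_ne (by simp)]
    split_ifs with h
    · rw [Function.update_of_ne]
      rintro h'
      simp only [Prod.mk.injEq] at h'
      obtain ⟨h1, h2⟩ := h'
      subst h1
      have : m = k := by omega
      subst this
      simp at h
    · rfl

theorem measurable_mask (v : V) (k : ℕ) : Measurable (mask v k) := by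
  classical
  rw [measurable_pi_iff]
  rintro ⟨u, i⟩
  cases i with
  | zero => exact measurable_pi_apply _
  | succ i =>
    simp only [mask_succ]
    refine Measurable.ite ?_ (measurable_pi_apply _) measurable_const
    by_cases h1 : i < k
    · simp [h1]
    · by_cases h2 : i = k
      · simp only [h2, lt_self_iff_false, true_and, false_or]
        exact measurableSet_lt (measurable_pi_apply _) (measurable_pi_apply _)
      · simp [h1, h2]

theorem obs_zero (str : V → ℝ) (ω : (V → Bool) × (V × ℕ → unitInterval)) (v : V) :
    obs str ω (v, 0) = ω.2 (v, 0) := rfl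

theorem obs_succ (str : V → ℝ) (ω : (V → Bool) × (V × ℕ → unitInterval)) (v : V) (k : ℕ) :
    obs str ω (v, k + 1) = quant (str v * spin (ω.1 v)) (ω.2 (v, k + 1)) := rfl

theorem innov_zero (a : V → ℕ → (V × ℕ → unitInterval) → ℝ) (x : V × ℕ → unitInterval) (v : V) :
    innov a x (v, 0) = x (v, 0) := rfl

theorem innov_succ (a : V → ℕ → (V × ℕ → unitInterval) → ℝ) (x : V × ℕ → unitInterval) (v : V)
    (k : ℕ) : innov a x (v, k + 1) = cdfF (a v k x) (x (v, k + 1)) := rfl

open Classical in
theorem obs_update (str : V → ℝ) (σ : V → Bool) (R : V × ℕ → unitInterval) (v : V) (k : ℕ)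
    (r : unitInterval) :
    obs str (σ, Function.update R (v, k + 1) r) =
      Function.update (obs str (σ, R)) (v, k + 1) (quant (str v * spin (σ v)) r) := by
  funext j
  obtain ⟨w, m⟩ := j
  by_cases hj : (w, m) = (v, k + 1)
  · rw [hj, Function.update_self, obs_succ]
    simp only [Function.update_self]
  · rw [Function.update_of_ne hj]
    cases m with
    | zero => rw [obs_zero, obs_zero]; exact Function.update_of_ne hj _ _
    | succ m =>
      rw [obs_succ, obs_succ]
      simp only [Function.update_of_ne hj]

theorem measurable_obs (str : V → ℝ) : Measurable (obs str) := by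
  rw [measurable_pi_iff]
  rintro ⟨u, i⟩
  cases i with
  | zero => exact (measurable_pi_apply _).comp measurable_snd
  | succ i =>
    simp only [obs_succ]
    refine measurable_quant.comp (Measurable.prodMk ?_ ?_)
    · exact (measurable_spin.comp ((measurable_pi_apply _).comp measurable_fst)).const_mul _
    · exact (measurable_pi_apply _).comp measurable_snd

theorem measurable_innov {a : V → ℕ → (V × ℕ → unitInterval) → ℝ}
    (ha : ∀ v k, Measurable (a v k)) : Measurable (innov a) := by
  rw [measurable_pi_iff]
  rintro ⟨u, i⟩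
  cases i with
  | zero => exact measurable_pi_apply _
  | succ i =>
    simp only [innov_succ]
    exact measurable_cdfF.comp ((ha _ _).prodMk (measurable_pi_apply _))

theorem integrable_of_bdd {Ω : Type*} [MeasurableSpace Ω] {P : Measure Ω} [IsFiniteMeasure P]
    {f : Ω → ℝ} (hf : Measurable f) {C : ℝ} (hC : ∀ x, |f x| ≤ C) : Integrable f P :=
  Integrable.of_bound hf.aestronglyMeasurable C (Eventually.of_forall hC)

theorem integral_resample' {ι : Type*} [inst : DecidableEq ι] (j : ι)
    {F : (ι → unitInterval) → ℝ} (hF : Measurable F) (hb : ∃ C, ∀ x, |F x| ≤ C) :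
    ∫ R, F R ∂(iidUniform ι) =
      ∫ R, (∫ r : unitInterval, F (Function.update R j r)) ∂(iidUniform ι) := by
  have e : inst = fun a b => Classical.propDecidable (a = b) := Subsingleton.elim _ _
  subst e
  exact integral_resample j hF hb

theorem efron_stein' {ι : Type*} [inst : DecidableEq ι] (l : List ι)
    {F : (ι → unitInterval) → ℝ} (hF : Measurable F)
    (hb : ∃ C, ∀ x, |F x| ≤ C) (c : ι → ℝ)
    (h : ∀ j ∈ l, ∀ u r, |F (Function.update u j r) - F u| ≤ c j) :
    ∫ u, (F u - avgL l F u) ^ 2 ∂(iidUniform ι) ≤ (l.map fun j => c j ^ 2).sum := by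
  have e : inst = fun a b => Classical.propDecidable (a = b) := Subsingleton.elim _ _
  subst e
  exact efron_stein l hF hb c h

theorem integral_quant_finset' {ι : Type*} [inst : DecidableEq ι] (a : ι → ℝ)
    (ha : ∀ j, |a j| < 1)
    (S : Finset ι) {F : (ι → unitInterval) → ℝ} (hF : Measurable F)
    (hb : ∃ C, ∀ x, |F x| ≤ C) :
    ∫ R, F (fun j => if j ∈ S then quant (a j) (R j) else R j) ∂(iidUniform ι) =
      ∫ R, F R * ∏ j ∈ S, (1 + a j * (2 * (R j : ℝ) - 1)) ∂(iidUniform ι) := by
  have e : inst = fun a b => Classical.propDecidable (a = b) := Subsingleton.elim _ _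
  subst e
  exact integral_quant_finset a ha S hF hb

end Vale.Agent.P161L
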