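import Vale.Agent.P161L.Law

open MeasureTheory ProbabilityTheory Set Filter Topology

namespace Vale.Agent.P161L

variable {V : Type*}

theorem abs_strOn_le {ε : ℝ} (h0 : 0 < ε) (D : Finset V) (v : V) : |strOn ε D v| ≤ ε := by
  classical
  unfold strOn
  split_ifs
  · rw [abs_of_pos h0]
  · simpa using h0.le

theorem half_coe : ((half : unitInterval) : ℝ) = 1 / 2 := rfl

theorem bayes_fixed (σ : V → Bool) {ε : ℝ} (h0 : 0 < ε) (h1 : ε < 1) (D : Finset V) (v : V)
    (k : ℕ) {F : (V × ℕ → unitInterval) → ℝ} (hF : Measurable F) {C : ℝ} (hb : ∀ x, |F x| ≤ C) :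
    ∫ R, F (mask v k (obs (strOn ε D) (σ, R))) ∂(iidUniform (V × ℕ)) =
      ∫ R, F (mask v k R) * ∏ u ∈ D, ∏ i ∈ Finset.range (k + 1),
        (1 + ε * spin (σ u) * (2 * (mask v k R (u, i + 1) : ℝ) - 1)) ∂(iidUniform (V × ℕ)) := by
  classical
  have hC0 : 0 ≤ C := (abs_nonneg _).trans (hb (fun _ => half))
  set b : V × ℕ → ℝ := fun j => strOn ε D j.1 * spin (σ j.1) with hbdef
  have hb1 : ∀ j, |b j| < 1 := fun j => by
    simp only [hbdef]
    rw [abs_mul, abs_spin, mul_one]
    exact (abs_strOn_le h0 D _).trans_lt h1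
  obtain ⟨emb, hemb⟩ : ∃ emb : V × ℕ ↪ V × ℕ, ∀ p, emb p = (p.1, p.2 + 1) :=
    ⟨⟨fun p => (p.1, p.2 + 1), fun p q h => by
      simp only [Prod.mk.injEq, add_left_inj] at h; exact Prod.ext h.1 h.2⟩, fun p => rfl⟩
  set S0 : Finset (V × ℕ) := (D ×ˢ Finset.range (k + 1)).map emb with hS0
  set S : Finset V → Finset (V × ℕ) := fun T =>
    S0.filter (fun j => j.2 ≤ k ∨ (j.2 = k + 1 ∧ j.1 ∈ T)) with hS
  set W : (V × ℕ → unitInterval) → ℝ := fun R => ∏ u ∈ D, ∏ i ∈ Finset.range (k + 1),
        (1 + ε * spin (σ u) * (2 * (mask v k R (u, i + 1) : ℝ) - 1)) with hW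
  set A : Finset V → (V × ℕ → unitInterval) → Prop := fun T x =>
    ∀ u ∈ D, (x (u, 0) < x (v, 0) ↔ u ∈ T) with hA
  have hAm : ∀ T, MeasurableSet {x | A T x} := by
    intro T
    have : {x : V × ℕ → unitInterval | A T x} =
        ⋂ u ∈ D, {x : V × ℕ → unitInterval | (x (u, 0) < x (v, 0) ↔ u ∈ T)} := by
      ext x; simp [hA]
    rw [this]
    refine Finset.measurableSet_biInter D fun u _ => ?_
    by_cases huT : u ∈ T
    · simp only [huT, iff_true]
      exact measurableSet_lt (measurable_pi_apply _) (measurable_pi_apply _)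
    · simp only [huT, iff_false, not_lt]
      exact measurableSet_le (measurable_pi_apply _) (measurable_pi_apply _)
  have hsumA : ∀ (x : V × ℕ → unitInterval) (c : ℝ),
      ∑ T ∈ D.powerset, (if A T x then c else 0) = c := by
    intro x c
    rw [Finset.sum_eq_single (D.filter fun u => x (u, 0) < x (v, 0))]
    · rw [if_pos]
      intro u hu
      simp [hu]
    · intro T hT hne
      rw [if_neg]
      intro hAT
      apply hne
      ext u
      rw [Finset.mem_filter]
      constructor
      · intro hu
        have huD := Finset.mem_powerset.1 hT hu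
        exact ⟨huD, (hAT u huD).2 hu⟩
      · rintro ⟨huD, hu⟩
        exact (hAT u huD).1 hu
    · intro h
      exact absurd (Finset.mem_powerset.2 (Finset.filter_subset _ _)) h
  set FT : Finset V → (V × ℕ → unitInterval) → ℝ := fun T x =>
    if A T x then F (mask v k x) else 0 with hFT
  have hFTm : ∀ T, Measurable (FT T) := fun T =>
    Measurable.ite (hAm T) (hF.comp (measurable_mask v k)) measurable_const
  have hFTb : ∀ T x, |FT T x| ≤ C := fun T x => by
    simp only [hFT]; split_ifs
    · exact hb _
    · simpa using hC0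
  -- membership in S0
  have hmemS0 : ∀ u i, (u, i + 1) ∈ S0 ↔ u ∈ D ∧ i ≤ k := by
    intro u i
    simp only [hS0, Finset.mem_map, Finset.mem_product, Finset.mem_range, hemb,
      Prod.mk.injEq, Prod.exists, add_left_inj]
    constructor
    · rintro ⟨u', i', ⟨h1, h2⟩, rfl, h3⟩
      exact ⟨h1, by omega⟩
    · rintro ⟨h1, h2⟩
      exact ⟨u, i, ⟨h1, by omega⟩, rfl, rfl⟩
  have hmemS0' : ∀ u, (u, 0) ∉ S0 := by
    intro u
    simp [hS0, hemb]
  set XS : Finset V → (V × ℕ → unitInterval) → (V × ℕ → unitInterval) := fun T R j =>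
    if j ∈ S T then quant (b j) (R j) else R j with hXS
  have hXS0 : ∀ T R u, XS T R (u, 0) = R (u, 0) := by
    intro T R u
    simp only [hXS]
    rw [if_neg]
    intro h
    exact hmemS0' u (Finset.mem_filter.1 h).1
  have hXFT : ∀ T R, FT T (obs (strOn ε D) (σ, R)) = FT T (XS T R) := by
    intro T R
    simp only [hFT]
    have hiff : A T (obs (strOn ε D) (σ, R)) ↔ A T (XS T R) := by
      simp only [hA, obs_zero, hXS0]
    by_cases hAT : A T (obs (strOn ε D) (σ, R))
    · rw [if_pos hAT, if_pos (hiff.1 hAT)]
      congr 1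
      funext j
      obtain ⟨u, m⟩ := j
      cases m with
      | zero => rw [mask_zero, mask_zero, obs_zero, hXS0]
      | succ i =>
        rw [mask_succ, mask_succ, obs_zero, obs_zero, hXS0, hXS0]
        split_ifs with hbef
        · rw [obs_succ]
          simp only [hXS]
          by_cases hu : u ∈ D
          · have hmem : (u, i + 1) ∈ S T := by
              simp only [hS, Finset.mem_filter, hmemS0]
              have hik : i ≤ k := by omega
              refine ⟨⟨hu, hik⟩, ?_⟩
              rcases hbef with h | ⟨h, h'⟩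
              · left; omega
              · right; exact ⟨by omega, (hAT u hu).1 h'⟩
            rw [if_pos hmem]
          · have hmem : (u, i + 1) ∉ S T := by
              simp only [hS, Finset.mem_filter, hmemS0]
              tauto
            rw [if_neg hmem]
            have : strOn ε D u = 0 := by unfold strOn; rw [if_neg hu]
            rw [this, zero_mul, quant_zero]
        · rfl
    · rw [if_neg hAT, if_neg (fun h => hAT (hiff.2 h))]
  have hprodW : ∀ T R, A T R → ∏ j ∈ S T, (1 + b j * (2 * (R j : ℝ) - 1)) = W R := by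
    intro T R hAT
    have e1 : W R = ∏ j ∈ S0, (1 + b j * (2 * (mask v k R j : ℝ) - 1)) := by
      rw [hS0, Finset.prod_map, Finset.prod_product]
      refine Finset.prod_congr rfl fun u hu => Finset.prod_congr rfl fun i _ => ?_
      have : strOn ε D u = ε := by unfold strOn; rw [if_pos hu]
      simp only [hemb, hbdef, this]
    rw [e1, hS, Finset.prod_filter]
    refine Finset.prod_congr rfl fun j hj => ?_
    obtain ⟨u, m⟩ := j
    cases m with
    | zero => exact absurd hj (hmemS0' u)
    | succ i =>
      obtain ⟨hu, hik⟩ := (hmemS0 u i).1 hj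
      simp only
      by_cases hc : i + 1 ≤ k ∨ (i + 1 = k + 1 ∧ u ∈ T)
      · rw [if_pos hc, mask_succ, if_pos]
        rcases hc with h | ⟨h, h'⟩
        · left; omega
        · right; exact ⟨by omega, (hAT u hu).2 h'⟩
      · rw [if_neg hc, mask_succ, if_neg, half_coe]
        · ring
        · intro h
          apply hc
          rcases h with h | ⟨h, h'⟩
          · left; omega
          · right; exact ⟨by omega, (hAT u hu).1 h'⟩
  -- boundedness and measurability of W
  have hfac : ∀ (u : V) (x : unitInterval), |1 + ε * spin (σ u) * (2 * (x : ℝ) - 1)| ≤ 2 := by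
    intro u x
    refine (abs_add_le _ _).trans ?_
    rw [abs_one, abs_mul, abs_mul, abs_spin, abs_of_pos h0, mul_one]
    have := mul_le_mul h1.le (abs_two_mul_sub_one_le x) (abs_nonneg _) zero_le_one
    linarith
  have hWb : ∀ R, |W R| ≤ ∏ _u ∈ D, ∏ _i ∈ Finset.range (k + 1), (2 : ℝ) := by
    intro R
    simp only [hW]
    rw [Finset.abs_prod]
    refine Finset.prod_le_prod (fun _ _ => abs_nonneg _) fun u _ => ?_
    rw [Finset.abs_prod]
    exact Finset.prod_le_prod (fun _ _ => abs_nonneg _) fun i _ => hfac u _
  have hWm : Measurable W := by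
    refine Finset.measurable_prod _ fun u _ => Finset.measurable_prod _ fun i _ => ?_
    have : Measurable fun R : V × ℕ → unitInterval => (mask v k R (u, i + 1) : ℝ) :=
      measurable_subtype_coe.comp ((measurable_pi_apply (u, i + 1)).comp (measurable_mask v k))
    exact (((this.const_mul 2).sub_const 1).const_mul _).const_add 1
  -- main computation
  have hobsm : Measurable fun R : V × ℕ → unitInterval => obs (strOn ε D) (σ, R) :=
    (measurable_obs _).comp measurable_prodMk_left
  have e1 : ∫ R, F (mask v k (obs (strOn ε D) (σ, R))) ∂(iidUniform (V × ℕ)) =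
      ∫ R, ∑ T ∈ D.powerset, FT T (obs (strOn ε D) (σ, R)) ∂(iidUniform (V × ℕ)) := by
    refine integral_congr_ae (Eventually.of_forall fun R => ?_)
    simp only [hFT]
    rw [hsumA]
  have e2 : ∫ R, F (mask v k R) * W R ∂(iidUniform (V × ℕ)) =
      ∫ R, ∑ T ∈ D.powerset, FT T R * W R ∂(iidUniform (V × ℕ)) := by
    refine integral_congr_ae (Eventually.of_forall fun R => ?_)
    simp only [hFT]
    rw [← Finset.sum_mul, hsumA]
  rw [e1, e2, integral_finsetSum, integral_finsetSum]
  · refine Finset.sum_congr rfl fun T _ => ?_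
    simp_rw [hXFT]
    refine (integral_quant_finset' b hb1 (S T) (hFTm T) ⟨C, hFTb T⟩).trans ?_
    refine integral_congr_ae (Eventually.of_forall fun R => ?_)
    beta_reduce
    by_cases hAT : A T R
    · rw [hprodW T R hAT]
    · have : FT T R = 0 := by simp only [hFT]; rw [if_neg hAT]
      rw [this, zero_mul, zero_mul]
  · intro T _
    refine integrable_of_bdd (C := C * ∏ _u ∈ D, ∏ _i ∈ Finset.range (k + 1), (2 : ℝ))
      ((hFTm T).mul hWm) fun R => ?_
    rw [abs_mul]
    exact mul_le_mul (hFTb _ _) (hWb _) (abs_nonneg _) hC0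
  · intro T _
    exact integrable_of_bdd (C := C) ((hFTm T).comp hobsm) fun R => hFTb _ _

theorem postMean_den_pos (μ : Measure (V → Bool)) [IsProbabilityMeasure μ] (D : Finset V)
    (y : V → ℝ) : 0 < ∫ σ, Real.exp (∑ u ∈ D, y u * spin (σ u)) ∂μ := by
  have hm : Measurable fun σ : V → Bool => Real.exp (∑ u ∈ D, y u * spin (σ u)) :=
    Real.measurable_exp.comp (Finset.measurable_sum _ fun u _ =>
      (measurable_spin.comp (measurable_pi_apply u)).const_mul _)
  have hb : ∀ σ : V → Bool, |Real.exp (∑ u ∈ D, y u * spin (σ u))| ≤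
      Real.exp (∑ u ∈ D, |y u|) := by
    intro σ
    rw [abs_of_pos (Real.exp_pos _)]
    refine Real.exp_le_exp.2 (Finset.sum_le_sum fun u _ => ?_)
    calc y u * spin (σ u) ≤ |y u * spin (σ u)| := le_abs_self _
      _ = |y u| := by rw [abs_mul, abs_spin, mul_one]
  rw [integral_pos_iff_support_of_nonneg (fun σ => (Real.exp_pos _).le)
    (integrable_of_bdd hm hb)]
  have : (Function.support fun σ : V → Bool => Real.exp (∑ u ∈ D, y u * spin (σ u))) = univ := by
    ext σ; simp [Real.exp_ne_zero]
  rw [this]; simp

theorem abs_postMean_le (μ : Measure (V → Bool)) [IsProbabilityMeasure μ] (D : Finset V) (v : V)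
    (y : V → ℝ) : |postMean μ D v y| ≤ 1 := by
  unfold postMean
  have hpos := postMean_den_pos μ D y
  rw [abs_div, abs_of_pos hpos, div_le_one hpos]
  refine (abs_integral_le_integral_abs).trans (le_of_eq ?_)
  refine integral_congr_ae (Eventually.of_forall fun σ => ?_)
  beta_reduce
  rw [abs_mul, abs_spin, one_mul, abs_of_pos (Real.exp_pos _)]

theorem measurable_postMean [Countable V] (μ : Measure (V → Bool)) [IsProbabilityMeasure μ]
    (D : Finset V) (v : V) : Measurable (postMean μ D v) := by
  have h1 : Measurable fun p : (V → ℝ) × (V → Bool) =>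
      Real.exp (∑ u ∈ D, p.1 u * spin (p.2 u)) :=
    Real.measurable_exp.comp (Finset.measurable_sum _ fun u _ =>
      ((measurable_pi_apply u).comp measurable_fst).mul
      (measurable_spin.comp ((measurable_pi_apply u).comp measurable_snd)))
  have h2 : Measurable fun p : (V → ℝ) × (V → Bool) =>
      spin (p.2 v) * Real.exp (∑ u ∈ D, p.1 u * spin (p.2 u)) :=
    (measurable_spin.comp ((measurable_pi_apply v).comp measurable_snd)).mul h1
  exact (h2.stronglyMeasurable.integral_prod_right' (ν := μ)).measurable.div
    (h1.stronglyMeasurable.integral_prod_right' (ν := μ)).measurable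

theorem measurable_fieldOf (ε : ℝ) (v : V) (k : ℕ) :
    Measurable fun x : V × ℕ → unitInterval => fieldOf ε v k x := by
  rw [measurable_pi_iff]
  intro u
  unfold fieldOf
  exact Finset.measurable_sum _ fun i _ => (measurable_ell ε).comp
    ((measurable_pi_apply (u, i + 1)).comp (measurable_mask v k))

theorem fieldOf_mask (ε : ℝ) (v : V) (k : ℕ) (x : V × ℕ → unitInterval) :
    fieldOf ε v k (mask v k x) = fieldOf ε v k x := by
  funext u
  unfold fieldOf
  rw [mask_self]

theorem isPredictor_predFin [Countable V] (μ : Measure (V → Bool)) [IsProbabilityMeasure μ]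
    {ε : ℝ} (h0 : 0 < ε) (h1 : ε < 1) (D : Finset V) :
    IsPredictor μ (strOn ε D) ε (predFin μ ε D) := by
  classical
  refine ⟨?_, ?_, ?_, ?_⟩
  · intro v k
    unfold predFin
    split_ifs
    · exact ((measurable_postMean μ D v).comp (measurable_fieldOf ε v k)).const_mul _
    · exact measurable_const
  · intro v k x
    unfold predFin
    split_ifs
    · rw [abs_mul, abs_of_pos h0]
      calc ε * |postMean μ D v (fieldOf ε v k x)| ≤ ε * 1 :=
            mul_le_mul_of_nonneg_left (abs_postMean_le _ _ _ _) h0.le
        _ = ε := mul_one _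
    · simpa using h0.le
  · intro v k x
    unfold predFin
    rw [fieldOf_mask]
  · intro v k h hm hbd
    obtain ⟨C, hb⟩ := hbd
    have hC0 : 0 ≤ C := (abs_nonneg _).trans (hb (fun _ => half))
    by_cases hv : v ∈ D
    swap
    · have e1 : strOn ε D v = 0 := by unfold strOn; rw [if_neg hv]
      have e2 : ∀ x, predFin μ ε D v k x = 0 := fun x => by unfold predFin; rw [if_neg hv]
      simp [e1, e2]
    have e1 : strOn ε D v = ε := by unfold strOn; rw [if_pos hv]
    set M : (V × ℕ → unitInterval) → ℝ := fun x => postMean μ D v (fieldOf ε v k x) with hM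
    have e2 : ∀ x, predFin μ ε D v k x = ε * M x := fun x => by unfold predFin; rw [if_pos hv]
    have hMm : Measurable M := (measurable_postMean μ D v).comp (measurable_fieldOf ε v k)
    have hMb : ∀ x, |M x| ≤ 1 := fun x => abs_postMean_le _ _ _ _
    have hMmask : ∀ x, M (mask v k x) = M x := fun x => by simp only [hM]; rw [fieldOf_mask]
    -- the weight
    set W : (V → Bool) → (V × ℕ → unitInterval) → ℝ := fun σ R =>
      ∏ u ∈ D, ∏ i ∈ Finset.range (k + 1),
        (1 + ε * spin (σ u) * (2 * (mask v k R (u, i + 1) : ℝ) - 1)) with hW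
    set c : (V × ℕ → unitInterval) → ℝ := fun R =>
      ∏ u ∈ D, ∏ i ∈ Finset.range (k + 1),
        Real.sqrt (1 - ε ^ 2 * (2 * (mask v k R (u, i + 1) : ℝ) - 1) ^ 2) with hc
    have hWexp : ∀ σ R, W σ R = c R * Real.exp (∑ u ∈ D, fieldOf ε v k R u * spin (σ u)) := by
      intro σ R
      simp only [hW, hc]
      rw [Real.exp_sum, ← Finset.prod_mul_distrib]
      refine Finset.prod_congr rfl fun u _ => ?_
      unfold fieldOf
      rw [Finset.sum_mul, Real.exp_sum, ← Finset.prod_mul_distrib]
      refine Finset.prod_congr rfl fun i _ => ?_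
      exact ell_exp h0 h1 (σ u) _
    have hcm : Measurable c := by
      refine Finset.measurable_prod _ fun u _ => Finset.measurable_prod _ fun i _ => ?_
      have : Measurable fun R : V × ℕ → unitInterval => (mask v k R (u, i + 1) : ℝ) :=
        measurable_subtype_coe.comp ((measurable_pi_apply (u, i + 1)).comp (measurable_mask v k))
      exact Real.continuous_sqrt.measurable.comp
        (((((this.const_mul 2).sub_const 1).pow_const 2).const_mul _).const_sub 1)
    have hcb : ∀ R, |c R| ≤ 1 := by
      intro R
      refine abs_prod_le_one _ fun u _ => abs_prod_le_one _ fun i _ => ?_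
      rw [abs_of_nonneg (Real.sqrt_nonneg _)]
      refine Real.sqrt_le_one.2 ?_
      nlinarith [sq_nonneg (ε * (2 * (mask v k R (u, i + 1) : ℝ) - 1))]
    have hmaskobs : Measurable fun ω => mask v k (obs (strOn ε D) ω) :=
      (measurable_mask v k).comp (measurable_obs _)
    have hsm : Measurable fun ω : (V → Bool) × (V × ℕ → unitInterval) => spin (ω.1 v) :=
      measurable_spin.comp ((measurable_pi_apply v).comp measurable_fst)
    -- the exponential
    set E : (V → Bool) → (V × ℕ → unitInterval) → ℝ := fun σ R =>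
      Real.exp (∑ u ∈ D, fieldOf ε v k R u * spin (σ u)) with hE
    have hEm : Measurable fun ω : (V → Bool) × (V × ℕ → unitInterval) => E ω.1 ω.2 :=
      Real.measurable_exp.comp (Finset.measurable_sum _ fun u _ =>
        ((measurable_pi_apply u).comp ((measurable_fieldOf ε v k).comp measurable_snd)).mul
        (measurable_spin.comp ((measurable_pi_apply u).comp measurable_fst)))
    have hWm : Measurable fun ω : (V → Bool) × (V × ℕ → unitInterval) => W ω.1 ω.2 := by
      simp_rw [hWexp]
      exact (hcm.comp measurable_snd).mul hEm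
    have hfac : ∀ (b : Bool) (x : unitInterval), |1 + ε * spin b * (2 * (x : ℝ) - 1)| ≤ 2 := by
      intro b x
      refine (abs_add_le _ _).trans ?_
      rw [abs_one, abs_mul, abs_mul, abs_spin, abs_of_pos h0, mul_one]
      have := mul_le_mul h1.le (abs_two_mul_sub_one_le x) (abs_nonneg _) zero_le_one
      linarith
    set K : ℝ := ∏ _u ∈ D, ∏ _i ∈ Finset.range (k + 1), (2 : ℝ) with hK
    have hWb : ∀ σ R, |W σ R| ≤ K := by
      intro σ R
      simp only [hW]
      rw [Finset.abs_prod]
      refine Finset.prod_le_prod (fun _ _ => abs_nonneg _) fun u _ => ?_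
      rw [Finset.abs_prod]
      exact Finset.prod_le_prod (fun _ _ => abs_nonneg _) fun i _ => hfac _ _
    -- both sides in terms of the product measure with weight
    have hLHS : ∫ ω, strOn ε D v * spin (ω.1 v) * h (mask v k (obs (strOn ε D) ω))
        ∂(μ.prod (iidUniform (V × ℕ))) =
        ∫ R, (∫ σ, ε * spin (σ v) * (h (mask v k R) * W σ R) ∂μ) ∂(iidUniform (V × ℕ)) := by
      have hint1 : Integrable (fun ω : (V → Bool) × (V × ℕ → unitInterval) =>
          strOn ε D v * spin (ω.1 v) * h (mask v k (obs (strOn ε D) ω)))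
          (μ.prod (iidUniform (V × ℕ))) := by
        refine integrable_of_bdd (C := ε * C) ((hsm.const_mul _).mul (hm.comp hmaskobs))
          fun ω => ?_
        rw [abs_mul, abs_mul, abs_spin, mul_one]
        exact mul_le_mul (abs_strOn_le h0 D v) (hb _) (abs_nonneg _) h0.le
      have hint2 : Integrable (Function.uncurry fun (σ : V → Bool) (R : V × ℕ → unitInterval) =>
          ε * spin (σ v) * (h (mask v k R) * W σ R)) (μ.prod (iidUniform (V × ℕ))) := by
        refine integrable_of_bdd (C := ε * (C * K))
          (f := fun ω : (V → Bool) × (V × ℕ → unitInterval) =>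
            ε * spin (ω.1 v) * (h (mask v k ω.2) * W ω.1 ω.2)) ?_ fun ω => ?_
        · exact (hsm.const_mul ε).mul
            ((hm.comp ((measurable_mask v k).comp measurable_snd)).mul hWm)
        · rw [abs_mul, abs_mul, abs_spin, abs_of_pos h0, mul_one, abs_mul]
          exact mul_le_mul_of_nonneg_left
            (mul_le_mul (hb _) (hWb _ _) (abs_nonneg _) hC0) h0.le
      rw [integral_prod _ hint1, ← integral_integral_swap hint2]
      refine integral_congr_ae (Eventually.of_forall fun σ => ?_)
      beta_reduce
      simp only [e1]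
      rw [integral_const_mul, integral_const_mul, bayes_fixed σ h0 h1 D v k hm hb]
    have hRHS : ∫ ω, predFin μ ε D v k (obs (strOn ε D) ω) * h (mask v k (obs (strOn ε D) ω))
        ∂(μ.prod (iidUniform (V × ℕ))) =
        ∫ R, (∫ σ, (ε * M R * h (mask v k R)) * W σ R ∂μ) ∂(iidUniform (V × ℕ)) := by
      have hint1 : Integrable (fun ω : (V → Bool) × (V × ℕ → unitInterval) =>
          predFin μ ε D v k (obs (strOn ε D) ω) * h (mask v k (obs (strOn ε D) ω)))
          (μ.prod (iidUniform (V × ℕ))) := by
        simp only [e2]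
        refine integrable_of_bdd (C := ε * C)
          (((hMm.const_mul ε).comp (measurable_obs _)).mul (hm.comp hmaskobs)) fun ω => ?_
        rw [abs_mul, abs_mul, abs_of_pos h0]
        refine mul_le_mul ?_ (hb _) (abs_nonneg _) h0.le
        calc ε * |M _| ≤ ε * 1 := mul_le_mul_of_nonneg_left (hMb _) h0.le
          _ = ε := mul_one _
      have hint2 : Integrable (Function.uncurry fun (σ : V → Bool) (R : V × ℕ → unitInterval) =>
          (ε * M R * h (mask v k R)) * W σ R) (μ.prod (iidUniform (V × ℕ))) := by
        refine integrable_of_bdd (C := ε * C * K)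
          (f := fun ω : (V → Bool) × (V × ℕ → unitInterval) =>
            (ε * M ω.2 * h (mask v k ω.2)) * W ω.1 ω.2) ?_ fun ω => ?_
        · exact (((hMm.comp measurable_snd).const_mul ε).mul
            (hm.comp ((measurable_mask v k).comp measurable_snd))).mul hWm
        · rw [abs_mul, abs_mul, abs_mul, abs_of_pos h0]
          refine mul_le_mul (mul_le_mul ?_ (hb _) (abs_nonneg _) h0.le) (hWb _ _)
            (abs_nonneg _) (mul_nonneg h0.le hC0)
          calc ε * |M ω.2| ≤ ε * 1 := mul_le_mul_of_nonneg_left (hMb _) h0.le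
            _ = ε := mul_one _
      rw [integral_prod _ hint1, ← integral_integral_swap hint2]
      refine integral_congr_ae (Eventually.of_forall fun σ => ?_)
      beta_reduce
      have := bayes_fixed σ h0 h1 D v k (F := fun x => ε * M x * h x)
        ((hMm.const_mul ε).mul hm) (C := ε * C) fun x => by
          rw [abs_mul, abs_mul, abs_of_pos h0]
          refine mul_le_mul ?_ (hb _) (abs_nonneg _) h0.le
          calc ε * |M x| ≤ ε * 1 := mul_le_mul_of_nonneg_left (hMb x) h0.le
            _ = ε := mul_one _
      simp only [hMmask] at this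
      simp only [e2]
      exact this
    rw [hLHS, hRHS]
    refine integral_congr_ae (Eventually.of_forall fun R => ?_)
    beta_reduce
    have hden := postMean_den_pos μ D (fieldOf ε v k R)
    have hMR : M R * ∫ σ, E σ R ∂μ = ∫ σ, spin (σ v) * E σ R ∂μ := by
      simp only [hM, hE, postMean]
      exact div_mul_cancel₀ _ hden.ne'
    have e3 : ∀ σ, ε * spin (σ v) * (h (mask v k R) * W σ R) =
        (ε * h (mask v k R) * c R) * (spin (σ v) * E σ R) := fun σ => by
      rw [hWexp]; ring
    have e4 : ∀ σ, ε * M R * h (mask v k R) * W σ R =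
        (ε * h (mask v k R) * c R * M R) * E σ R := fun σ => by
      rw [hWexp]; ring
    simp_rw [e3, e4]
    rw [integral_const_mul, integral_const_mul, ← hMR]
    ring

end Vale.Agent.P161L
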