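import Mathlib

open MeasureTheory ProbabilityTheory Set Filter Topology

namespace Vale.Agent.P161L

/-! Basic definitions for the free Ising measure and factors of IID. -/

/-- The spin in {-1, 1} coded by a Boolean: true is +1, false is -1. -/
def spin (b : Bool) : ℝ := if b then 1 else -1

/-- The factor (1 + θ η_u η_v) / 2 attached to an edge {u,v}. -/
noncomputable def edgeWeight {V : Type*} (θ : ℝ) (η : V → Bool) (e : Sym2 V) : ℝ :=
  Sym2.lift ⟨fun u v => (1 + θ * spin (η u) * spin (η v)) / 2, fun u v => by ring⟩ e

open Classical in
/-- `μ` is the free Ising measure on the tree `G` with edge parameter `θ = tanh β`: for every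
finite set `D` of vertices inducing a connected subgraph and every `η`, the probability that the
configuration agrees with `η` on `D` is 1/2 times the product over the edges {u,v} of `G` with both
ends in `D` of (1 + θ η_u η_v) / 2. -/
def IsFreeIsing {V : Type*} (G : SimpleGraph V) (θ : ℝ) (μ : Measure (V → Bool)) : Prop :=
  IsProbabilityMeasure μ ∧
    ∀ D : Finset V, (G.induce (D : Set V)).Connected → ∀ η : V → Bool,
      μ.real {σ | ∀ v ∈ D, σ v = η v} =
        1 / 2 * ∏ e ∈ D.sym2.filter (fun e => e ∈ G.edgeSet), edgeWeight θ η e

/-- The action of a graph automorphism on labellings of the vertices: (g x)_v = x_(g⁻¹ v). -/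
def act {V S : Type*} {G : SimpleGraph V} (g : G ≃g G) (x : V → S) : V → S :=
  fun v => x (g.symm v)

/-- The law of a family of i.i.d. random variables, uniform on [0,1], indexed by `ι`. -/
noncomputable def iidUniform (ι : Type*) : Measure (ι → unitInterval) :=
  Measure.infinitePi fun _ : ι => (volume : Measure unitInterval)

/-- `ν` is a factor of IID. -/
def IsFactorOfIID {V : Type*} (G : SimpleGraph V) (ν : Measure (V → Bool)) : Prop :=
  ∃ Φ : (V → unitInterval) → (V → Bool), Measurable Φ ∧
    (∀ g : G ≃g G, ∀ᵐ U ∂(iidUniform V), Φ (act g U) = act g (Φ U)) ∧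
    (iidUniform V).map Φ = ν

end Vale.Agent.P161L
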