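import Vale.Agent.P161L.Levy

open MeasureTheory ProbabilityTheory Set Filter Topology

namespace Vale.Agent.P161L

variable {V : Type*} {G : SimpleGraph V}

theorem dist_iso_le (hG : G.Connected) (g : G ≃g G) (a b : V) :
    G.dist (g a) (g b) ≤ G.dist a b := by
  obtain ⟨p, hp⟩ := (hG.preconnected a b).exists_walk_length_eq_dist
  rw [← hp, ← SimpleGraph.Walk.length_map g.toHom p]
  exact SimpleGraph.dist_le _

theorem dist_iso (hG : G.Connected) (g : G ≃g G) (a b : V) :
    G.dist (g a) (g b) = G.dist a b := by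
  refine le_antisymm (dist_iso_le hG g a b) ?_
  have := dist_iso_le hG g.symm (g a) (g b)
  simpa using this

/-- the action on the noise -/
def actJ (g : G ≃g G) (R : V × ℕ → unitInterval) : V × ℕ → unitInterval :=
  fun j => R (g.symm j.1, j.2)

theorem measurable_act {S : Type*} [MeasurableSpace S] (g : G ≃g G) :
    Measurable (act g : (V → S) → (V → S)) :=
  measurable_pi_iff.2 fun _ => measurable_pi_apply _

theorem measurable_actJ (g : G ≃g G) : Measurable (actJ g) :=
  measurable_pi_iff.2 fun _ => measurable_pi_apply _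

theorem iidUniform_map_equiv {ι : Type*} (e : ι ≃ ι) :
    (iidUniform ι).map (fun R j => R (e j)) = iidUniform ι := by
  classical
  have hm : Measurable fun (R : ι → unitInterval) (j : ι) => R (e j) :=
    measurable_pi_iff.2 fun _ => measurable_pi_apply _
  refine Measure.eq_infinitePi (fun _ => (volume : Measure unitInterval))
    fun s (t : ι → Set unitInterval) ht => ?_
  rw [Measure.map_apply hm (MeasurableSet.pi s.countable_toSet fun j _ => ht j)]
  have : (fun (R : ι → unitInterval) (j : ι) => R (e j)) ⁻¹' (Set.pi (s : Set ι) t) =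
      Set.pi ((s.map e.toEmbedding : Finset ι) : Set ι) (fun j => t (e.symm j)) := by
    ext R
    simp only [Set.mem_preimage, Set.mem_pi, Finset.mem_coe, Finset.mem_map_equiv]
    constructor
    · intro h j hj
      have := h (e.symm j) hj
      simpa using this
    · intro h j hj
      have := h (e j) (by simpa using hj)
      rw [e.symm_apply_apply] at this
      exact this
  rw [this]
  unfold iidUniform
  rw [Measure.infinitePi_pi _ (fun j _ => ht _), Finset.prod_map]
  refine Finset.prod_congr rfl fun j _ => ?_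
  change volume (t (e.symm (e j))) = volume (t j)
  rw [e.symm_apply_apply]

theorem map_actJ (g : G ≃g G) : (iidUniform (V × ℕ)).map (actJ g) = iidUniform (V × ℕ) := by
  have := iidUniform_map_equiv (ι := V × ℕ)
    (Equiv.prodCongr g.symm.toEquiv (Equiv.refl ℕ))
  exact this

theorem map_act_iid (g : G ≃g G) : (iidUniform V).map (act g) = iidUniform V :=
  iidUniform_map_equiv (ι := V) g.symm.toEquiv

theorem obs_act (ε : ℝ) (g : G ≃g G) (ω : (V → Bool) × (V × ℕ → unitInterval)) :
    obs (fun _ => ε) (act g ω.1, actJ g ω.2) = actJ g (obs (fun _ => ε) ω) := by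
  funext j
  obtain ⟨u, i⟩ := j
  cases i with
  | zero => rfl
  | succ i => rfl

theorem mask_act (g : G ≃g G) (v : V) (k : ℕ) (x : V × ℕ → unitInterval) :
    mask v k (actJ g x) = actJ g (mask (g.symm v) k x) := by
  classical
  funext j
  obtain ⟨u, i⟩ := j
  cases i with
  | zero => rfl
  | succ i =>
    rw [mask_succ]
    change _ = mask (g.symm v) k x (g.symm u, i + 1)
    rw [mask_succ]
    rfl

theorem fieldOf_act (ε : ℝ) (g : G ≃g G) (v : V) (k : ℕ) (x : V × ℕ → unitInterval) (u : V) :
    fieldOf ε v k (actJ g x) u = fieldOf ε (g.symm v) k x (g.symm u) := by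
  unfold fieldOf
  rw [mask_act]
  rfl

theorem postMean_act [Countable V] (μ : Measure (V → Bool)) [IsProbabilityMeasure μ]
    (hG : G.Connected) (g : G ≃g G) (hg : μ.map (act g) = μ) {B : V → ℕ → Finset V}
    (hB : ∀ v N u, u ∈ B v N ↔ G.dist v u ≤ N) (v : V) (N : ℕ) (y : V → ℝ) :
    postMean μ (B v N) v (fun u => y (g.symm u)) = postMean μ (B (g.symm v) N) (g.symm v) y := by
  classical
  have hball : B v N = (B (g.symm v) N).map g.toEquiv.toEmbedding := by
    ext u
    rw [Finset.mem_map_equiv, hB, hB]
    have : G.dist (g.symm v) (g.toEquiv.symm u) = G.dist v u := dist_iso hG g.symm v u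
    rw [this]
  have hsum : ∀ σ : V → Bool, ∑ u ∈ B v N, y (g.symm u) * spin (act g σ u) =
      ∑ u ∈ B (g.symm v) N, y u * spin (σ u) := by
    intro σ
    rw [hball, Finset.sum_map]
    refine Finset.sum_congr rfl fun u _ => ?_
    simp [act]
  have hm1 : Measurable fun σ : V → Bool =>
      Real.exp (∑ u ∈ B v N, y (g.symm u) * spin (σ u)) :=
    Real.measurable_exp.comp (Finset.measurable_sum _ fun u _ =>
      (measurable_spin.comp (measurable_pi_apply u)).const_mul _)
  have hm2 : Measurable fun σ : V → Bool =>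
      spin (σ v) * Real.exp (∑ u ∈ B v N, y (g.symm u) * spin (σ u)) :=
    (measurable_spin.comp (measurable_pi_apply v)).mul hm1
  have e1 : ∫ σ, Real.exp (∑ u ∈ B v N, y (g.symm u) * spin (σ u)) ∂μ =
      ∫ σ, Real.exp (∑ u ∈ B (g.symm v) N, y u * spin (σ u)) ∂μ := by
    conv_lhs => rw [← hg]
    rw [integral_map (measurable_act g).aemeasurable hm1.aestronglyMeasurable]
    simp_rw [hsum]
  have e2 : ∫ σ, spin (σ v) * Real.exp (∑ u ∈ B v N, y (g.symm u) * spin (σ u)) ∂μ =
      ∫ σ, spin (σ (g.symm v)) * Real.exp (∑ u ∈ B (g.symm v) N, y u * spin (σ u)) ∂μ := by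
    conv_lhs => rw [← hg]
    rw [integral_map (measurable_act g).aemeasurable hm2.aestronglyMeasurable]
    simp_rw [hsum]
    rfl
  unfold postMean
  rw [e1, e2]

theorem predInf_act [Countable V] (μ : Measure (V → Bool)) [IsProbabilityMeasure μ]
    (hG : G.Connected) (g : G ≃g G) (hg : μ.map (act g) = μ) {B : V → ℕ → Finset V}
    (hB : ∀ v N u, u ∈ B v N ↔ G.dist v u ≤ N) (ε : ℝ) (v : V) (k : ℕ)
    (x : V × ℕ → unitInterval) :
    predInf μ ε B v k (actJ g x) = predInf μ ε B (g.symm v) k x := by
  unfold predInf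
  congr 1
  congr 1
  funext N
  have : fieldOf ε v k (actJ g x) = fun u => fieldOf ε (g.symm v) k x (g.symm u) := by
    funext u; exact fieldOf_act ε g v k x u
  rw [this]
  exact postMean_act μ hG g hg hB v N _

theorem innov_act {a : V → ℕ → (V × ℕ → unitInterval) → ℝ} (g : G ≃g G)
    (ha : ∀ v k x, a v k (actJ g x) = a (g.symm v) k x) (x : V × ℕ → unitInterval) :
    innov a (actJ g x) = actJ g (innov a x) := by
  funext j
  obtain ⟨u, i⟩ := j
  cases i with
  | zero => rfl
  | succ i =>
    rw [innov_succ, ha]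
    rfl

/-- One uniform variable per vertex suffices. -/
theorem isFactorOfIID_of_extended [Countable V] (ν : Measure (V → Bool))
    (Φ : (V × ℕ → unitInterval) → (V → Bool)) (hΦ : Measurable Φ)
    (heq : ∀ g : G ≃g G, ∀ᵐ u ∂(iidUniform (V × ℕ)), Φ (actJ g u) = act g (Φ u))
    (hlaw : (iidUniform (V × ℕ)).map Φ = ν) : IsFactorOfIID G ν := by
  obtain ⟨τ, hτ, hτlaw⟩ := Measure.exists_measurable_map_eq (iidUniform ℕ)
  set T : (V → unitInterval) → (V × ℕ → unitInterval) := fun U j => τ (U j.1) j.2 with hT
  have hTm : Measurable T := measurable_pi_iff.2 fun j =>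
    (measurable_pi_apply j.2).comp (hτ.comp (measurable_pi_apply j.1))
  have hTlaw : (iidUniform V).map T = iidUniform (V × ℕ) := by
    have h1 : (iidUniform V).map (fun U v => τ (U v)) =
        Measure.infinitePi fun _ : V => iidUniform ℕ := by
      unfold iidUniform
      rw [Measure.infinitePi_map_pi (fun _ : V => (volume : Measure unitInterval))
        (f := fun _ => τ) (fun _ => hτ)]
      congr 1
      funext v
      exact hτlaw
    have h2 := Measure.infinitePi_map_curry_symm
      (fun (_ : V) (_ : ℕ) => (volume : Measure unitInterval))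
    have h3 : T = (MeasurableEquiv.curry V ℕ unitInterval).symm ∘ fun U v => τ (U v) := by
      funext U j
      rfl
    have hm' : Measurable fun (U : V → unitInterval) (v : V) => τ (U v) :=
      measurable_pi_iff.2 fun v => hτ.comp (measurable_pi_apply v)
    rw [h3, ← Measure.map_map (MeasurableEquiv.measurable _) hm', h1]
    exact h2
  refine ⟨Φ ∘ T, hΦ.comp hTm, ?_, ?_⟩
  · intro g
    have h1 : ∀ᵐ U ∂(iidUniform V), Φ (actJ g (T U)) = act g (Φ (T U)) := by
      have hms : MeasurableSet {u : V × ℕ → unitInterval | Φ (actJ g u) = act g (Φ u)} :=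
        measurableSet_eq_fun (hΦ.comp (measurable_actJ g)) ((measurable_act g).comp hΦ)
      have h2 := heq g
      rw [← hTlaw] at h2
      exact (ae_map_iff hTm.aemeasurable hms).1 h2
    filter_upwards [h1] with U hU
    exact hU
  · rw [← Measure.map_map hΦ hTm, hTlaw, hlaw]

end Vale.Agent.P161L
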