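import Vale.Agent.P161L.Tree

open MeasureTheory ProbabilityTheory Set Filter Topology

namespace Vale.Agent.P161L

variable {V : Type*} {G : SimpleGraph V}

theorem connected_of_starTo (_hG : G.IsTree) {D : Finset V} {v : V} (hv : v ∈ D)
    (hD : StarTo G D v) : (G.induce (D : Set V)).Connected := by
  rw [SimpleGraph.connected_iff_exists_forall_reachable]
  refine ⟨⟨v, hv⟩, ?_⟩
  have key : ∀ k, ∀ y : V, (hy : y ∈ (D : Set V)) → G.dist v y = k →
      (G.induce (D : Set V)).Reachable ⟨v, hv⟩ ⟨y, hy⟩ := by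
    intro k
    induction k with
    | zero =>
      intro y hy hk
      by_cases hyv : y = v
      · subst hyv; exact SimpleGraph.Reachable.refl _
      · obtain ⟨p, _, _, h2⟩ := hD y hy hyv
        omega
    | succ k ih =>
      intro y hy hk
      have hyv : y ≠ v := by
        rintro rfl
        rw [SimpleGraph.dist_self] at hk
        omega
      obtain ⟨p, hp, hadj, hd⟩ := hD y hy hyv
      refine (ih p hp (by omega)).trans (SimpleGraph.Adj.reachable ?_)
      change G.Adj p y
      exact hadj.symm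
  intro w
  exact key _ w.1 w.2 rfl

theorem abs_spin' (b : Bool) : |spin b| = 1 := by cases b <;> simp [spin]

theorem spin_sq (b : Bool) : spin b * spin b = 1 := by cases b <;> simp [spin]

theorem spin_not (b : Bool) : spin (!b) = -spin b := by cases b <;> simp [spin]

theorem measurable_spin' : Measurable spin := measurable_of_countable _

open Classical in
/-- extension by `false` -/
noncomputable def ext (D : Finset V) (x : D → Bool) : V → Bool :=
  fun u => if h : u ∈ D then x ⟨u, h⟩ else false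

theorem ext_mem {D : Finset V} (x : D → Bool) {u : V} (hu : u ∈ D) :
    ext D x u = x ⟨u, hu⟩ := by
  classical
  unfold ext; rw [dif_pos hu]

open Classical in
theorem integral_cyl (μ : Measure (V → Bool)) [IsProbabilityMeasure μ] (D : Finset V)
    {f : (V → Bool) → ℝ} (hf : ∀ σ τ : V → Bool, (∀ u ∈ D, σ u = τ u) → f σ = f τ) :
    ∫ σ, f σ ∂μ = ∑ x : D → Bool, μ.real {σ | ∀ u ∈ D, σ u = ext D x u} * f (ext D x) := by
  set R : (V → Bool) → (D → Bool) := fun σ u => σ u with hR
  have hRm : Measurable R := measurable_pi_iff.2 fun u => measurable_pi_apply _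
  have hfR : f = fun σ => f (ext D (R σ)) := by
    funext σ
    apply hf
    intro u hu
    rw [ext_mem _ hu]
  have hprob : IsProbabilityMeasure (μ.map R) := Measure.isProbabilityMeasure_map hRm.aemeasurable
  have h1 : ∫ σ, f σ ∂μ = ∫ x, f (ext D x) ∂(μ.map R) := by
    rw [integral_map hRm.aemeasurable (measurable_of_countable _).aestronglyMeasurable]
    conv_lhs => rw [hfR]
  rw [h1, integral_fintype Integrable.of_finite]
  refine Finset.sum_congr rfl fun x _ => ?_
  rw [smul_eq_mul]
  congr 1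
  rw [measureReal_def, measureReal_def, Measure.map_apply hRm (measurableSet_singleton _)]
  congr 2
  ext σ
  simp only [Set.mem_preimage, Set.mem_singleton_iff, Set.mem_ofPred_eq, hR]
  constructor
  · intro h u hu
    rw [ext_mem _ hu, ← h]
  · intro h
    funext u
    have := h u.1 u.2
    rw [ext_mem _ u.2] at this
    exact this

open Classical in
theorem edges_erase_leaf (hG : G.IsTree) {D : Finset V} {v l p : V} (hl : l ∈ D) (hlv : l ≠ v)
    (hmax : ∀ w ∈ D, G.dist v w ≤ G.dist v l) (hp : p ∈ D) (hadj : G.Adj l p)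
    (hd : G.dist v p + 1 = G.dist v l) :
    D.sym2.filter (fun e => e ∈ G.edgeSet) =
      insert s(l, p) ((D.erase l).sym2.filter (fun e => e ∈ G.edgeSet)) := by
  ext e
  induction e using Sym2.ind with
  | _ a b =>
    simp only [Finset.mem_filter, Finset.mk_mem_sym2_iff, SimpleGraph.mem_edgeSet,
      Finset.mem_insert, Finset.mem_erase]
    have huniq : ∀ w ∈ D, G.Adj l w → w = p := by
      intro w hw hlw
      have h1 := tree_adj_dist hG hlw v
      have h2 := hmax w hw
      obtain ⟨q, _, hq⟩ := tree_step hG (v := v) hlv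
      have h3 := hq w ⟨hlw, by omega⟩
      have h4 := hq p ⟨hadj, hd⟩
      rw [h3, h4]
    constructor
    · rintro ⟨⟨ha, hb⟩, hab⟩
      by_cases hal : a = l
      · subst hal
        left
        rw [huniq b hb hab]
      · by_cases hbl : b = l
        · subst hbl
          left
          rw [huniq a ha hab.symm]
          exact Sym2.eq_swap
        · right
          exact ⟨⟨⟨hal, ha⟩, ⟨hbl, hb⟩⟩, hab⟩
    · rintro (h | ⟨⟨⟨_, ha⟩, ⟨_, hb⟩⟩, hab⟩)
      · rw [Sym2.eq_iff] at h
        rcases h with ⟨rfl, rfl⟩ | ⟨rfl, rfl⟩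
        · exact ⟨⟨hl, hp⟩, hadj⟩
        · exact ⟨⟨hp, hl⟩, hadj.symm⟩
      · exact ⟨⟨ha, hb⟩, hab⟩

open Classical in
theorem starTo_erase {D : Finset V} {v l : V} (hD : StarTo G D v)
    (hmax : ∀ w ∈ D, G.dist v w ≤ G.dist v l) : StarTo G (D.erase l) v := by
  intro u hu huv
  obtain ⟨p, hp, hadj, hd⟩ := hD u (Finset.mem_of_mem_erase hu) huv
  refine ⟨p, Finset.mem_erase.2 ⟨?_, hp⟩, hadj, hd⟩
  rintro rfl
  have := hmax u (Finset.mem_of_mem_erase hu)
  omega

open Classical in
theorem cyl_leaf (hG : G.IsTree) {θ : ℝ} {μ : Measure (V → Bool)} (hμ : IsFreeIsing G θ μ)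
    {D : Finset V} {v l p : V} (hv : v ∈ D) (hD : StarTo G D v) (hl : l ∈ D)
    (hlv : l ≠ v) (hmax : ∀ w ∈ D, G.dist v w ≤ G.dist v l) (hp : p ∈ D) (hadj : G.Adj l p)
    (hd : G.dist v p + 1 = G.dist v l) (η : V → Bool) :
    μ.real {σ | ∀ u ∈ D, σ u = η u} = μ.real {σ | ∀ u ∈ D.erase l, σ u = η u} *
      ((1 + θ * spin (η l) * spin (η p)) / 2) := by
  have hv' : v ∈ D.erase l := Finset.mem_erase.2 ⟨hlv.symm, hv⟩
  rw [hμ.2 D (connected_of_starTo hG hv hD) η,
    hμ.2 (D.erase l) (connected_of_starTo hG hv' (starTo_erase hD hmax)) η]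
  have h1 := edges_erase_leaf hG hl hlv hmax hp hadj hd
  have h2 : s(l, p) ∉ (D.erase l).sym2.filter (fun e => e ∈ G.edgeSet) := by
    intro h
    rw [Finset.mem_filter, Finset.mk_mem_sym2_iff] at h
    exact absurd h.1.1 (Finset.notMem_erase l D)
  rw [h1, Finset.prod_insert h2]
  have h4 : edgeWeight θ η s(l, p) = (1 + θ * spin (η l) * spin (η p)) / 2 := rfl
  rw [h4]
  ring

open Classical in
/-- Markov identity at a leaf. -/
theorem markov_leaf (hG : G.IsTree) {θ : ℝ} {μ : Measure (V → Bool)} (hμ : IsFreeIsing G θ μ)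
    {D : Finset V} {v l p : V} (hv : v ∈ D) (hD : StarTo G D v) (hl : l ∈ D)
    (hlv : l ≠ v) (hmax : ∀ w ∈ D, G.dist v w ≤ G.dist v l) (hp : p ∈ D) (hadj : G.Adj l p)
    (hd : G.dist v p + 1 = G.dist v l) {f : (V → Bool) → ℝ}
    (hf : ∀ σ τ : V → Bool, (∀ u ∈ D.erase l, σ u = τ u) → f σ = f τ) :
    ∫ σ, f σ * spin (σ l) ∂μ = θ * ∫ σ, f σ * spin (σ p) ∂μ := by
  have := hμ.1
  have hf' : ∀ σ τ : V → Bool, (∀ u ∈ D, σ u = τ u) → f σ = f τ := fun σ τ h =>
    hf σ τ fun u hu => h u (Finset.mem_of_mem_erase hu)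
  rw [integral_cyl μ D (f := fun σ => f σ * spin (σ l)) (fun σ τ h => by
      rw [hf' σ τ h, h l hl]),
    integral_cyl μ D (f := fun σ => f σ * spin (σ p)) (fun σ τ h => by
      rw [hf' σ τ h, h p hp]), Finset.mul_sum, ← sub_eq_zero, ← Finset.sum_sub_distrib]
  set g : (D → Bool) → ℝ := fun x =>
    μ.real {σ | ∀ u ∈ D.erase l, σ u = ext D x u} * f (ext D x) * ((1 - θ ^ 2) / 2) with hg
  have e1 : ∀ x : D → Bool, μ.real {σ | ∀ u ∈ D, σ u = ext D x u} *
        (f (ext D x) * spin (ext D x l)) -
      θ * (μ.real {σ | ∀ u ∈ D, σ u = ext D x u} * (f (ext D x) * spin (ext D x p))) =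
      g x * spin (x ⟨l, hl⟩) := by
    intro x
    rw [cyl_leaf hG hμ hv hD hl hlv hmax hp hadj hd (ext D x)]
    have h1 := spin_sq (ext D x l)
    have h2 := spin_sq (ext D x p)
    rw [← ext_mem x hl]
    simp only [hg]
    linear_combination (μ.real {σ | ∀ u ∈ D.erase l, σ u = ext D x u} * f (ext D x) * θ / 2 *
      spin (ext D x p)) * h1 - (μ.real {σ | ∀ u ∈ D.erase l, σ u = ext D x u} * f (ext D x) *
      θ ^ 2 / 2 * spin (ext D x l)) * h2
  simp_rw [e1]
  -- flip the spin at l
  set flip : (D → Bool) ≃ (D → Bool) :=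
    { toFun := fun x => Function.update x ⟨l, hl⟩ (!(x ⟨l, hl⟩))
      invFun := fun x => Function.update x ⟨l, hl⟩ (!(x ⟨l, hl⟩))
      left_inv := fun x => by
        funext u
        by_cases h : u = ⟨l, hl⟩
        · subst h; simp
        · simp [Function.update_of_ne h]
      right_inv := fun x => by
        funext u
        by_cases h : u = ⟨l, hl⟩
        · subst h; simp
        · simp [Function.update_of_ne h] } with hflip
  have hfl : ∀ x, flip x = Function.update x ⟨l, hl⟩ (!(x ⟨l, hl⟩)) := fun x => rfl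
  have hext : ∀ x, ∀ u ∈ D.erase l, ext D (flip x) u = ext D x u := by
    intro x u hu
    have hu' := Finset.mem_of_mem_erase hu
    rw [ext_mem _ hu', ext_mem _ hu', hfl, Function.update_of_ne]
    intro h
    exact Finset.ne_of_mem_erase hu (congrArg Subtype.val h)
  have hgf : ∀ x, g (flip x) = g x := by
    intro x
    simp only [hg]
    rw [hf (ext D (flip x)) (ext D x) (hext x)]
    congr 3
    ext σ
    simp only [Set.mem_ofPred_eq]
    refine forall₂_congr fun u hu => ?_
    rw [hext x u hu]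
  have hs : ∑ x : D → Bool, g x * spin (x ⟨l, hl⟩) = - ∑ x : D → Bool, g x * spin (x ⟨l, hl⟩) := by
    conv_lhs => rw [← Equiv.sum_comp flip]
    rw [← Finset.sum_neg_distrib]
    refine Finset.sum_congr rfl fun x _ => ?_
    rw [hgf, hfl, Function.update_self, spin_not]
    ring
  linarith

theorem exp_spin (y : ℝ) (b : Bool) :
    Real.exp (y * spin b) = Real.cosh y + Real.sinh y * spin b := by
  cases b with
  | false => simp only [spin, Bool.false_eq_true, if_false]; rw [Real.cosh_eq, Real.sinh_eq]; ring_nf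
  | true => simp only [spin, if_true]; rw [Real.cosh_eq, Real.sinh_eq]; ring_nf

/-- the message -/
noncomputable def msg (θ y : ℝ) : ℝ :=
  1 / 2 * (Real.log (Real.cosh y + θ * Real.sinh y) - Real.log (Real.cosh y - θ * Real.sinh y))

theorem cosh_add_pos {θ : ℝ} (h0 : 0 ≤ θ) (h1 : θ < 1) (y : ℝ) :
    0 < Real.cosh y + θ * Real.sinh y := by
  have h2 := Real.cosh_sq y
  have h3 := Real.cosh_pos y
  by_contra h
  push Not at h
  have h4 : Real.cosh y ^ 2 ≤ (-(θ * Real.sinh y)) ^ 2 :=
    pow_le_pow_left₀ h3.le (by linarith) 2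
  have h5 : θ ^ 2 ≤ 1 := by nlinarith
  nlinarith [mul_nonneg (sub_nonneg.2 h5) (sq_nonneg (Real.sinh y))]

theorem cosh_sub_pos {θ : ℝ} (h0 : 0 ≤ θ) (h1 : θ < 1) (y : ℝ) :
    0 < Real.cosh y - θ * Real.sinh y := by
  have := cosh_add_pos h0 h1 (-y)
  rw [Real.cosh_neg, Real.sinh_neg] at this
  linarith

theorem msg_spec {θ : ℝ} (h0 : 0 ≤ θ) (h1 : θ < 1) (y : ℝ) :
    ∃ c : ℝ, 0 < c ∧ ∀ b : Bool, Real.cosh y + θ * Real.sinh y * spin b =
      c * Real.exp (msg θ y * spin b) := by
  have hA := cosh_add_pos h0 h1 y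
  have hB := cosh_sub_pos h0 h1 y
  refine ⟨Real.exp (1 / 2 * (Real.log (Real.cosh y + θ * Real.sinh y) +
    Real.log (Real.cosh y - θ * Real.sinh y))), Real.exp_pos _, fun b => ?_⟩
  rw [← Real.exp_add]
  cases b with
  | false =>
    simp only [spin, Bool.false_eq_true, if_false, msg]
    have : 1 / 2 * (Real.log (Real.cosh y + θ * Real.sinh y) +
        Real.log (Real.cosh y - θ * Real.sinh y)) +
        1 / 2 * (Real.log (Real.cosh y + θ * Real.sinh y) -
        Real.log (Real.cosh y - θ * Real.sinh y)) * -1 =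
        Real.log (Real.cosh y - θ * Real.sinh y) := by ring
    rw [this, Real.exp_log hB]
    ring
  | true =>
    simp only [spin, if_true, msg]
    have : 1 / 2 * (Real.log (Real.cosh y + θ * Real.sinh y) +
        Real.log (Real.cosh y - θ * Real.sinh y)) +
        1 / 2 * (Real.log (Real.cosh y + θ * Real.sinh y) -
        Real.log (Real.cosh y - θ * Real.sinh y)) * 1 =
        Real.log (Real.cosh y + θ * Real.sinh y) := by ring
    rw [this, Real.exp_log hA]
    ring

theorem msg_lip {θ : ℝ} (h0 : 0 ≤ θ) (h1 : θ < 1) (y y' : ℝ) :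
    |msg θ y - msg θ y'| ≤ θ * |y - y'| := by
  have hd : ∀ s ∈ (Set.univ : Set ℝ), HasDerivWithinAt (msg θ)
      (θ / (Real.cosh s ^ 2 - θ ^ 2 * Real.sinh s ^ 2)) Set.univ s := by
    intro s _
    have hA := cosh_add_pos h0 h1 s
    have hB := cosh_sub_pos h0 h1 s
    have hc := Real.hasDerivAt_cosh s
    have hs := Real.hasDerivAt_sinh s
    have h3 := (((hc.add (hs.const_mul θ)).log hA.ne').sub
      ((hc.sub (hs.const_mul θ)).log hB.ne')).const_mul (1 / 2)
    refine (h3.congr_deriv ?_).hasDerivWithinAt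
    have h5 := Real.cosh_sq s
    have h6 : Real.cosh s ^ 2 - θ ^ 2 * Real.sinh s ^ 2 =
        (Real.cosh s + θ * Real.sinh s) * (Real.cosh s - θ * Real.sinh s) := by ring
    rw [h6]
    have key : ∀ A B A' B' : ℝ, A ≠ 0 → B ≠ 0 → A' * B - A * B' = 2 * θ →
        1 / 2 * (A' / A - B' / B) = θ / (A * B) := by
      intro A B A' B' hA hB h
      field_simp
      linarith
    exact key _ _ _ _ hA.ne' hB.ne' (by
      simp only [Pi.add_apply, Pi.sub_apply]
      linear_combination (2 * θ) * h5)
  have hb : ∀ s ∈ (Set.univ : Set ℝ),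
      ‖θ / (Real.cosh s ^ 2 - θ ^ 2 * Real.sinh s ^ 2)‖ ≤ θ := by
    intro s _
    have h5 := Real.cosh_sq s
    have h6 : 1 ≤ Real.cosh s ^ 2 - θ ^ 2 * Real.sinh s ^ 2 := by
      have h7 : θ ^ 2 ≤ 1 := by nlinarith
      nlinarith [mul_nonneg (sub_nonneg.2 h7) (sq_nonneg (Real.sinh s))]
    rw [Real.norm_eq_abs, abs_of_nonneg (by positivity)]
    exact div_le_self h0 h6
  have := Convex.norm_image_sub_le_of_norm_hasDerivWithin_le hd hb convex_univ
    (Set.mem_univ y') (Set.mem_univ y)
  simpa [Real.norm_eq_abs] using this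

theorem tanh_lip (y y' : ℝ) :
    |Real.sinh y / Real.cosh y - Real.sinh y' / Real.cosh y'| ≤ |y - y'| := by
  have hd : ∀ s ∈ (Set.univ : Set ℝ), HasDerivWithinAt (fun s => Real.sinh s / Real.cosh s)
      (1 / Real.cosh s ^ 2) Set.univ s := by
    intro s _
    have h3 := (Real.hasDerivAt_sinh s).div (Real.hasDerivAt_cosh s) (Real.cosh_pos s).ne'
    refine (h3.congr_deriv ?_).hasDerivWithinAt
    have h5 := Real.cosh_sq s
    congr 1
    linarith
  have hb : ∀ s ∈ (Set.univ : Set ℝ), ‖1 / Real.cosh s ^ 2‖ ≤ 1 := by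
    intro s _
    have h6 : 1 ≤ Real.cosh s ^ 2 := one_le_pow₀ (Real.one_le_cosh s)
    rw [Real.norm_eq_abs, abs_of_nonneg (by positivity)]
    exact div_le_self zero_le_one h6
  have := Convex.norm_image_sub_le_of_norm_hasDerivWithin_le hd hb convex_univ
    (Set.mem_univ y') (Set.mem_univ y)
  simpa [Real.norm_eq_abs] using this

theorem integrable_expsum (μ : Measure (V → Bool)) [IsProbabilityMeasure μ] (D : Finset V)
    (y : V → ℝ) : Integrable (fun σ : V → Bool => Real.exp (∑ u ∈ D, y u * spin (σ u))) μ := by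
  have hm : Measurable fun σ : V → Bool => Real.exp (∑ u ∈ D, y u * spin (σ u)) :=
    Real.measurable_exp.comp (Finset.measurable_sum _ fun u _ =>
      (measurable_spin'.comp (measurable_pi_apply u)).const_mul _)
  refine Integrable.of_bound hm.aestronglyMeasurable (Real.exp (∑ u ∈ D, |y u|))
    (Eventually.of_forall fun σ => ?_)
  rw [Real.norm_eq_abs, abs_of_pos (Real.exp_pos _)]
  refine Real.exp_le_exp.2 (Finset.sum_le_sum fun u _ => ?_)
  calc y u * spin (σ u) ≤ |y u * spin (σ u)| := le_abs_self _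
    _ = |y u| := by rw [abs_mul, abs_spin', mul_one]

theorem integrable_mul_spin {μ : Measure (V → Bool)} {f : (V → Bool) → ℝ}
    (hf : Integrable f μ) (v : V) : Integrable (fun σ => f σ * spin (σ v)) μ := by
  have hm : Measurable fun σ : V → Bool => spin (σ v) :=
    measurable_spin'.comp (measurable_pi_apply v)
  refine hf.mul_bdd (c := 1) hm.aestronglyMeasurable (Eventually.of_forall fun σ => ?_)
  rw [Real.norm_eq_abs, abs_spin']

open Classical in
theorem postMean_leaf (hG : G.IsTree) {θ : ℝ} (h0 : 0 ≤ θ) (h1 : θ < 1)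
    {μ : Measure (V → Bool)} (hμ : IsFreeIsing G θ μ)
    {D : Finset V} {v l p : V} (hv : v ∈ D) (hD : StarTo G D v) (hl : l ∈ D)
    (hlv : l ≠ v) (hmax : ∀ w ∈ D, G.dist v w ≤ G.dist v l) (hp : p ∈ D) (hadj : G.Adj l p)
    (hd : G.dist v p + 1 = G.dist v l) (y : V → ℝ) :
    postMean μ D v y =
      postMean μ (D.erase l) v (Function.update y p (y p + msg θ (y l))) := by
  have := hμ.1
  obtain ⟨c, hc, hcs⟩ := msg_spec h0 h1 (y l)
  have hv' : v ∈ D.erase l := Finset.mem_erase.2 ⟨hlv.symm, hv⟩
  have hpl : p ≠ l := hadj.ne'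
  have hp' : p ∈ D.erase l := Finset.mem_erase.2 ⟨hpl, hp⟩
  set z : V → ℝ := Function.update y p (y p + msg θ (y l)) with hz
  set E : (V → Bool) → ℝ := fun σ => Real.exp (∑ u ∈ D.erase l, y u * spin (σ u)) with hE
  have hEdep : ∀ σ τ : V → Bool, (∀ u ∈ D.erase l, σ u = τ u) → E σ = E τ := by
    intro σ τ h
    simp only [hE]
    congr 1
    exact Finset.sum_congr rfl fun u hu => by rw [h u hu]
  have hEz : ∀ σ : V → Bool, Real.exp (∑ u ∈ D.erase l, z u * spin (σ u)) =
      E σ * Real.exp (msg θ (y l) * spin (σ p)) := by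
    intro σ
    simp only [hE]
    rw [← Real.exp_add]
    congr 1
    rw [← Finset.sum_erase_add _ _ hp', ← Finset.sum_erase_add (D.erase l) (fun u =>
      y u * spin (σ u)) hp']
    have : ∑ u ∈ (D.erase l).erase p, z u * spin (σ u) =
        ∑ u ∈ (D.erase l).erase p, y u * spin (σ u) := by
      refine Finset.sum_congr rfl fun u hu => ?_
      rw [hz, Function.update_of_ne (Finset.ne_of_mem_erase hu)]
    rw [this, hz, Function.update_self]
    ring
  have hEi : Integrable E μ := integrable_expsum μ (D.erase l) y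
  -- general identity
  have key : ∀ g : (V → Bool) → ℝ,
      (∀ σ τ : V → Bool, (∀ u ∈ D.erase l, σ u = τ u) → g σ = g τ) →
      Integrable (fun σ => g σ * E σ) μ →
      ∫ σ, g σ * Real.exp (∑ u ∈ D, y u * spin (σ u)) ∂μ =
        c * ∫ σ, g σ * Real.exp (∑ u ∈ D.erase l, z u * spin (σ u)) ∂μ := by
    intro g hg hgi
    have e1 : ∀ σ : V → Bool, g σ * Real.exp (∑ u ∈ D, y u * spin (σ u)) =
        Real.cosh (y l) * (g σ * E σ) + Real.sinh (y l) * ((g σ * E σ) * spin (σ l)) := by
      intro σ
      rw [← Finset.sum_erase_add D _ hl, Real.exp_add, exp_spin]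
      simp only [hE]
      ring
    have e2 : ∀ σ : V → Bool, g σ * Real.exp (∑ u ∈ D.erase l, z u * spin (σ u)) =
        c⁻¹ * (Real.cosh (y l) * (g σ * E σ) +
          θ * Real.sinh (y l) * ((g σ * E σ) * spin (σ p))) := by
      intro σ
      rw [hEz]
      have h3 := hcs (σ p)
      have h4 : Real.exp (msg θ (y l) * spin (σ p)) =
          c⁻¹ * (Real.cosh (y l) + θ * Real.sinh (y l) * spin (σ p)) := by
        rw [h3]; field_simp
      rw [h4]; ring
    have hmk := markov_leaf hG hμ hv hD hl hlv hmax hp hadj hd (f := fun σ => g σ * E σ)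
      (fun σ τ h => by rw [hg σ τ h, hEdep σ τ h])
    simp_rw [e1, e2]
    rw [integral_add (hgi.const_mul _) ((integrable_mul_spin hgi l).const_mul _),
      integral_const_mul, integral_const_mul, hmk, integral_const_mul,
      integral_add (hgi.const_mul _) ((integrable_mul_spin hgi p).const_mul _),
      integral_const_mul, integral_const_mul]
    field_simp
  have k1 := key (fun σ => spin (σ v)) (fun σ τ h => by rw [h v hv']) (by
    have := integrable_mul_spin hEi v
    refine this.congr (Eventually.of_forall fun σ => ?_)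
    beta_reduce; ring)
  have k2 := key (fun _ => 1) (fun _ _ _ => rfl) (by simpa using hEi)
  simp only [one_mul] at k2
  unfold postMean
  rw [k1, k2, mul_div_mul_left _ _ hc.ne']

theorem integral_spin_zero (_hG : G.IsTree) {θ : ℝ} {μ : Measure (V → Bool)}
    (hμ : IsFreeIsing G θ μ) (v : V) : ∫ σ, spin (σ v) ∂μ = 0 := by
  classical
  have := hμ.1
  have hconn : (G.induce (({v} : Finset V) : Set V)).Connected := by
    apply connected_of_starTo _hG (v := v) (Finset.mem_singleton_self v)
    intro u hu huv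
    exact absurd (Finset.mem_singleton.1 hu) huv
  have hcyl : ∀ η : V → Bool, μ.real {σ | ∀ u ∈ ({v} : Finset V), σ u = η u} = 1 / 2 := by
    intro η
    rw [hμ.2 {v} hconn η]
    rw [Finset.prod_eq_one, mul_one]
    intro e he
    exfalso
    rw [Finset.mem_filter] at he
    induction e using Sym2.ind with
    | _ a b =>
      rw [Finset.mk_mem_sym2_iff, Finset.mem_singleton, Finset.mem_singleton,
        SimpleGraph.mem_edgeSet] at he
      obtain ⟨⟨rfl, rfl⟩, h⟩ := he
      exact G.loopless.irrefl _ h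
  rw [integral_cyl μ {v} (f := fun σ => spin (σ v)) (fun σ τ h => by
    rw [h v (Finset.mem_singleton_self v)])]
  simp_rw [hcyl]
  rw [← Finset.mul_sum]
  have hv : v ∈ ({v} : Finset V) := Finset.mem_singleton_self v
  have e1 : ∀ x : ({v} : Finset V) → Bool, spin (ext {v} x v) = spin (x ⟨v, hv⟩) := fun x => by
    rw [ext_mem x hv]
  simp_rw [e1]
  set flip : (({v} : Finset V) → Bool) ≃ (({v} : Finset V) → Bool) :=
    Equiv.arrowCongr (Equiv.refl _) Equiv.boolNot with hflip
  have hs : ∑ x : ({v} : Finset V) → Bool, spin (x ⟨v, hv⟩) =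
      - ∑ x : ({v} : Finset V) → Bool, spin (x ⟨v, hv⟩) := by
    conv_lhs => rw [← Equiv.sum_comp flip]
    rw [← Finset.sum_neg_distrib]
    refine Finset.sum_congr rfl fun x _ => ?_
    rw [← spin_not]
    rfl
  have : ∑ x : ({v} : Finset V) → Bool, spin (x ⟨v, hv⟩) = 0 := by linarith
  rw [this, mul_zero]

theorem postMean_singleton (hG : G.IsTree) {θ : ℝ} {μ : Measure (V → Bool)}
    (hμ : IsFreeIsing G θ μ) (v : V) (y : V → ℝ) :
    postMean μ {v} v y = Real.sinh (y v) / Real.cosh (y v) := by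
  have := hμ.1
  have hz := integral_spin_zero hG hμ v
  have hm : Measurable fun σ : V → Bool => spin (σ v) :=
    measurable_spin'.comp (measurable_pi_apply v)
  have hi : Integrable (fun σ : V → Bool => spin (σ v)) μ :=
    Integrable.of_bound hm.aestronglyMeasurable 1 (Eventually.of_forall fun σ => by
      rw [Real.norm_eq_abs, abs_spin'])
  unfold postMean
  simp only [Finset.sum_singleton]
  have e1 : ∀ σ : V → Bool, spin (σ v) * Real.exp (y v * spin (σ v)) =
      Real.cosh (y v) * spin (σ v) + Real.sinh (y v) := by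
    intro σ
    rw [exp_spin]
    linear_combination (Real.sinh (y v)) * spin_sq (σ v)
  have e2 : ∀ σ : V → Bool, Real.exp (y v * spin (σ v)) =
      Real.cosh (y v) + Real.sinh (y v) * spin (σ v) := fun σ => exp_spin _ _
  simp_rw [e1]
  rw [integral_add (hi.const_mul _) (integrable_const _), integral_const_mul, hz]
  simp_rw [e2]
  rw [integral_add (integrable_const _) (hi.const_mul _), integral_const_mul, hz]
  simp

theorem postMean_lipschitz (hG : G.IsTree) {θ : ℝ} (h0 : 0 ≤ θ) (h1 : θ < 1)
    {μ : Measure (V → Bool)} (hμ : IsFreeIsing G θ μ) {D : Finset V} {v : V} (hv : v ∈ D)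
    (hD : StarTo G D v) (y y' : V → ℝ) :
    |postMean μ D v y - postMean μ D v y'| ≤ ∑ u ∈ D, θ ^ (G.dist v u) * |y u - y' u| := by
  classical
  obtain ⟨n, hn⟩ : ∃ n, D.card = n := ⟨_, rfl⟩
  induction n generalizing D y y' with
  | zero =>
    rw [Finset.card_eq_zero] at hn
    subst hn
    exact absurd hv (Finset.notMem_empty v)
  | succ n ih =>
    obtain ⟨l, hl, hmax⟩ := Finset.exists_max_image D (fun w => G.dist v w) ⟨v, hv⟩
    by_cases hlv : l = v
    · have hDv : D = {v} := by
        apply Finset.eq_singleton_iff_unique_mem.mpr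
        refine ⟨hv, ?_⟩
        intro w hw
        have := hmax w hw
        rw [hlv, SimpleGraph.dist_self, Nat.le_zero, hG.connected.dist_eq_zero_iff] at this
        exact this.symm
      subst hDv
      rw [postMean_singleton hG hμ, postMean_singleton hG hμ, Finset.sum_singleton,
        SimpleGraph.dist_self, pow_zero, one_mul]
      exact tanh_lip _ _
    · obtain ⟨p, hp, hadj, hd⟩ := hD l hl hlv
      have hv' : v ∈ D.erase l := Finset.mem_erase.2 ⟨fun h => hlv h.symm, hv⟩
      have hpl : p ≠ l := hadj.ne'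
      have hp' : p ∈ D.erase l := Finset.mem_erase.2 ⟨hpl, hp⟩
      rw [postMean_leaf hG h0 h1 hμ hv hD hl hlv hmax hp hadj hd y,
        postMean_leaf hG h0 h1 hμ hv hD hl hlv hmax hp hadj hd y']
      refine (ih hv' (starTo_erase hD hmax) (Function.update y p (y p + msg θ (y l)))
        (Function.update y' p (y' p + msg θ (y' l)))
        (by rw [Finset.card_erase_of_mem hl]; omega)).trans ?_
      rw [← Finset.sum_erase_add D _ hl, ← Finset.sum_erase_add (D.erase l) _ hp',
        ← Finset.sum_erase_add (D.erase l) (fun u => θ ^ G.dist v u * |y u - y' u|) hp']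
      have e1 : ∑ u ∈ (D.erase l).erase p, θ ^ G.dist v u *
          |Function.update y p (y p + msg θ (y l)) u -
            Function.update y' p (y' p + msg θ (y' l)) u| =
          ∑ u ∈ (D.erase l).erase p, θ ^ G.dist v u * |y u - y' u| := by
        refine Finset.sum_congr rfl fun u hu => ?_
        rw [Function.update_of_ne (Finset.ne_of_mem_erase hu),
          Function.update_of_ne (Finset.ne_of_mem_erase hu)]
      rw [e1, Function.update_self, Function.update_self, add_assoc]
      refine add_le_add le_rfl ?_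
      have h2 : |y p + msg θ (y l) - (y' p + msg θ (y' l))| ≤
          |y p - y' p| + θ * |y l - y' l| := by
        have : y p + msg θ (y l) - (y' p + msg θ (y' l)) =
            (y p - y' p) + (msg θ (y l) - msg θ (y' l)) := by ring
        rw [this]
        exact (abs_add_le _ _).trans (add_le_add le_rfl (msg_lip h0 h1 _ _))
      calc θ ^ G.dist v p * |y p + msg θ (y l) - (y' p + msg θ (y' l))|
          ≤ θ ^ G.dist v p * (|y p - y' p| + θ * |y l - y' l|) :=
            mul_le_mul_of_nonneg_left h2 (pow_nonneg h0 _)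
        _ = θ ^ G.dist v p * |y p - y' p| + θ ^ G.dist v l * |y l - y' l| := by
            rw [← hd, pow_succ]; ring

end Vale.Agent.P161L
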