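import Vale.Agent.P161L.TDefs

/-! M1: facts about trees (owner: helper4) -/

namespace Vale.Agent.P161T

variable {V : Type*} {G : SimpleGraph V}

theorem par_self (x : V) : par G x x = x := by
  unfold par
  rw [dif_neg]
  rintro ⟨p, _, hp⟩
  rw [SimpleGraph.dist_self] at hp
  omega

theorem exists_par (hT : G.IsTree) {x y : V} (h : y ≠ x) :
    ∃ p, G.Adj p y ∧ G.dist x p + 1 = G.dist x y := by
  obtain ⟨w, hw⟩ := hT.connected.exists_walk_length_eq_dist x y
  have hnil : ¬ w.Nil := by
    intro hn
    exact h (hn.eq).symm
  refine ⟨w.penultimate, w.adj_penultimate hnil, ?_⟩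
  have h1 : G.dist x w.penultimate ≤ w.dropLast.length := SimpleGraph.dist_le w.dropLast
  have h2 : w.dropLast.length + 1 = w.length := by
    have := SimpleGraph.Walk.length_dropLast_add_one hnil
    simpa using this
  have h3 : G.dist x y ≤ G.dist x w.penultimate + G.dist w.penultimate y :=
    hT.connected.dist_triangle
  have h4 : G.dist w.penultimate y = 1 := by
    rw [SimpleGraph.dist_eq_one_iff_adj]
    exact w.adj_penultimate hnil
  omega

theorem par_spec (hT : G.IsTree) {x y : V} (h : y ≠ x) :
    G.Adj (par G x y) y ∧ G.dist x (par G x y) + 1 = G.dist x y := by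
  have hex := exists_par hT h
  have : par G x y = hex.choose := by
    unfold par
    rw [dif_pos hex]
  rw [this]
  exact hex.choose_spec

theorem par_adj (hT : G.IsTree) {x y : V} (h : y ≠ x) : G.Adj (par G x y) y :=
  (par_spec hT h).1

theorem par_dist (hT : G.IsTree) {x y : V} (h : y ≠ x) :
    G.dist x (par G x y) + 1 = G.dist x y := (par_spec hT h).2

theorem adj_dist_cases (hT : G.IsTree) {x k i : V} (h : G.Adj k i) :
    G.dist x k + 1 = G.dist x i ∨ G.dist x i + 1 = G.dist x k := by
  rcases hT.dist_eq_dist_add_one_of_adj x h with h | h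
  · right; omega
  · left; omega

theorem closer_unique (hT : G.IsTree) {x k k' i : V} (h : G.Adj k i) (h' : G.Adj k' i)
    (hlt : G.dist x k < G.dist x i) (hlt' : G.dist x k' < G.dist x i) : k = k' := by
  obtain ⟨p, hp⟩ := hT.connected.exists_walk_length_eq_dist x k
  obtain ⟨q, hq⟩ := hT.connected.exists_walk_length_eq_dist x k'
  have e1 : G.dist x k + 1 = G.dist x i := by
    rcases adj_dist_cases hT (x := x) h with h | h <;> omega
  have e2 : G.dist x k' + 1 = G.dist x i := by
    rcases adj_dist_cases hT (x := x) h' with h | h <;> omega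
  have P1 : (p.concat h).IsPath := by
    apply SimpleGraph.Walk.isPath_of_length_eq_dist
    rw [SimpleGraph.Walk.length_concat, hp, e1]
  have P2 : (q.concat h').IsPath := by
    apply SimpleGraph.Walk.isPath_of_length_eq_dist
    rw [SimpleGraph.Walk.length_concat, hq, e2]
  have := (hT.isAcyclic.subsingleton_path x i).elim ⟨_, P1⟩ ⟨_, P2⟩
  have h2 : p.concat h = q.concat h' := congrArg Subtype.val this
  have h3 := congrArg SimpleGraph.Walk.penultimate h2
  simpa using h3

theorem par_eq_of_adj_lt (hT : G.IsTree) {x k i : V} (h : G.Adj k i)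
    (hlt : G.dist x k < G.dist x i) : par G x i = k := by
  have hne : i ≠ x := by
    rintro rfl
    rw [SimpleGraph.dist_self] at hlt
    omega
  refine closer_unique hT (par_adj hT hne) h ?_ hlt
  have := par_dist hT hne
  omega

/-- sphere (subsets) have at most `d (d-1)^n` points -/
theorem sphere_card (hT : G.IsTree) [G.LocallyFinite] {d : ℕ} (hd : 2 ≤ d)
    (hreg : G.IsRegularOfDegree d) (k : V) (n : ℕ) (Q : Finset V)
    (hQ : ∀ x ∈ Q, G.dist x k = n) : Q.card ≤ d * (d - 1) ^ n := by
  classical
  induction n generalizing Q with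
  | zero =>
    have : Q ⊆ {k} := by
      intro x hx
      have := hQ x hx
      rw [hT.connected.dist_eq_zero_iff] at this
      simp [this]
    have h1 := Finset.card_le_card this
    simp only [Finset.card_singleton] at h1
    simp only [pow_zero, mul_one]
    omega
  | succ n ih =>
    rcases Nat.eq_zero_or_pos n with hn | hn
    · subst hn
      have : Q ⊆ G.neighborFinset k := by
        intro x hx
        have := hQ x hx
        rw [SimpleGraph.mem_neighborFinset]
        have : G.dist x k = 1 := by simpa using this
        rw [SimpleGraph.dist_eq_one_iff_adj] at this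
        exact this.symm
      have h1 := Finset.card_le_card this
      rw [SimpleGraph.card_neighborFinset_eq_degree, hreg k] at h1
      calc Q.card ≤ d := h1
        _ = d * 1 := by ring
        _ ≤ d * (d - 1) ^ (0 + 1) := by
          apply Nat.mul_le_mul_left
          simp
          omega
    · have key : Q.card ≤ (d - 1) * (Q.image (par G k)).card := by
        apply Finset.card_le_mul_card_image
        intro b hb
        rw [Finset.mem_image] at hb
        obtain ⟨a, ha, rfl⟩ := hb
        have hak : a ≠ k := by
          rintro rfl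
          have := hQ _ ha
          rw [SimpleGraph.dist_self] at this
          omega
        have hpk : par G k a ≠ k := by
          intro hh
          have h1 := par_dist hT hak
          rw [hh, SimpleGraph.dist_self] at h1
          have := hQ _ ha
          rw [SimpleGraph.dist_comm] at this
          omega
        have hsub : Q.filter (fun x => par G k x = par G k a) ⊆
            (G.neighborFinset (par G k a)).erase (par G k (par G k a)) := by
          intro x hx
          rw [Finset.mem_filter] at hx
          have hxk : x ≠ k := by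
            rintro rfl
            have := hQ _ hx.1
            rw [SimpleGraph.dist_self] at this
            omega
          rw [Finset.mem_erase, SimpleGraph.mem_neighborFinset]
          constructor
          · intro hh
            have h1 := par_dist hT hpk
            have h2 := par_dist hT hxk
            rw [hx.2] at h2
            rw [hh] at h2
            omega
          · rw [← hx.2]
            exact par_adj hT hxk
        have h1 := Finset.card_le_card hsub
        rw [Finset.card_erase_of_mem, SimpleGraph.card_neighborFinset_eq_degree, hreg _] at h1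
        · exact h1
        · rw [SimpleGraph.mem_neighborFinset]
          exact (par_adj hT hpk).symm
      have h2 : (Q.image (par G k)).card ≤ d * (d - 1) ^ n := by
        apply ih
        intro x hx
        rw [Finset.mem_image] at hx
        obtain ⟨a, ha, rfl⟩ := hx
        have hak : a ≠ k := by
          rintro rfl
          have := hQ _ ha
          rw [SimpleGraph.dist_self] at this
          omega
        have h1 := par_dist hT hak
        have := hQ _ ha
        rw [SimpleGraph.dist_comm] at this ⊢
        omega
      calc Q.card ≤ (d - 1) * (Q.image (par G k)).card := key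
        _ ≤ (d - 1) * (d * (d - 1) ^ n) := Nat.mul_le_mul_left _ h2
        _ = d * (d - 1) ^ (n + 1) := by ring

/-- uniform summability: if `(d-1) a < 1` then `∑_{x∈Q} a^dist (dist+4)²` is bounded -/
theorem exists_S (hT : G.IsTree) [G.LocallyFinite] {d : ℕ} (hd : 2 ≤ d)
    (hreg : G.IsRegularOfDegree d) {a : ℝ} (ha0 : 0 ≤ a) (ha : ((d : ℝ) - 1) * a < 1) :
    ∃ S : ℝ, 0 < S ∧ ∀ (k : V) (Q : Finset V),
      ∑ x ∈ Q, a ^ (G.dist x k) * ((G.dist x k : ℝ) + 4) ^ 2 ≤ S := by
  classical
  have hd1 : (1 : ℝ) ≤ (d : ℝ) - 1 := by
    have : (2 : ℝ) ≤ d := by exact_mod_cast hd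
    linarith
  set b : ℝ := ((d : ℝ) - 1) * a with hb
  have hb0 : 0 ≤ b := mul_nonneg (by linarith) ha0
  set F : ℕ → ℝ := fun n => (d : ℝ) * (b ^ n * ((n : ℝ) + 4) ^ 2) with hF
  have hbn : ‖b‖ < 1 := by rw [Real.norm_of_nonneg hb0]; exact ha
  have hsum : Summable F := by
    have s2 := summable_pow_mul_geometric_of_norm_lt_one 2 hbn
    have s1 := summable_pow_mul_geometric_of_norm_lt_one 1 hbn
    have s0 := summable_pow_mul_geometric_of_norm_lt_one 0 hbn
    have : F = fun n : ℕ => (d : ℝ) * (((n : ℝ) ^ 2 * b ^ n + 8 * ((n : ℝ) ^ 1 * b ^ n)) +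
        16 * ((n : ℝ) ^ 0 * b ^ n)) := by
      funext n
      simp only [hF]
      ring
    rw [this]
    exact (((s2.add (s1.mul_left 8)).add (s0.mul_left 16))).mul_left _
  have hFnn : ∀ n, 0 ≤ F n := fun n => by
    simp only [hF]; positivity
  refine ⟨∑' n, F n + 1, ?_, ?_⟩
  · have : (0 : ℝ) ≤ ∑' n, F n := tsum_nonneg hFnn
    linarith
  · intro k Q
    have hmaps : ∀ x ∈ Q, G.dist x k ∈ Q.image (fun x => G.dist x k) :=
      fun x hx => Finset.mem_image_of_mem _ hx
    rw [← Finset.sum_fiberwise_of_maps_to hmaps]
    have h1 : ∀ n ∈ Q.image (fun x => G.dist x k),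
        ∑ x ∈ Q with G.dist x k = n, a ^ (G.dist x k) * ((G.dist x k : ℝ) + 4) ^ 2 ≤ F n := by
      intro n _
      have h2 : ∑ x ∈ Q with G.dist x k = n, a ^ (G.dist x k) * ((G.dist x k : ℝ) + 4) ^ 2
          = ((Q.filter (fun x => G.dist x k = n)).card : ℝ) * (a ^ n * ((n : ℝ) + 4) ^ 2) := by
        rw [← nsmul_eq_mul, ← Finset.sum_const]
        apply Finset.sum_congr rfl
        intro x hx
        rw [(Finset.mem_filter.mp hx).2]
      rw [h2]
      have h3 : ((Q.filter (fun x => G.dist x k = n)).card : ℝ) ≤ (d : ℝ) * ((d : ℝ) - 1) ^ n := by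
        have h4 := sphere_card hT hd hreg k n (Q.filter (fun x => G.dist x k = n))
          (fun x hx => (Finset.mem_filter.mp hx).2)
        have h5 : ((d - 1 : ℕ) : ℝ) = (d : ℝ) - 1 := by
          rw [Nat.cast_sub (by omega)]; simp
        calc ((Q.filter (fun x => G.dist x k = n)).card : ℝ) ≤ ((d * (d - 1) ^ n : ℕ) : ℝ) := by
              exact_mod_cast h4
          _ = (d : ℝ) * ((d : ℝ) - 1) ^ n := by
              rw [Nat.cast_mul, Nat.cast_pow, h5]
      calc ((Q.filter (fun x => G.dist x k = n)).card : ℝ) * (a ^ n * ((n : ℝ) + 4) ^ 2)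
          ≤ ((d : ℝ) * ((d : ℝ) - 1) ^ n) * (a ^ n * ((n : ℝ) + 4) ^ 2) := by
            apply mul_le_mul_of_nonneg_right h3
            positivity
        _ = F n := by
            simp only [hF, hb, mul_pow]
            ring
    calc _ ≤ ∑ n ∈ Q.image (fun x => G.dist x k), F n := Finset.sum_le_sum h1
      _ ≤ ∑' n, F n := hsum.sum_le_tsum _ (fun n _ => hFnn n)
      _ ≤ ∑' n, F n + 1 := by linarith

/-- iterating `par G o` decreases the distance to `o` by one each time -/
theorem dist_iter (hT : G.IsTree) (o x : V) (n : ℕ) :
    G.dist o ((par G o)^[n] x) = G.dist o x - n := by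
  induction n with
  | zero => simp
  | succ n ih =>
    rw [Function.iterate_succ_apply']
    by_cases h : (par G o)^[n] x = o
    · rw [h] at ih ⊢
      rw [par_self]
      rw [SimpleGraph.dist_self] at ih ⊢
      omega
    · have := par_dist hT h
      omega

/-- iterating `par G o` eventually reaches `o` -/
theorem anc_root (hT : G.IsTree) (o x : V) : (par G o)^[G.dist o x] x = o := by
  have := dist_iter hT o x (G.dist o x)
  rw [Nat.sub_self, hT.connected.dist_eq_zero_iff] at this
  exact this.symm

theorem dist_iter_le (hT : G.IsTree) (o x : V) (n : ℕ) :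
    G.dist x ((par G o)^[n] x) ≤ n := by
  induction n with
  | zero => simp
  | succ n ih =>
    rw [Function.iterate_succ_apply']
    by_cases h : (par G o)^[n] x = o
    · rw [h, par_self]
      rw [h] at ih
      omega
    · have h1 : G.dist x (par G o ((par G o)^[n] x)) ≤
          G.dist x ((par G o)^[n] x) + G.dist ((par G o)^[n] x) (par G o ((par G o)^[n] x)) :=
        hT.connected.dist_triangle
      have h2 : G.dist ((par G o)^[n] x) (par G o ((par G o)^[n] x)) = 1 := by
        rw [SimpleGraph.dist_eq_one_iff_adj]
        exact (par_adj hT h).symm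
      omega

/-- ancestors: `v` lies on the `par G o`-chain of `x` iff moving from `v` to its parent increases the
distance to `x` -/
theorem lt_of_anc (hT : G.IsTree) {o x v : V} (h : ∃ n, (par G o)^[n] x = v) (hv : v ≠ o) :
    G.dist x v < G.dist x (par G o v) := by
  obtain ⟨n, rfl⟩ := h
  have h1 := dist_iter hT o x n
  have h2 := dist_iter_le hT o x n
  have h3 := dist_iter hT o x (n + 1)
  rw [Function.iterate_succ_apply'] at h3
  have h4 := par_dist hT hv
  have h5 : G.dist o x ≤ G.dist o (par G o ((par G o)^[n] x)) +
      G.dist (par G o ((par G o)^[n] x)) x := hT.connected.dist_triangle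
  rw [SimpleGraph.dist_comm (u := par G o ((par G o)^[n] x)) (v := x)] at h5
  omega

theorem side_step (hT : G.IsTree) {v p x x' : V} (hvp : G.Adj v p) (hxx : G.Adj x x')
    (hlt : G.dist x v < G.dist x p) (hne : x ≠ v) : G.dist x' v < G.dist x' p := by
  have c1 := adj_dist_cases hT (x := x) hvp
  have c2 := adj_dist_cases hT (x := x') hvp
  by_contra hcon
  have e1 : G.dist x v + 1 = G.dist x p := by omega
  have e2 : G.dist x' p + 1 = G.dist x' v := by omega
  have t1 : G.dist x' v ≤ G.dist x' x + G.dist x v := hT.connected.dist_triangle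
  have t0 : G.dist x' x = 1 := by
    rw [SimpleGraph.dist_eq_one_iff_adj]; exact hxx.symm
  have t0' : G.dist x x' = 1 := by
    rw [SimpleGraph.dist_eq_one_iff_adj]; exact hxx
  have l1 : G.dist p x' < G.dist p x := by
    rw [SimpleGraph.dist_comm (u := p) (v := x'), SimpleGraph.dist_comm (u := p) (v := x)]
    omega
  have l2 : par G p x = x' := par_eq_of_adj_lt hT hxx.symm l1
  have y1 := par_adj hT hne
  have y2 := par_dist hT hne
  have t2 : G.dist p (par G v x) ≤ G.dist p v + G.dist v (par G v x) := hT.connected.dist_triangle
  have t3 : G.dist p v = 1 := by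
    rw [SimpleGraph.dist_eq_one_iff_adj]; exact hvp.symm
  have l3 : par G p x = par G v x := by
    apply par_eq_of_adj_lt hT y1
    rw [SimpleGraph.dist_comm (u := p) (v := x)]
    rw [SimpleGraph.dist_comm (u := v) (v := x)] at y2
    omega
  have l4 : par G v x = x' := by rw [← l3, l2]
  rw [l4] at y2
  have t4 : G.dist x p ≤ G.dist x x' + G.dist x' p := hT.connected.dist_triangle
  rw [SimpleGraph.dist_comm (u := v) (v := x'), SimpleGraph.dist_comm (u := v) (v := x)] at y2
  omega

theorem anc_of_lt (hT : G.IsTree) {o x v : V} (hv : v ≠ o)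
    (h : G.dist x v < G.dist x (par G o v)) : ∃ n, (par G o)^[n] x = v := by
  obtain ⟨k, hk⟩ : ∃ k, G.dist o x = k := ⟨_, rfl⟩
  induction k generalizing x with
  | zero =>
    rw [hT.connected.dist_eq_zero_iff] at hk
    subst hk
    have := par_dist hT hv
    omega
  | succ k ih =>
    by_cases hxv : x = v
    · exact ⟨0, hxv⟩
    · have hxo : x ≠ o := by
        rintro rfl
        rw [SimpleGraph.dist_self] at hk
        omega
      have h1 := side_step hT (par_adj hT hv).symm (par_adj hT hxo).symm h hxv
      have h2 := par_dist hT hxo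
      obtain ⟨n, hn⟩ := ih h1 (by omega)
      exact ⟨n + 1, by rw [Function.iterate_succ_apply]; exact hn⟩

theorem ball_finite (hT : G.IsTree) [G.LocallyFinite] (o : V) (n : ℕ) :
    {y | G.dist o y ≤ n}.Finite := by
  classical
  induction n with
  | zero =>
    apply (Set.finite_singleton o).subset
    intro y hy
    simp only [Set.mem_setOf_eq, Nat.le_zero] at hy
    rw [hT.connected.dist_eq_zero_iff] at hy
    simp [hy]
  | succ n ih =>
    have : {y | G.dist o y ≤ n + 1} ⊆
        {y | G.dist o y ≤ n} ∪ ⋃ z ∈ {y | G.dist o y ≤ n}, (G.neighborFinset z : Set V) := by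
      intro y hy
      simp only [Set.mem_setOf_eq] at hy
      by_cases hyo : y = o
      · left
        subst hyo
        simp
      · right
        rw [Set.mem_iUnion₂]
        refine ⟨par G o y, ?_, ?_⟩
        · have := par_dist hT hyo
          simp only [Set.mem_setOf_eq]
          omega
        · simp only [SimpleGraph.coe_neighborFinset, SimpleGraph.mem_neighborSet]
          exact par_adj hT hyo
    refine Set.Finite.subset ?_ this
    exact ih.union (ih.biUnion (fun z _ => Finset.finite_toSet _))

theorem countable_of_tree (hT : G.IsTree) [G.LocallyFinite] : Countable V := by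
  obtain ⟨o⟩ := hT.nonempty
  have h : (Set.univ : Set V) = ⋃ n : ℕ, {y | G.dist o y ≤ n} := by
    ext y
    simp only [Set.mem_univ, Set.mem_iUnion, Set.mem_setOf_eq, true_iff]
    exact ⟨G.dist o y, le_refl _⟩
  rw [← Set.countable_univ_iff, h]
  exact Set.countable_iUnion (fun n => (ball_finite hT o n).countable)

theorem dist_map_le (g : G ≃g G) (x y : V) :
    G.dist (g x) (g y) ≤ G.dist x y := by
  by_cases h : G.Reachable x y
  · obtain ⟨w, hw⟩ := h.exists_walk_length_eq_dist
    rw [← hw, ← SimpleGraph.Walk.length_map g.toHom w]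
    exact SimpleGraph.dist_le _
  · have h' : ¬ G.Reachable (g x) (g y) := by
      intro hh
      apply h
      have := hh.map g.symm.toHom
      simpa using this
    rw [SimpleGraph.dist_eq_zero_of_not_reachable h']
    exact Nat.zero_le _

theorem dist_map (g : G ≃g G) (x y : V) : G.dist (g x) (g y) = G.dist x y := by
  apply le_antisymm
  · exact dist_map_le g x y
  · have := dist_map_le g.symm (g x) (g y)
    simpa using this

theorem par_map (hT : G.IsTree) (g : G ≃g G) (x y : V) :
    par G (g x) (g y) = g (par G x y) := by
  by_cases h : y = x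
  · subst h
    rw [par_self, par_self]
  · apply par_eq_of_adj_lt hT
    · exact (SimpleGraph.Iso.map_adj_iff g).mpr (par_adj hT h)
    · rw [dist_map, dist_map]
      have := par_dist hT h
      omega

theorem penultimate_eq_par (hT : G.IsTree) {x y : V} (h : y ≠ x) (p : G.Walk x y) (hp : p.IsPath) :
    p.penultimate = par G x y := by
  obtain ⟨q, hq⟩ := hT.connected.exists_walk_length_eq_dist x (par G x y)
  have P2 : (q.concat (par_adj hT h)).IsPath := by
    apply SimpleGraph.Walk.isPath_of_length_eq_dist
    rw [SimpleGraph.Walk.length_concat, hq, par_dist hT h]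
  have := (hT.isAcyclic.subsingleton_path x y).elim ⟨p, hp⟩ ⟨_, P2⟩
  have h2 : p = q.concat (par_adj hT h) := congrArg Subtype.val this
  have h3 := congrArg SimpleGraph.Walk.penultimate h2
  simpa using h3

/-- a finite set inducing a connected subgraph is closed under `par G o` for each of its points `o` -/
theorem pclosed_of_connected (hT : G.IsTree) {D : Finset V} {o : V} (ho : o ∈ D)
    (hD : (G.induce (D : Set V)).Connected) : PClosed G o D := by
  refine ⟨ho, ?_⟩
  intro v hv
  by_cases hvo : v = o
  · subst hvo
    rw [par_self]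
    exact ho
  · obtain ⟨p, hp⟩ := (hD.preconnected ⟨o, ho⟩ ⟨v, hv⟩).exists_isPath
    set e : G.induce (D : Set V) ↪g G := SimpleGraph.Embedding.induce (D : Set V) with he
    have hp' : (p.map e.toHom).IsPath :=
      SimpleGraph.Walk.map_isPath_of_injective e.injective hp
    have h1 : (p.map e.toHom).penultimate = par G o v :=
      penultimate_eq_par hT hvo _ hp'
    have h2 : (p.map e.toHom).penultimate ∈ (p.map e.toHom).support := by
      exact SimpleGraph.Walk.getVert_mem_support _ _
    rw [h1, SimpleGraph.Walk.support_map, List.mem_map] at h2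
    obtain ⟨a, _, ha⟩ := h2
    rw [← ha]
    exact a.2

theorem ball_connected (hT : G.IsTree) (o : V) (n : ℕ) :
    (G.induce {y | G.dist o y ≤ n}).Connected := by
  rw [SimpleGraph.connected_iff_exists_forall_reachable]
  have ho : o ∈ {y | G.dist o y ≤ n} := by simp
  refine ⟨⟨o, ho⟩, ?_⟩
  have key : ∀ k, ∀ y : V, (hy : y ∈ {y | G.dist o y ≤ n}) → G.dist o y = k →
      (G.induce {y | G.dist o y ≤ n}).Reachable ⟨o, ho⟩ ⟨y, hy⟩ := by
    intro k
    induction k with
    | zero =>
      intro y hy hk
      rw [hT.connected.dist_eq_zero_iff] at hk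
      subst hk
      exact SimpleGraph.Reachable.refl _
    | succ k ih =>
      intro y hy hk
      have hyo : y ≠ o := by
        rintro rfl
        rw [SimpleGraph.dist_self] at hk
        omega
      have h1 := par_dist hT hyo
      have hp : par G o y ∈ {y | G.dist o y ≤ n} := by
        have hy' : G.dist o y ≤ n := hy
        show G.dist o (par G o y) ≤ n
        omega
      have h2 := ih (par G o y) hp (by omega)
      refine h2.trans (SimpleGraph.Adj.reachable ?_)
      show G.Adj (par G o y) y
      exact par_adj hT hyo
  intro w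
  exact key _ w.1 w.2 rfl

open Classical in
/-- the edges inside `D` are the pairs `{v, par v}`, `v ∈ D \ {o}` -/
theorem prod_edges (hT : G.IsTree) {D : Finset V} {o : V} (hD : PClosed G o D) (f : Sym2 V → ℝ) :
    ∏ e ∈ D.sym2.filter (fun e => e ∈ G.edgeSet), f e
      = ∏ v ∈ D.erase o, f s(v, par G o v) := by
  symm
  refine Finset.prod_bij (fun v _ => s(v, par G o v)) ?_ ?_ ?_ ?_
  · intro v hv
    rw [Finset.mem_erase] at hv
    rw [Finset.mem_filter, Finset.mk_mem_sym2_iff]
    refine ⟨⟨hv.2, hD.2 v hv.2⟩, ?_⟩
    rw [SimpleGraph.mem_edgeSet]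
    exact (par_adj hT hv.1).symm
  · intro v hv w hw h
    rw [Finset.mem_erase] at hv hw
    rw [Sym2.eq_iff] at h
    rcases h with h | h
    · exact h.1
    · exfalso
      have h1 := par_dist hT hv.1
      have h2 := par_dist hT hw.1
      rw [h.2] at h1
      rw [← h.1] at h2
      omega
  · intro e he
    rw [Finset.mem_filter] at he
    induction e using Sym2.ind with
    | _ a b =>
      rw [Finset.mk_mem_sym2_iff, SimpleGraph.mem_edgeSet] at he
      rcases adj_dist_cases hT (x := o) he.2 with h | h
      · have hb : b ≠ o := by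
          rintro rfl
          rw [SimpleGraph.dist_self] at h
          omega
        refine ⟨b, Finset.mem_erase.mpr ⟨hb, he.1.2⟩, ?_⟩
        rw [par_eq_of_adj_lt hT he.2 (by omega)]
        exact Sym2.eq_swap
      · have ha : a ≠ o := by
          rintro rfl
          rw [SimpleGraph.dist_self] at h
          omega
        refine ⟨a, Finset.mem_erase.mpr ⟨ha, he.1.1⟩, ?_⟩
        rw [par_eq_of_adj_lt hT he.2.symm (by omega)]
  · intro v _
    rfl

open Classical in
/-- induction over `par`-closed sets by adding leaves -/
theorem pclosed_induction (hT : G.IsTree) {o : V} (motive : Finset V → Prop)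
    (base : motive {o})
    (ins : ∀ (D : Finset V) (v : V), PClosed G o D → v ∉ D → par G o v ∈ D →
      motive D → motive (insert v D))
    (D : Finset V) (hD : PClosed G o D) : motive D := by
  obtain ⟨n, hn⟩ : ∃ n, D.card = n := ⟨_, rfl⟩
  induction n generalizing D with
  | zero =>
    rw [Finset.card_eq_zero] at hn
    subst hn
    exact absurd hD.1 (Finset.notMem_empty o)
  | succ n ih =>
    obtain ⟨v, hv, hmax⟩ := Finset.exists_max_image D (fun v => G.dist o v) ⟨o, hD.1⟩
    by_cases hvo : v = o
    · have : D = {o} := by
        apply Finset.eq_singleton_iff_unique_mem.mpr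
        refine ⟨hD.1, ?_⟩
        intro w hw
        have := hmax w hw
        rw [hvo, SimpleGraph.dist_self, Nat.le_zero, hT.connected.dist_eq_zero_iff] at this
        exact this.symm
      rw [this]
      exact base
    · have hpv : par G o v ≠ v := by
        have := par_adj hT hvo
        exact this.ne
      have hD' : PClosed G o (D.erase v) := by
        refine ⟨Finset.mem_erase.mpr ⟨Ne.symm hvo, hD.1⟩, ?_⟩
        intro w hw
        rw [Finset.mem_erase] at hw
        rw [Finset.mem_erase]
        refine ⟨?_, hD.2 w hw.2⟩
        intro hpw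
        by_cases hwo : w = o
        · rw [hwo, par_self] at hpw
          exact hvo hpw.symm
        · have h1 := par_dist hT hwo
          have h2 := hmax w hw.2
          rw [hpw] at h1
          omega
      have h1 : motive (D.erase v) := by
        apply ih _ hD'
        rw [Finset.card_erase_of_mem hv]
        omega
      have h2 := ins (D.erase v) v hD' (Finset.notMem_erase v D)
        (Finset.mem_erase.mpr ⟨hpv, hD.2 v hv⟩) h1
      rwa [Finset.insert_erase hv] at h2

end Vale.Agent.P161T
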