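import Vale.Agent.P161L.Setup
import Vale.Agent.P161L.TBase

open MeasureTheory ProbabilityTheory Set Filter Topology

namespace Vale.Agent.P161L

variable {V : Type*} {G : SimpleGraph V}

theorem measurable_act0 {S : Type*} [MeasurableSpace S] (g : G ≃g G) :
    Measurable (act g : (V → S) → (V → S)) :=
  measurable_pi_iff.2 fun _ => measurable_pi_apply _

theorem measurableSet_cyl (D : Finset V) (η : V → Bool) :
    MeasurableSet {σ : V → Bool | ∀ v ∈ D, σ v = η v} := by
  have : {σ : V → Bool | ∀ v ∈ D, σ v = η v} = ⋂ v ∈ D, {σ : V → Bool | σ v = η v} := by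
    ext σ; simp
  rw [this]
  refine Finset.measurableSet_biInter _ fun v _ => ?_
  exact measurableSet_eq_fun (measurable_pi_apply v) measurable_const

/-- Uniqueness of the free Ising measure. -/
theorem isFreeIsing_unique (hG : G.IsTree) {θ : ℝ} {μ ν : Measure (V → Bool)}
    (hμ : IsFreeIsing G θ μ) (hν : IsFreeIsing G θ ν) (B : V → ℕ → Finset V)
    (hB : ∀ v N u, u ∈ B v N ↔ G.dist v u ≤ N) : ν = μ := by
  classical
  have := hμ.1
  have := hν.1
  obtain ⟨o⟩ := hG.nonempty
  have hball : ∀ N, ν.map (B o N).restrict = μ.map (B o N).restrict := by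
    intro N
    have hconn : (G.induce (B o N : Set V)).Connected := by
      have h1 : ((B o N : Finset V) : Set V) = {y | G.dist o y ≤ N} := by
        ext y; simp [hB]
      rw [h1]
      exact Vale.Agent.P161T.ball_connected hG o N
    refine Measure.ext_of_singleton fun τ => ?_
    rw [Measure.map_apply (by fun_prop) (measurableSet_singleton _),
      Measure.map_apply (by fun_prop) (measurableSet_singleton _)]
    let η : V → Bool := fun v => if h : v ∈ B o N then τ ⟨v, h⟩ else true
    have hset : ((B o N).restrict : (V → Bool) → (B o N → Bool)) ⁻¹' {τ} =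
        {σ : V → Bool | ∀ v ∈ B o N, σ v = η v} := by
      ext σ
      simp only [mem_preimage, mem_singleton_iff, mem_ofPred_eq]
      constructor
      · rintro h v hv
        simp only [η, dif_pos hv, ← h, Finset.restrict]
      · intro h
        funext ⟨v, hv⟩
        simp only [Finset.restrict]
        rw [h v hv]
        simp only [η, dif_pos hv]
    rw [hset]
    have h1 := hμ.2 (B o N) hconn η
    have h2 := hν.2 (B o N) hconn η
    rw [← h1] at h2
    exact (measureReal_eq_measureReal_iff).1 h2
  have hall : ∀ I : Finset V, ν.map I.restrict = μ.map I.restrict := by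
    intro I
    obtain ⟨N, hN⟩ : ∃ N, I ⊆ B o N := by
      refine ⟨I.sup (fun u => G.dist o u), fun u hu => ?_⟩
      rw [hB]
      exact Finset.le_sup (f := fun u => G.dist o u) hu
    have h1 : (I.restrict : (V → Bool) → (I → Bool)) =
        (Finset.restrict₂ hN) ∘ (B o N).restrict := rfl
    rw [h1, ← Measure.map_map (by fun_prop) (by fun_prop), hball,
      Measure.map_map (by fun_prop) (by fun_prop)]
  have hP : IsProjectiveLimit μ (fun I : Finset V => μ.map I.restrict) := fun I => rfl
  have hP' : IsProjectiveLimit ν (fun I : Finset V => μ.map I.restrict) := fun I => hall I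
  exact IsProjectiveLimit.unique hP' hP

theorem isFreeIsing_map_act {θ : ℝ} {μ : Measure (V → Bool)}
    (hμ : IsFreeIsing G θ μ) (g : G ≃g G) : IsFreeIsing G θ (μ.map (act g)) := by
  classical
  have := hμ.1
  refine ⟨Measure.isProbabilityMeasure_map (measurable_act0 g).aemeasurable, fun D hD η => ?_⟩
  rw [map_measureReal_apply (measurable_act0 g) (measurableSet_cyl D η)]
  have hpre : (act g) ⁻¹' {σ : V → Bool | ∀ v ∈ D, σ v = η v} =
      {σ : V → Bool | ∀ u ∈ D.map g.symm.toEquiv.toEmbedding, σ u = η (g u)} := by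
    ext σ
    simp only [mem_preimage, mem_ofPred_eq, act, Finset.mem_map, Equiv.coe_toEmbedding,
      forall_exists_index, and_imp]
    constructor
    · rintro h u v hv rfl
      have := h v hv
      simpa using this
    · intro h v hv
      have := h (g.symm v) v hv rfl
      simpa using this
  rw [hpre]
  have hconn : (G.induce ((D.map g.symm.toEquiv.toEmbedding : Finset V) : Set V)).Connected := by
    let f : G.induce (D : Set V) →g
        G.induce ((D.map g.symm.toEquiv.toEmbedding : Finset V) : Set V) :=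
      { toFun := fun v => ⟨g.symm v.1, by
          have := v.2
          simp only [Finset.coe_map, Set.mem_image]
          exact ⟨v.1, this, rfl⟩⟩
        map_rel' := by
          intro a b hab
          simp only [SimpleGraph.comap_adj, Function.Embedding.subtype_apply] at hab ⊢
          exact g.symm.map_adj_iff.2 hab }
    refine hD.map f ?_
    rintro ⟨u, hu⟩
    simp only [Finset.coe_map, Set.mem_image] at hu
    obtain ⟨v, hv, rfl⟩ := hu
    exact ⟨⟨v, hv⟩, rfl⟩
  rw [hμ.2 _ hconn]
  congr 1
  refine Finset.prod_nbij' (Sym2.map g) (Sym2.map g.symm) ?_ ?_ ?_ ?_ ?_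
  · rintro ⟨a, b⟩ he
    simp only [Finset.mem_filter, Finset.mem_sym2_iff, Sym2.mem_iff, forall_eq_or_imp, forall_eq,
      Finset.mem_map, Equiv.coe_toEmbedding, SimpleGraph.mem_edgeSet, Sym2.map_mk] at he ⊢
    obtain ⟨⟨⟨c, hc, rfl⟩, ⟨e, he', rfl⟩⟩, h⟩ := he
    refine ⟨⟨by simpa using hc, by simpa using he'⟩, ?_⟩
    exact g.map_adj_iff.2 h
  · rintro ⟨a, b⟩ he
    simp only [Finset.mem_filter, Finset.mem_sym2_iff, Sym2.mem_iff, forall_eq_or_imp, forall_eq,
      Finset.mem_map, Equiv.coe_toEmbedding, SimpleGraph.mem_edgeSet, Sym2.map_mk] at he ⊢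
    obtain ⟨⟨ha, hb⟩, h⟩ := he
    exact ⟨⟨⟨a, ha, rfl⟩, ⟨b, hb, rfl⟩⟩, g.symm.map_adj_iff.2 h⟩
  · rintro ⟨a, b⟩ he
    simp
  · rintro ⟨a, b⟩ he
    simp
  · rintro ⟨a, b⟩ he
    simp [edgeWeight]

theorem map_act_eq [Countable V] (hG : G.IsTree) {θ : ℝ} {μ : Measure (V → Bool)}
    (hμ : IsFreeIsing G θ μ) (B : V → ℕ → Finset V) (hB : ∀ v N u, u ∈ B v N ↔ G.dist v u ≤ N)
    (g : G ≃g G) : μ.map (act g) = μ :=
  isFreeIsing_unique hG hμ (isFreeIsing_map_act hμ g) B hB

end Vale.Agent.P161L
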