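import Vale.Agent.P161L.Basic

open MeasureTheory ProbabilityTheory Set Filter Topology

namespace Vale.Agent.P161L

variable {V : Type*}

theorem integral_mean (b : ℝ) :
    ∫ x : unitInterval, (x : ℝ) * (1 + b * (2 * (x : ℝ) - 1)) = 1 / 2 + b / 6 := by
  have h1 := integral_subtype (s := unitInterval) measurableSet_Icc
    (fun x : ℝ => x * (1 + b * (2 * x - 1)))
  rw [h1, integral_Icc_eq_integral_Ioc, ← intervalIntegral.integral_of_le zero_le_one]
  have h2 : ∀ x : ℝ, x * (1 + b * (2 * x - 1)) = (1 - b) * x + 2 * b * x ^ 2 := fun x => by ring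
  simp_rw [h2]
  rw [intervalIntegral.integral_add, intervalIntegral.integral_const_mul,
    intervalIntegral.integral_const_mul, integral_id, integral_pow]
  · norm_num; ring
  · exact (continuous_const.mul continuous_id).intervalIntegrable _ _
  · exact (continuous_const.mul (continuous_id.pow 2)).intervalIntegrable _ _

theorem lln_fixed (v : V) {b : ℝ} (hb : |b| < 1) :
    ∀ᵐ R ∂(iidUniform (V × ℕ)),
      Tendsto (fun n : ℕ => (∑ k ∈ Finset.range n, (quant b (R (v, k + 1)) : ℝ)) / n) atTop
        (𝓝 (1 / 2 + b / 6)) := by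
  set X : ℕ → (V × ℕ → unitInterval) → ℝ := fun k R => (quant b (R (v, k + 1)) : ℝ) with hX
  have hq : Measurable fun r : unitInterval => (quant b r : ℝ) :=
    measurable_subtype_coe.comp (measurable_quant.comp (measurable_const.prodMk measurable_id))
  have hmX : ∀ k, Measurable (X k) := fun k => hq.comp (measurable_pi_apply _)
  have hbX : ∀ k R, |X k R| ≤ 1 := fun k R => by
    simp only [hX]
    rw [abs_of_nonneg (quant b _).2.1]; exact (quant b _).2.2
  have hindep : iIndepFun (fun (j : V × ℕ) (R : V × ℕ → unitInterval) => (quant b (R j) : ℝ))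
      (iidUniform (V × ℕ)) := iIndepFun_infinitePi fun _ => hq
  have hlaw : ∀ j : V × ℕ, (iidUniform (V × ℕ)).map (fun R => R j) =
      (volume : Measure unitInterval) := fun j =>
    Measure.infinitePi_map_eval (fun _ : V × ℕ => (volume : Measure unitInterval)) j
  have hexp : ∫ R, X 0 R ∂(iidUniform (V × ℕ)) = 1 / 2 + b / 6 := by
    have e1 : ∫ R, X 0 R ∂(iidUniform (V × ℕ)) = ∫ r : unitInterval, (quant b r : ℝ) := by
      rw [← hlaw (v, 0 + 1)]
      exact (integral_map (μ := iidUniform (V × ℕ)) (φ := fun R => R (v, 0 + 1))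
        (measurable_pi_apply (v, 0 + 1)).aemeasurable hq.aestronglyMeasurable).symm
    rw [e1, integral_quant hb (h := fun x => (x : ℝ)) measurable_subtype_coe
      ⟨1, fun x => by rw [abs_of_nonneg x.2.1]; exact x.2.2⟩, integral_mean]
  rw [← hexp]
  refine strong_law_ae_real X ?_ ?_ ?_
  · exact Integrable.of_bound (hmX 0).aestronglyMeasurable 1 (Eventually.of_forall (hbX 0))
  · intro i j hij
    exact hindep.indepFun (i := (v, i + 1)) (j := (v, j + 1)) (by
      intro h; apply hij; simpa using h)
  · intro i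
    refine ⟨(hmX i).aemeasurable, (hmX 0).aemeasurable, ?_⟩
    have e1 : ∀ i, (iidUniform (V × ℕ)).map (X i) =
        (volume : Measure unitInterval).map (fun r => (quant b r : ℝ)) := by
      intro i
      rw [← hlaw (v, i + 1)]
      exact (Measure.map_map hq (measurable_pi_apply (v, i + 1))).symm
    rw [e1, e1]

/-- the limiting average of the observations at `v` -/
noncomputable def decLim (x : V × ℕ → unitInterval) (v : V) : ℝ :=
  limsup (fun n : ℕ => (∑ k ∈ Finset.range n, (x (v, k + 1) : ℝ)) / n) atTop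

open Classical in
/-- decoding of the spins from the observations -/
noncomputable def dec (x : V × ℕ → unitInterval) (v : V) : Bool :=
  if 1 / 2 < decLim x v then true else false

theorem measurable_decLim (v : V) : Measurable fun x : V × ℕ → unitInterval => decLim x v :=
  Measurable.limsup fun n => (Finset.measurable_sum _ fun k _ =>
      measurable_subtype_coe.comp (measurable_pi_apply (v, k + 1))).div_const _

theorem measurable_dec : Measurable (dec : (V × ℕ → unitInterval) → V → Bool) := by
  classical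
  rw [measurable_pi_iff]
  intro v
  exact Measurable.ite (measurableSet_lt measurable_const (measurable_decLim v))
    measurable_const measurable_const

theorem dec_obs [Countable V] (μ : Measure (V → Bool)) [IsProbabilityMeasure μ] {ε : ℝ}
    (h0 : 0 < ε) (h1 : ε < 1) :
    ∀ᵐ ω ∂(μ.prod (iidUniform (V × ℕ))), dec (obs (fun _ => ε) ω) = ω.1 := by
  classical
  have hms : MeasurableSet {ω : (V → Bool) × (V × ℕ → unitInterval) |
      dec (obs (fun _ => ε) ω) = ω.1} :=
    measurableSet_eq_fun (measurable_dec.comp (measurable_obs _)) measurable_fst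
  rw [Measure.ae_prod_iff_ae_ae hms]
  refine Eventually.of_forall fun σ => ?_
  have hall : ∀ᵐ R ∂(iidUniform (V × ℕ)), ∀ v : V,
      Tendsto (fun n : ℕ => (∑ k ∈ Finset.range n,
        (quant (ε * spin (σ v)) (R (v, k + 1)) : ℝ)) / n) atTop
        (𝓝 (1 / 2 + (ε * spin (σ v)) / 6)) := by
    rw [ae_all_iff]
    intro v
    refine lln_fixed v ?_
    rw [abs_mul, abs_spin, mul_one, abs_of_pos h0]; exact h1
  filter_upwards [hall] with R hR
  funext v
  have h : decLim (obs (fun _ => ε) (σ, R)) v = 1 / 2 + (ε * spin (σ v)) / 6 :=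
    (hR v).limsup_eq
  change dec (obs (fun _ => ε) (σ, R)) v = σ v
  cases hσ : σ v with
  | false =>
    rw [hσ] at h
    refine if_neg ?_
    rw [h]
    simp only [spin, Bool.false_eq_true, if_false]
    linarith
  | true =>
    rw [hσ] at h
    refine if_pos ?_
    rw [h]
    simp only [spin, if_true]
    linarith

theorem exists_meas_of_approx {Ω T : Type*} [MeasurableSpace Ω] [MeasurableSpace T]
    {P : Measure Ω} [IsProbabilityMeasure P] {X : Ω → ℝ} (hX : Measurable X)
    (hXb : ∀ ω, |X ω| ≤ 1) {ξ : Ω → T} (hξ : Measurable ξ)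
    (h : ∀ δ : ℝ, 0 < δ → ∃ g : T → ℝ, Measurable g ∧ (∀ x, |g x| ≤ 1) ∧
      ∫ ω, |X ω - g (ξ ω)| ∂P ≤ δ) :
    ∃ f : T → ℝ, Measurable f ∧ ∀ᵐ ω ∂P, X ω = f (ξ ω) := by
  have hle : MeasurableSpace.comap ξ inferInstance ≤ (inferInstance : MeasurableSpace Ω) :=
    hξ.comap_le
  set E : Ω → ℝ := P[X | MeasurableSpace.comap ξ inferInstance] with hE
  have hXi : Integrable X P := integrable_of_bdd hX hXb
  have hEi : Integrable E P := integrable_condExp
  have hkey : ∀ δ : ℝ, 0 < δ → ∫ ω, |X ω - E ω| ∂P ≤ δ + δ := by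
    intro δ hδ
    obtain ⟨g, hg, hgb, hgδ⟩ := h δ hδ
    have hgi : Integrable (fun ω => g (ξ ω)) P := integrable_of_bdd (hg.comp hξ) fun ω => hgb _
    have h1 : P[(fun ω => g (ξ ω)) | MeasurableSpace.comap ξ inferInstance] =
        fun ω => g (ξ ω) := condExp_of_stronglyMeasurable hle
          (hg.comp (comap_measurable ξ)).stronglyMeasurable hgi
    have h2 := condExp_sub hXi hgi (MeasurableSpace.comap ξ inferInstance)
    rw [h1] at h2
    have h3 : ∫ ω, |E ω - g (ξ ω)| ∂P ≤ δ := by
      have h4 := integral_abs_condExp_le (m := MeasurableSpace.comap ξ inferInstance) (μ := P)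
        (X - fun ω => g (ξ ω))
      refine le_trans (le_of_eq ?_) (h4.trans hgδ)
      refine integral_congr_ae ?_
      filter_upwards [h2] with ω hω
      rw [hω]; rfl
    calc ∫ ω, |X ω - E ω| ∂P ≤ ∫ ω, (|X ω - g (ξ ω)| + |E ω - g (ξ ω)|) ∂P := by
          refine integral_mono_of_nonneg (Eventually.of_forall fun _ => abs_nonneg _)
            ((hXi.sub hgi).abs.add (hEi.sub hgi).abs) (Eventually.of_forall fun ω => ?_)
          beta_reduce
          rw [abs_sub_comm (E ω)]
          exact abs_sub_le _ _ _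
      _ = _ := integral_add (hXi.sub hgi).abs (hEi.sub hgi).abs
      _ ≤ δ + δ := add_le_add hgδ h3
  have hzero : ∫ ω, |X ω - E ω| ∂P = 0 := by
    refine le_antisymm (le_of_forall_pos_le_add fun δ hδ => ?_)
      (integral_nonneg fun _ => abs_nonneg _)
    have := hkey (δ / 2) (half_pos hδ)
    linarith
  have hae : ∀ᵐ ω ∂P, X ω = E ω := by
    have := (integral_eq_zero_iff_of_nonneg (fun _ => abs_nonneg _) (hXi.sub hEi).abs).1 hzero
    filter_upwards [this] with ω hω
    have : |X ω - E ω| = 0 := hω
    exact sub_eq_zero.1 (abs_eq_zero.1 this)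
  obtain ⟨f, hf, hfE⟩ := (stronglyMeasurable_condExp (f := X) (μ := P)
    (m := MeasurableSpace.comap ξ inferInstance)).exists_eq_measurable_comp (f := ξ)
  refine ⟨f, hf.measurable, ?_⟩
  filter_upwards [hae] with ω hω
  rw [hω]
  exact congrFun hfE ω

end Vale.Agent.P161L
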