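import Vale.Agent.P161L.Setup
import Vale.Agent.P161L.TBase

/-! M1: tree facts for P161L (helper4) -/

open MeasureTheory ProbabilityTheory Set Filter Topology

namespace Vale.Agent.P161L

open Vale.Agent.P161T (par par_self par_adj par_dist par_eq_of_adj_lt adj_dist_cases closer_unique
  dist_iter exists_S ball_finite countable_of_tree anc_of_lt)

variable {V : Type*} {G : SimpleGraph V}

theorem tree_adj_dist (hG : G.IsTree) {u p : V} (h : G.Adj u p) (v : V) :
    G.dist v p + 1 = G.dist v u ∨ G.dist v u + 1 = G.dist v p := by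
  rcases adj_dist_cases hG (x := v) h with h | h
  · right; exact h
  · left; exact h

theorem tree_step (hG : G.IsTree) {v w : V} (h : w ≠ v) :
    ∃! u, G.Adj w u ∧ G.dist v u + 1 = G.dist v w := by
  refine ⟨par G v w, ⟨(par_adj hG h).symm, par_dist hG h⟩, ?_⟩
  rintro y ⟨hy, hy2⟩
  exact (par_eq_of_adj_lt hG hy.symm (by omega)).symm

theorem neighborSet_finite {d : ℕ} (hd : 3 ≤ d) (hreg : ∀ v, (G.neighborSet v).ncard = d) (v : V) :
    (G.neighborSet v).Finite := by
  apply Set.finite_of_ncard_ne_zero
  rw [hreg v]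
  omega

/-- local finiteness -/
noncomputable def locFin {d : ℕ} (hd : 3 ≤ d) (hreg : ∀ v, (G.neighborSet v).ncard = d) :
    G.LocallyFinite := fun v => (neighborSet_finite hd hreg v).fintype

theorem isRegular {d : ℕ} (hd : 3 ≤ d) (hreg : ∀ v, (G.neighborSet v).ncard = d) :
    letI := locFin hd hreg
    G.IsRegularOfDegree d := by
  letI := locFin hd hreg
  intro v
  rw [← SimpleGraph.card_neighborFinset_eq_degree]
  have h := hreg v
  rw [Set.ncard_eq_toFinset_card'] at h
  exact h

theorem exists_balls (hG : G.IsTree) {d : ℕ} (hd : 3 ≤ d)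
    (hreg : ∀ v, (G.neighborSet v).ncard = d) :
    ∃ B : V → ℕ → Finset V, ∀ v N u, u ∈ B v N ↔ G.dist v u ≤ N := by
  letI := locFin hd hreg
  refine ⟨fun v N => (ball_finite hG v N).toFinset, ?_⟩
  intro v N u
  rw [Set.Finite.mem_toFinset]
  rfl

theorem countable_of_regular (hG : G.IsTree) {d : ℕ} (hd : 3 ≤ d)
    (hreg : ∀ v, (G.neighborSet v).ncard = d) : Countable V := by
  letI := locFin hd hreg
  exact countable_of_tree hG

theorem starTo_ball (hG : G.IsTree) {D : Finset V} {o : V} {N : ℕ}
    (hD : ∀ u, u ∈ D ↔ G.dist o u ≤ N) {v : V} (hv : v ∈ D) : StarTo G D v := by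
  intro u hu huv
  refine ⟨par G v u, ?_, (par_adj hG huv).symm, par_dist hG huv⟩
  rw [hD] at hu hv ⊢
  have hadj := par_adj hG huv
  have hdist := par_dist hG huv
  rcases adj_dist_cases hG (x := o) hadj with h | h
  · omega
  · -- `dist o u + 1 = dist o p`
    have hpo : par G v u ≠ o := by
      intro hh
      rw [hh, SimpleGraph.dist_self] at h
      omega
    have hpar : par G o (par G v u) = u := par_eq_of_adj_lt hG hadj.symm (by omega)
    obtain ⟨n, hn⟩ := anc_of_lt hG (o := o) (x := v) (v := par G v u) hpo (by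
      rw [hpar]; omega)
    have := dist_iter hG o v n
    rw [hn] at this
    omega

theorem exists_S' (hG : G.IsTree) {d : ℕ} (hd : 3 ≤ d)
    (hreg : ∀ v, (G.neighborSet v).ncard = d) {a : ℝ} (ha0 : 0 ≤ a) (ha : ((d : ℝ) - 1) * a < 1) :
    ∃ S : ℝ, 0 < S ∧ ∀ (k : V) (Q : Finset V), ∑ x ∈ Q, a ^ (G.dist k x) ≤ S := by
  letI := locFin hd hreg
  obtain ⟨S, hS0, hS⟩ := exists_S hG (by omega : 2 ≤ d) (isRegular hd hreg) ha0 ha
  refine ⟨S, hS0, fun k Q => le_trans (Finset.sum_le_sum ?_) (hS k Q)⟩
  intro x _
  rw [SimpleGraph.dist_comm]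
  have h1 : (1 : ℝ) ≤ ((G.dist x k : ℝ) + 4) ^ 2 := by
    have : (0 : ℝ) ≤ (G.dist x k : ℝ) := Nat.cast_nonneg _
    nlinarith
  have h2 : (0 : ℝ) ≤ a ^ (G.dist x k) := pow_nonneg ha0 _
  nlinarith

theorem summable_pow_dist (hG : G.IsTree) {d : ℕ} (hd : 3 ≤ d)
    (hreg : ∀ v, (G.neighborSet v).ncard = d) {ρ : ℝ} (h0 : 0 < ρ) (h1 : (d - 1) * ρ ^ 2 < 1)
    (o : V) : Summable fun w => (ρ ^ (G.dist o w)) ^ 2 := by
  obtain ⟨S, _, hS⟩ := exists_S' hG hd hreg (a := ρ ^ 2) (by positivity) h1
  refine summable_of_sum_le (c := S) (fun w => by positivity) ?_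
  intro Q
  refine le_trans (le_of_eq ?_) (hS o Q)
  apply Finset.sum_congr rfl
  intro w _
  rw [← pow_mul, ← pow_mul, mul_comm]

/-- the projection of `u` on the path from `v` to `w` -/
theorem exists_proj (hG : G.IsTree) (v w u : V) :
    ∃ i ≤ G.dist v w, G.dist v u = i + G.dist ((par G v)^[G.dist v w - i] w) u ∧
      G.dist u w = G.dist ((par G v)^[G.dist v w - i] w) u + (G.dist v w - i) := by
  classical
  set L := G.dist v w with hL
  set Z : ℕ → V := fun i => (par G v)^[L - i] w with hZ
  have hdZ : ∀ i ≤ L, G.dist v (Z i) = i := by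
    intro i hi
    simp only [hZ]
    rw [dist_iter hG]
    omega
  have hZs : ∀ i < L, Z i = par G v (Z (i + 1)) := by
    intro i hi
    simp only [hZ]
    rw [← Function.iterate_succ_apply' (par G v)]
    congr 2
    omega
  have hZne : ∀ i < L, Z (i + 1) ≠ v := by
    intro i hi hh
    have := hdZ (i + 1) (by omega)
    rw [hh, SimpleGraph.dist_self] at this
    omega
  have hZadj : ∀ i < L, G.Adj (Z i) (Z (i + 1)) := by
    intro i hi
    rw [hZs i hi]
    exact par_adj hG (hZne i hi)
  -- the set of good indices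
  set P : ℕ → Prop := fun i => i ≤ L ∧ G.dist v u = i + G.dist (Z i) u with hP
  have hP0 : P 0 := by
    refine ⟨Nat.zero_le _, ?_⟩
    have : Z 0 = v := by
      have := hdZ 0 (Nat.zero_le _)
      rw [hG.connected.dist_eq_zero_iff] at this
      exact this.symm
    rw [this, zero_add]
  have hbdd : ∀ i, P i → i ≤ L := fun i h => h.1
  set i := Nat.findGreatest P L with hi
  have hPi : P i := Nat.findGreatest_spec (Nat.zero_le L) hP0
  refine ⟨i, hPi.1, hPi.2, ?_⟩
  -- increasing distances after `i`
  have hinc : ∀ k, i + k ≤ L → G.dist u (Z (i + k)) = G.dist (Z i) u + k := by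
    intro k
    induction k with
    | zero =>
      intro _
      rw [add_zero, add_zero, SimpleGraph.dist_comm]
    | succ k ih =>
      intro hk
      have ih' := ih (by omega)
      have hadj := hZadj (i + k) (by omega)
      rcases adj_dist_cases hG (x := u) hadj with h | h
      · have e : Z (i + (k + 1)) = Z (i + k + 1) := rfl
        rw [e]; omega
      · exfalso
        rcases Nat.eq_zero_or_pos k with hk0 | hk0
        · subst hk0
          have hPs : P (i + 1) := by
            refine ⟨by omega, ?_⟩
            have h1 := hPi.2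
            have e : G.dist u (Z (i + 0 + 1)) = G.dist (Z (i + 1)) u := SimpleGraph.dist_comm
            have e2 : G.dist u (Z (i + 0)) = G.dist (Z i) u := SimpleGraph.dist_comm
            rw [e, e2] at h
            omega
          have : i + 1 ≤ i := Nat.le_findGreatest (by omega) hPs
          omega
        · -- two closer neighbours
          obtain ⟨k', rfl⟩ : ∃ k', k = k' + 1 := ⟨k - 1, by omega⟩
          have hadj' := hZadj (i + k') (by omega)
          have hdec : G.dist u (Z (i + k')) < G.dist u (Z (i + k' + 1)) := by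
            rcases adj_dist_cases hG (x := u) hadj' with h' | h'
            · omega
            · exfalso
              -- dist to Z (i+k') would be too large
              have t : G.dist u (Z (i + k')) ≤ G.dist u (Z i) + G.dist (Z i) (Z (i + k')) :=
                hG.connected.dist_triangle
              have t2 : ∀ m, i + m ≤ L → G.dist (Z i) (Z (i + m)) ≤ m := by
                intro m
                induction m with
                | zero => intro _; simp
                | succ m ihm =>
                  intro hm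
                  have a1 := ihm (by omega)
                  have a2 : G.dist (Z i) (Z (i + m + 1)) ≤
                      G.dist (Z i) (Z (i + m)) + G.dist (Z (i + m)) (Z (i + m + 1)) :=
                    hG.connected.dist_triangle
                  have a3 : G.dist (Z (i + m)) (Z (i + m + 1)) = 1 := by
                    rw [SimpleGraph.dist_eq_one_iff_adj]
                    exact hZadj (i + m) (by omega)
                  have e : Z (i + (m + 1)) = Z (i + m + 1) := rfl
                  rw [e]
                  omega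
              have t3 := t2 k' (by omega)
              have e : G.dist u (Z i) = G.dist (Z i) u := SimpleGraph.dist_comm
              have e4 : Z (i + (k' + 1)) = Z (i + k' + 1) := rfl
              rw [e4] at ih'
              omega
          have e : Z (i + (k' + 1)) = Z (i + k' + 1) := rfl
          rw [e] at h hadj
          have hcl : Z (i + k') = Z (i + (k' + 1) + 1) :=
            closer_unique hG hadj' hadj.symm hdec (by omega)
          have d1 := hdZ (i + k') (by omega)
          have d2 := hdZ (i + (k' + 1) + 1) (by omega)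
          rw [hcl] at d1
          omega
  have hfin := hinc (L - i) (by omega)
  have hZL : Z (i + (L - i)) = w := by
    simp only [hZ]
    have : L - (i + (L - i)) = 0 := by omega
    rw [this]
    rfl
  rw [hZL] at hfin
  exact hfin

theorem kernel_bound (hG : G.IsTree) {d : ℕ} (hd : 3 ≤ d)
    (hreg : ∀ v, (G.neighborSet v).ncard = d) {θ ρ : ℝ} (h0 : 0 ≤ θ) (h1 : θ < ρ)
    (h2 : (d - 1) * θ * ρ < 1) (_h3 : ρ ≤ 1) :
    ∃ C : ℝ, 0 < C ∧ ∀ (D : Finset V) (v w : V),
      ∑ u ∈ D, θ ^ (G.dist v u) * ρ ^ (G.dist u w) ≤ C * ρ ^ (G.dist v w) := by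
  have hρ : 0 < ρ := lt_of_le_of_lt h0 h1
  obtain ⟨S, hS0, hS⟩ := exists_S' hG hd hreg (a := θ * ρ) (by positivity) (by
    rw [← mul_assoc]; exact h2)
  have hq : θ / ρ < 1 := by rw [div_lt_one hρ]; exact h1
  have hq0 : 0 ≤ θ / ρ := by positivity
  refine ⟨S / (1 - θ / ρ), div_pos hS0 (by linarith), ?_⟩
  intro D v w
  set L := G.dist v w with hL
  set Z : ℕ → V := fun i => (par G v)^[L - i] w with hZ
  have hterm : ∀ u ∈ D, θ ^ (G.dist v u) * ρ ^ (G.dist u w) ≤
      ∑ i ∈ Finset.range (L + 1), (θ ^ i * ρ ^ (L - i)) * (θ * ρ) ^ (G.dist (Z i) u) := by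
    intro u _
    obtain ⟨i, hi, e1, e2⟩ := exists_proj hG v w u
    have hmem : i ∈ Finset.range (L + 1) := Finset.mem_range.mpr (by omega)
    have : θ ^ (G.dist v u) * ρ ^ (G.dist u w) =
        (θ ^ i * ρ ^ (L - i)) * (θ * ρ) ^ (G.dist (Z i) u) := by
      rw [e1, e2]
      simp only [hZ, ← hL]
      rw [pow_add, pow_add, mul_pow]
      ring
    rw [this]
    exact Finset.single_le_sum (f := fun i => (θ ^ i * ρ ^ (L - i)) * (θ * ρ) ^ (G.dist (Z i) u))
      (fun j _ => by positivity) hmem
  calc ∑ u ∈ D, θ ^ (G.dist v u) * ρ ^ (G.dist u w)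
      ≤ ∑ u ∈ D, ∑ i ∈ Finset.range (L + 1),
          (θ ^ i * ρ ^ (L - i)) * (θ * ρ) ^ (G.dist (Z i) u) := Finset.sum_le_sum hterm
    _ = ∑ i ∈ Finset.range (L + 1), (θ ^ i * ρ ^ (L - i)) *
          ∑ u ∈ D, (θ * ρ) ^ (G.dist (Z i) u) := by
        rw [Finset.sum_comm]
        apply Finset.sum_congr rfl
        intro i _
        rw [Finset.mul_sum]
    _ ≤ ∑ i ∈ Finset.range (L + 1), (θ ^ i * ρ ^ (L - i)) * S := by
        apply Finset.sum_le_sum
        intro i _
        apply mul_le_mul_of_nonneg_left (hS _ _)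
        positivity
    _ = (ρ ^ L * S) * ∑ i ∈ Finset.range (L + 1), (θ / ρ) ^ i := by
        rw [Finset.mul_sum]
        apply Finset.sum_congr rfl
        intro i hi
        have hi' : i ≤ L := by
          have := Finset.mem_range.mp hi
          omega
        have : ρ ^ L = ρ ^ (L - i) * ρ ^ i := by
          rw [← pow_add]; congr 1; omega
        rw [this, div_pow]
        field_simp
    _ ≤ (ρ ^ L * S) * (1 / (1 - θ / ρ)) := by
        apply mul_le_mul_of_nonneg_left _ (by positivity)
        have hgs : Summable fun i : ℕ => (θ / ρ) ^ i := summable_geometric_of_lt_one hq0 hq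
        have := hgs.sum_le_tsum (Finset.range (L + 1)) (fun i _ => by positivity)
        rw [tsum_geometric_of_lt_one hq0 hq] at this
        rw [one_div]
        exact this
    _ = S / (1 - θ / ρ) * ρ ^ L := by ring

end Vale.Agent.P161L
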