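import Vale.Agent.P161L.Approx
import Vale.Agent.P161L.Lln
import Vale.Agent.P161L.Equiv
import Vale.Agent.P161L.Tree
import Vale.Agent.P161L.Ising
import Vale.Agent.P161L.IsingInv

open MeasureTheory ProbabilityTheory Set Filter Topology

namespace Vale.Agent.P161L

variable {V : Type*} {G : SimpleGraph V}

theorem fiid_of_approx [Countable V] (μ : Measure (V → Bool)) [IsProbabilityMeasure μ]
    (hG : G.Connected) {B : V → ℕ → Finset V} (hB : ∀ v N u, u ∈ B v N ↔ G.dist v u ≤ N)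
    (hinv : ∀ g : G ≃g G, μ.map (act g) = μ) {ε : ℝ} (h0 : 0 < ε) (h1 : ε < 1)
    (happ : ∀ (o : V) (k : ℕ) (δ : ℝ), 0 < δ → ∃ g : (V × ℕ → unitInterval) → ℝ,
      Measurable g ∧ (∀ x, |g x| ≤ 1) ∧
      ∫ ω, |(obs (fun _ => ε) ω (o, k + 1) : ℝ) - g (xiInf μ ε B ω)|
        ∂(μ.prod (iidUniform (V × ℕ))) ≤ δ) :
    IsFactorOfIID G μ := by
  have hmono : ∀ v, Monotone (B v) := fun v N N' h u hu =>
    (hB _ _ _).2 (((hB _ _ _).1 hu).trans h)
  have hcov : ∀ v u, ∃ N, u ∈ B v N := fun v u => ⟨G.dist v u, (hB _ _ _).2 le_rfl⟩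
  set P := μ.prod (iidUniform (V × ℕ)) with hP
  set ξ := xiInf μ ε B with hξ
  have hξm : Measurable ξ := measurable_xiInf μ h0 h1 B hmono hcov
  have hobsm : Measurable (obs (fun _ => ε) : (V → Bool) × (V × ℕ → unitInterval) → _) :=
    measurable_obs _
  have hlawξ : P.map ξ = iidUniform (V × ℕ) :=
    map_innov_obs μ h1 (fun _ => (abs_of_pos h0).le) (isPredictor_predInf μ h0 h1 B hmono hcov)
  have hex : ∀ v k, ∃ f : (V × ℕ → unitInterval) → ℝ, Measurable f ∧
      ∀ᵐ ω ∂P, (obs (fun _ => ε) ω (v, k + 1) : ℝ) = f (ξ ω) := fun v k =>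
    exists_meas_of_approx
      (X := fun ω => ((obs (fun _ => ε) ω (v, k + 1) : unitInterval) : ℝ))
      (measurable_subtype_coe.comp ((measurable_pi_apply (v, k + 1)).comp hobsm))
      (fun ω => by
        rw [abs_of_nonneg (obs (fun _ => ε) ω (v, k + 1)).2.1]
        exact (obs (fun _ => ε) ω (v, k + 1)).2.2) hξm (happ v k)
  choose f hfm hf using hex
  set Θ : (V × ℕ → unitInterval) → (V × ℕ → unitInterval) := fun u j =>
    match j with
    | (v, 0) => u (v, 0)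
    | (v, k + 1) => Set.projIcc 0 1 zero_le_one (f v k u) with hΘ
  have hΘm : Measurable Θ := by
    rw [measurable_pi_iff]
    rintro ⟨v, i⟩
    cases i with
    | zero => exact measurable_pi_apply _
    | succ k => exact continuous_projIcc.measurable.comp (hfm v k)
  have hΘobs : ∀ᵐ ω ∂P, obs (fun _ => ε) ω = Θ (ξ ω) := by
    have : ∀ᵐ ω ∂P, ∀ v k, (obs (fun _ => ε) ω (v, k + 1) : ℝ) = f v k (ξ ω) := by
      rw [ae_all_iff]; intro v
      rw [ae_all_iff]; intro k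
      exact hf v k
    filter_upwards [this] with ω hω
    funext j
    obtain ⟨v, i⟩ := j
    cases i with
    | zero => rfl
    | succ k =>
      change _ = Set.projIcc 0 1 zero_le_one (f v k (ξ ω))
      rw [← hω v k, projIcc_val]
  set Φ : (V × ℕ → unitInterval) → (V → Bool) := fun u => dec (Θ u) with hΦ
  have hΦm : Measurable Φ := measurable_dec.comp hΘm
  have hΦξ : ∀ᵐ ω ∂P, Φ (ξ ω) = ω.1 := by
    filter_upwards [hΘobs, dec_obs μ h0 h1] with ω hω1 hω2
    simp only [hΦ]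
    rw [← hω1, hω2]
  refine isFactorOfIID_of_extended μ Φ hΦm ?_ ?_
  · intro g
    have hms : MeasurableSet {u : V × ℕ → unitInterval | Φ (actJ g u) = act g (Φ u)} :=
      measurableSet_eq_fun (hΦm.comp (measurable_actJ g)) ((measurable_act g).comp hΦm)
    rw [← hlawξ]
    refine (ae_map_iff hξm.aemeasurable hms).2 ?_
    have hPg : P.map (Prod.map (act g) (actJ g)) = P := by
      rw [hP, ← Measure.map_prod_map μ (iidUniform (V × ℕ)) (measurable_act g)
        (measurable_actJ g), hinv g, map_actJ g]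
    have hms2 : MeasurableSet {ω : (V → Bool) × (V × ℕ → unitInterval) | Φ (ξ ω) = ω.1} :=
      measurableSet_eq_fun (hΦm.comp hξm) measurable_fst
    have h2 : ∀ᵐ ω ∂P, Φ (ξ (Prod.map (act g) (actJ g) ω)) = (Prod.map (act g) (actJ g) ω).1 := by
      have h3 := hΦξ
      rw [← hPg] at h3
      exact (ae_map_iff ((measurable_act g).prodMap (measurable_actJ g)).aemeasurable hms2).1 h3
    filter_upwards [h2, hΦξ] with ω hω1 hω2
    have e1 : ξ (Prod.map (act g) (actJ g) ω) = actJ g (ξ ω) := by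
      simp only [hξ, xiInf]
      rw [← innov_act g (fun v k x => predInf_act μ hG g (hinv g) hB ε v k x), ← obs_act]
      rfl
    rw [e1] at hω1
    rw [hω1, hω2]
    rfl
  · rw [← hlawξ, Measure.map_map hΦm hξm]
    have : P.map (Φ ∘ ξ) = P.map Prod.fst := Measure.map_congr hΦξ
    rw [this, hP, Measure.map_fst_prod]
    simp

theorem isFactorOfIID_of_subcritical {d : ℕ} (hd : 3 ≤ d) (hG : G.IsTree)
    (hreg : ∀ v, (G.neighborSet v).ncard = d) {θ : ℝ} (hθ0 : 0 ≤ θ)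
    (hθ1 : θ < 1 / Real.sqrt (d - 1)) {μ : Measure (V → Bool)} (hμ : IsFreeIsing G θ μ) :
    IsFactorOfIID G μ := by
  have hcount : Countable V := countable_of_regular hG hd hreg
  have : IsProbabilityMeasure μ := hμ.1
  obtain ⟨B, hB⟩ := exists_balls hG hd hreg
  have hmono : ∀ v, Monotone (B v) := fun v N N' h u hu =>
    (hB _ _ _).2 (((hB _ _ _).1 hu).trans h)
  have hcov : ∀ v u, ∃ N, u ∈ B v N := fun v u => ⟨G.dist v u, (hB _ _ _).2 le_rfl⟩
  have hd1 : (2 : ℝ) ≤ (d : ℝ) - 1 := by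
    have : (3 : ℝ) ≤ d := by exact_mod_cast hd
    linarith
  have hs0 : 0 < Real.sqrt ((d : ℝ) - 1) := Real.sqrt_pos.2 (by linarith)
  have hs2 : Real.sqrt ((d : ℝ) - 1) ^ 2 = (d : ℝ) - 1 := Real.sq_sqrt (by linarith)
  obtain ⟨ρ, hρ1, hρ2⟩ := exists_between hθ1
  have hρ0 : 0 < ρ := lt_of_le_of_lt hθ0 hρ1
  have hρs : ρ * Real.sqrt ((d : ℝ) - 1) < 1 := by
    rwa [lt_div_iff₀ hs0] at hρ2
  have hρsq : ((d : ℝ) - 1) * ρ ^ 2 < 1 := by
    have : ((d : ℝ) - 1) * ρ ^ 2 = (ρ * Real.sqrt ((d : ℝ) - 1)) ^ 2 := by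
      rw [mul_pow, hs2]; ring
    rw [this]
    exact pow_lt_one₀ (by positivity) hρs two_ne_zero
  have hθρ : ((d : ℝ) - 1) * θ * ρ < 1 := by
    refine lt_of_le_of_lt ?_ hρsq
    nlinarith [mul_le_mul_of_nonneg_right hρ1.le (mul_nonneg (by linarith : (0:ℝ) ≤ (d:ℝ) - 1)
      hρ0.le)]
  have hρle : ρ ≤ 1 := by
    by_contra h
    push Not at h
    nlinarith
  have hθlt : θ < 1 := lt_of_lt_of_le hρ1 hρle
  obtain ⟨C, hC, hker⟩ := kernel_bound hG hd hreg hθ0 hρ1 hθρ hρle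
  set ε : ℝ := min (1 / 2) (1 / (4 * (C + 1))) with hε
  have hε0 : 0 < ε := lt_min (by norm_num) (by positivity)
  have hε1 : ε ≤ 1 / 2 := min_le_left _ _
  have hε2 : ε ≤ 1 / (4 * (C + 1)) := min_le_right _ _
  have hεC : 8 / 3 * ε ^ 2 * C ≤ 1 / 2 := by
    have h3 : ε * (C + 1) ≤ 1 / 4 := by
      rw [le_div_iff₀ (by positivity)] at hε2
      linarith
    have h4 : ε * C ≤ 1 / 4 := by nlinarith
    have h5 : ε * (ε * C) ≤ 1 / 2 * (1 / 4) :=
      mul_le_mul hε1 h4 (by positivity) (by norm_num)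
    nlinarith
  refine fiid_of_approx μ hG.connected hB (fun g => map_act_eq hG hμ B hB g) hε0
    (by linarith : ε < 1) ?_
  intro o k δ hδ
  refine exists_approx μ G hε0 hε1 hθ0 hρ0 hC hεC B hmono hcov o ?_ hker
    (summable_pow_dist hG hd hreg hρ0 hρsq o) k hδ
  intro N v hv y y'
  exact postMean_lipschitz hG hθ0 hθlt hμ hv (starTo_ball hG (hB o N) hv) y y'

end Vale.Agent.P161L
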