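import Vale.Agent.P161L.Basic

open MeasureTheory ProbabilityTheory Set Filter Topology

namespace Vale.Agent.P161L

variable {V : Type*}

theorem abs_integral_le_of_bdd {Ω : Type*} [MeasurableSpace Ω] {P : Measure Ω}
    [IsProbabilityMeasure P] {f : Ω → ℝ} {C : ℝ} (hC : ∀ x, |f x| ≤ C) : |∫ x, f x ∂P| ≤ C := by
  have h := norm_integral_le_of_norm_le_const (μ := P) (f := f) (C := C)
    (Eventually.of_forall hC)
  simpa using h

theorem abs_two_mul_sub_one_le (x : unitInterval) : |2 * (x : ℝ) - 1| ≤ 1 := by
  rw [abs_le]; constructor <;> linarith [x.2.1, x.2.2]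

theorem core_event (μ : Measure (V → Bool)) [IsProbabilityMeasure μ] {ε : ℝ}
    (h1 : ε < 1) {str : V → ℝ} (hstr : ∀ v, |str v| ≤ ε)
    {a : V → ℕ → (V × ℕ → unitInterval) → ℝ} (ha : IsPredictor μ str ε a) (v : V) (k : ℕ)
    {h : (V × ℕ → unitInterval) → ℝ} (hm : Measurable h) {C : ℝ} (hb : ∀ x, |h x| ≤ C)
    {f : unitInterval → ℝ} (hf : Measurable f) {C' : ℝ} (hfb : ∀ x, |f x| ≤ C') :
    ∫ ω, h (mask v k (obs str ω)) * f (innov a (obs str ω) (v, k + 1))
        ∂(μ.prod (iidUniform (V × ℕ))) =
      (∫ ω, h (mask v k (obs str ω)) ∂(μ.prod (iidUniform (V × ℕ)))) *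
        ∫ u : unitInterval, f u := by
  classical
  have hC0 : 0 ≤ C := (abs_nonneg _).trans (hb (fun _ => half))
  have hC0' : 0 ≤ C' := (abs_nonneg _).trans (hfb half)
  set Φ0 : ℝ → ℝ := fun b => ∫ x : unitInterval, f (cdfF b x) with hΦ0
  set Φ1 : ℝ → ℝ := fun b => ∫ x : unitInterval, f (cdfF b x) * (2 * (x : ℝ) - 1) with hΦ1
  have hcoe : Measurable fun x : unitInterval => (x : ℝ) := measurable_subtype_coe
  have hm0 : Measurable Φ0 :=
    ((hf.comp measurable_cdfF).stronglyMeasurable.integral_prod_right' (ν := volume)).measurable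
  have hm1 : Measurable Φ1 := by
    have : Measurable fun p : ℝ × unitInterval => f (cdfF p.1 p.2) * (2 * (p.2 : ℝ) - 1) :=
      (hf.comp measurable_cdfF).mul (((hcoe.comp measurable_snd).const_mul 2).sub_const 1)
    exact (this.stronglyMeasurable.integral_prod_right' (ν := volume)).measurable
  have hb0 : ∀ b, |Φ0 b| ≤ C' := fun b => abs_integral_le_of_bdd fun x => hfb _
  have hb1 : ∀ b, |Φ1 b| ≤ C' := fun b => abs_integral_le_of_bdd fun x => by
    rw [abs_mul]
    calc |f (cdfF b x)| * |2 * (x : ℝ) - 1| ≤ C' * 1 :=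
          mul_le_mul (hfb _) (abs_two_mul_sub_one_le x) (abs_nonneg _) hC0'
      _ = C' := mul_one _
  have hmaskobs : Measurable fun ω => mask v k (obs str ω) :=
    (measurable_mask v k).comp (measurable_obs str)
  have hmG : Measurable fun ω : (V → Bool) × (V × ℕ → unitInterval) =>
      h (mask v k (obs str ω)) * f (innov a (obs str ω) (v, k + 1)) :=
    (hm.comp hmaskobs).mul (hf.comp ((measurable_pi_apply (v, k + 1)).comp
      ((measurable_innov ha.meas).comp (measurable_obs str))))
  have hbG : ∀ ω : (V → Bool) × (V × ℕ → unitInterval),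
      |h (mask v k (obs str ω)) * f (innov a (obs str ω) (v, k + 1))| ≤ C * C' := fun ω => by
    rw [abs_mul]; exact mul_le_mul (hb _) (hfb _) (abs_nonneg _) hC0
  have hma : Measurable fun ω => a v k (obs str ω) := (ha.meas v k).comp (measurable_obs str)
  have hms : Measurable fun ω : (V → Bool) × (V × ℕ → unitInterval) => str v * spin (ω.1 v) :=
    (measurable_spin.comp ((measurable_pi_apply _).comp measurable_fst)).const_mul _
  have hsb : ∀ b : Bool, |str v * spin b| ≤ ε := fun b => by
    rw [abs_mul, abs_spin, mul_one]; exact hstr v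
  have hε0 : 0 ≤ ε := (abs_nonneg _).trans (hsb true)
  -- Step 1: resampling of the coordinate (v,k+1)
  have step1 : ∫ ω, h (mask v k (obs str ω)) * f (innov a (obs str ω) (v, k + 1))
        ∂(μ.prod (iidUniform (V × ℕ))) =
      ∫ ω, h (mask v k (obs str ω)) * (Φ0 (a v k (obs str ω)) +
        str v * spin (ω.1 v) * Φ1 (a v k (obs str ω))) ∂(μ.prod (iidUniform (V × ℕ))) := by
    rw [integral_prod _ (integrable_of_bdd hmG hbG), integral_prod]
    · refine integral_congr_ae (Eventually.of_forall fun σ => ?_)
      beta_reduce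
      rw [integral_resample' (v, k + 1)
        (F := fun R => h (mask v k (obs str (σ, R))) * f (innov a (obs str (σ, R)) (v, k + 1)))
        (hmG.comp measurable_prodMk_left) ⟨C * C', fun R => hbG (σ, R)⟩]
      refine integral_congr_ae (Eventually.of_forall fun R => ?_)
      beta_reduce
      have e1 : ∀ r : unitInterval,
          h (mask v k (obs str (σ, Function.update R (v, k + 1) r))) *
            f (innov a (obs str (σ, Function.update R (v, k + 1) r)) (v, k + 1)) =
          h (mask v k (obs str (σ, R))) *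
            f (cdfF (a v k (obs str (σ, R))) (quant (str v * spin (σ v)) r)) := by
        intro r
        rw [obs_update, mask_update_self, innov_succ, Function.update_self]
        rw [← ha.masked v k (Function.update _ _ _), mask_update_self, ha.masked]
      simp_rw [e1]
      rw [integral_const_mul]
      congr 1
      have hb' : |str v * spin (σ v)| < 1 := (hsb _).trans_lt h1
      rw [integral_quant hb' (h := fun x => f (cdfF (a v k (obs str (σ, R))) x))
        (hf.comp (measurable_cdfF.comp (measurable_const.prodMk measurable_id)))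
        ⟨C', fun x => hfb _⟩]
      have e2 : ∀ x : unitInterval, f (cdfF (a v k (obs str (σ, R))) x) *
          (1 + str v * spin (σ v) * (2 * (x : ℝ) - 1)) =
          f (cdfF (a v k (obs str (σ, R))) x) + str v * spin (σ v) *
            (f (cdfF (a v k (obs str (σ, R))) x) * (2 * (x : ℝ) - 1)) := fun x => by ring
      simp_rw [e2]
      have hmf : Measurable fun x => f (cdfF (a v k (obs str (σ, R))) x) :=
        hf.comp (measurable_cdfF.comp (measurable_const.prodMk measurable_id))
      rw [integral_add, integral_const_mul]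
      · exact integrable_of_bdd hmf (C := C') fun x => hfb _
      · refine (integrable_of_bdd (C := C')
          (f := fun x => f (cdfF (a v k (obs str (σ, R))) x) * (2 * (x : ℝ) - 1))
          (hmf.mul ((hcoe.const_mul 2).sub_const 1)) fun x => ?_).const_mul _
        rw [abs_mul]
        calc _ ≤ C' * 1 :=
              mul_le_mul (hfb _) (abs_two_mul_sub_one_le x) (abs_nonneg _) hC0'
          _ = C' := mul_one _
    · refine integrable_of_bdd (C := C * (C' + ε * C')) ?_ fun ω => ?_
      · exact (hm.comp hmaskobs).mul ((hm0.comp hma).add (hms.mul (hm1.comp hma)))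
      · rw [abs_mul]
        refine mul_le_mul (hb _) ?_ (abs_nonneg _) hC0
        refine (abs_add_le _ _).trans (add_le_add (hb0 _) ?_)
        rw [abs_mul]
        exact mul_le_mul (hsb _) (hb1 _) (abs_nonneg _) hε0
  rw [step1]
  -- Step 2: predictor property
  have hpred := ha.pred v k (fun x => h x * Φ1 (a v k x)) (hm.mul (hm1.comp (ha.meas v k)))
    ⟨C * C', fun x => by rw [abs_mul]; exact mul_le_mul (hb _) (hb1 _) (abs_nonneg _) hC0⟩
  simp only [ha.masked] at hpred
  have hI0 : Integrable (fun ω => h (mask v k (obs str ω)) * Φ0 (a v k (obs str ω)))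
      (μ.prod (iidUniform (V × ℕ))) :=
    integrable_of_bdd (C := C * C') ((hm.comp hmaskobs).mul (hm0.comp hma)) fun ω => by
      rw [abs_mul]; exact mul_le_mul (hb _) (hb0 _) (abs_nonneg _) hC0
  have hbb : ∀ ω, |h (mask v k (obs str ω)) * Φ1 (a v k (obs str ω))| ≤ C * C' := fun ω => by
    rw [abs_mul]; exact mul_le_mul (hb _) (hb1 _) (abs_nonneg _) hC0
  have hmm : Measurable fun ω => h (mask v k (obs str ω)) * Φ1 (a v k (obs str ω)) :=
    (hm.comp hmaskobs).mul (hm1.comp hma)
  have hI1 : Integrable (fun ω => str v * spin (ω.1 v) *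
      (h (mask v k (obs str ω)) * Φ1 (a v k (obs str ω)))) (μ.prod (iidUniform (V × ℕ))) :=
    integrable_of_bdd (C := ε * (C * C')) (hms.mul hmm) fun ω => by
      rw [abs_mul]; exact mul_le_mul (hsb _) (hbb _) (abs_nonneg _) hε0
  have hI2 : Integrable (fun ω => a v k (obs str ω) *
      (h (mask v k (obs str ω)) * Φ1 (a v k (obs str ω)))) (μ.prod (iidUniform (V × ℕ))) :=
    integrable_of_bdd (C := ε * (C * C')) (hma.mul hmm) fun ω => by
      rw [abs_mul]; exact mul_le_mul (ha.bound _ _ _) (hbb _) (abs_nonneg _) hε0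
  have e3 : ∀ ω, h (mask v k (obs str ω)) * (Φ0 (a v k (obs str ω)) +
        str v * spin (ω.1 v) * Φ1 (a v k (obs str ω))) =
      h (mask v k (obs str ω)) * Φ0 (a v k (obs str ω)) + str v * spin (ω.1 v) *
      (h (mask v k (obs str ω)) * Φ1 (a v k (obs str ω))) := fun ω => by ring
  simp_rw [e3]
  rw [integral_add hI0 hI1, hpred, ← integral_add hI0 hI2, ← integral_mul_const]
  refine integral_congr_ae (Eventually.of_forall fun ω => ?_)
  simp only
  have hab : |a v k (obs str ω)| < 1 := (ha.bound _ _ _).trans_lt h1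
  have hfin : Φ0 (a v k (obs str ω)) + a v k (obs str ω) * Φ1 (a v k (obs str ω)) =
      ∫ u : unitInterval, f u := by
    rw [← integral_cdfF hab hf ⟨C', hfb⟩]
    have hmf : Measurable fun x => f (cdfF (a v k (obs str ω)) x) :=
      hf.comp (measurable_cdfF.comp (measurable_const.prodMk measurable_id))
    simp only [hΦ0, hΦ1]
    rw [← integral_const_mul, ← integral_add]
    · refine integral_congr_ae (Eventually.of_forall fun x => ?_)
      simp only; ring
    · exact integrable_of_bdd hmf (C := C') fun x => hfb _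
    · refine (integrable_of_bdd (C := C')
        (f := fun x => f (cdfF (a v k (obs str ω)) x) * (2 * (x : ℝ) - 1))
        (hmf.mul ((hcoe.const_mul 2).sub_const 1)) fun x => ?_).const_mul _
      rw [abs_mul]
      calc _ ≤ C' * 1 :=
            mul_le_mul (hfb _) (abs_two_mul_sub_one_le x) (abs_nonneg _) hC0'
        _ = C' := mul_one _
  rw [← hfin]; ring

theorem ae_ne_of_ne {ι : Type*} {j j' : ι} (hjj : j ≠ j') :
    ∀ᵐ R ∂(iidUniform ι), R j ≠ R j' := by
  classical
  have hms : MeasurableSet {R : ι → unitInterval | R j = R j'} :=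
    measurableSet_eq_fun (measurable_pi_apply j) (measurable_pi_apply j')
  have h0 : (iidUniform ι) {R : ι → unitInterval | R j = R j'} = 0 := by
    rw [← (measurePreserving_update j).measure_preimage hms.nullMeasurableSet]
    have hms' : MeasurableSet ((fun p : (ι → unitInterval) × unitInterval =>
        Function.update p.1 j p.2) ⁻¹' {R : ι → unitInterval | R j = R j'}) :=
      (measurePreserving_update j).measurable hms
    rw [Measure.measure_prod_null hms']
    refine Eventually.of_forall fun R => ?_
    have : (Prod.mk R ⁻¹' ((fun p : (ι → unitInterval) × unitInterval =>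
        Function.update p.1 j p.2) ⁻¹' {R : ι → unitInterval | R j = R j'})) = {R j'} := by
      ext r
      simp [Function.update_of_ne hjj.symm]
    simp only [this, Pi.zero_apply]
    exact measure_singleton _
  rw [ae_iff]
  simpa using h0

/-- `j'` comes before `j` (labels `l`). -/
def bef (l : V → unitInterval) (j' j : V × ℕ) : Prop :=
  j'.2 < j.2 ∨ (j'.2 = j.2 ∧ l j'.1 < l j.1)

theorem bef_asymm {l : V → unitInterval} {j' j : V × ℕ} (h : bef l j' j) (h' : bef l j j') :
    False := by
  rcases h with h | ⟨h, h1⟩ <;> rcases h' with h' | ⟨h', h1'⟩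
  · omega
  · omega
  · omega
  · exact lt_asymm h1 h1'

theorem measurableSet_bef (j' j : V × ℕ) :
    MeasurableSet {l : V → unitInterval | bef l j' j} := by
  unfold bef
  by_cases h1 : j'.2 < j.2
  · simp [h1]
  · by_cases h2 : j'.2 = j.2
    · simp only [h2, lt_self_iff_false, true_and, false_or]
      exact measurableSet_lt (measurable_pi_apply _) (measurable_pi_apply _)
    · simp [h1, h2]

open Classical in
/-- indicator that `j` is the last element of `S` -/
noncomputable def lastInd (S : Finset (V × ℕ)) (j : V × ℕ) (l : V → unitInterval) : ℝ :=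
  if ∀ j' ∈ S, j' ≠ j → bef l j' j then 1 else 0

theorem measurable_lastInd (S : Finset (V × ℕ)) (j : V × ℕ) : Measurable (lastInd S j) := by
  classical
  refine Measurable.ite ?_ measurable_const measurable_const
  have : {l : V → unitInterval | ∀ j' ∈ S, j' ≠ j → bef l j' j} =
      ⋂ j' ∈ S, {l : V → unitInterval | j' ≠ j → bef l j' j} := by
    ext l; simp
  rw [this]
  refine Finset.measurableSet_biInter S fun j' _ => ?_
  by_cases h : j' = j
  · simp [h]
  · simpa [h] using measurableSet_bef j' j

theorem lastInd_nonneg (S : Finset (V × ℕ)) (j : V × ℕ) (l : V → unitInterval) :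
    0 ≤ lastInd S j l := by
  classical
  unfold lastInd; split_ifs <;> norm_num

theorem abs_lastInd_le (S : Finset (V × ℕ)) (j : V × ℕ) (l : V → unitInterval) :
    |lastInd S j l| ≤ 1 := by
  classical
  unfold lastInd; split_ifs <;> norm_num

theorem sum_lastInd {S : Finset (V × ℕ)} (hS : S.Nonempty) {l : V → unitInterval}
    (hl : ∀ j ∈ S, ∀ j' ∈ S, j.1 ≠ j'.1 → l j.1 ≠ l j'.1) :
    ∑ j ∈ S, lastInd S j l = 1 := by
  classical
  obtain ⟨j, hj, hmax⟩ := Finset.exists_max_image S
    (fun j => (toLex (j.2, l j.1) : ℕ ×ₗ unitInterval)) hS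
  rw [Finset.sum_eq_single j]
  · unfold lastInd
    rw [if_pos]
    intro j' hj' hne
    have hle := hmax j' hj'
    rw [Prod.Lex.le_iff] at hle
    simp only [ofLex_toLex] at hle
    rcases hle with h | ⟨h, h'⟩
    · exact Or.inl h
    · right
      refine ⟨h, lt_of_le_of_ne h' ?_⟩
      by_cases h1 : j'.1 = j.1
      · exact absurd (Prod.ext h1 h) hne
      · exact hl j' hj' j hj h1
  · intro j' hj' hne
    unfold lastInd
    rw [if_neg]
    intro hall
    have h1 := hall j hj hne.symm
    have hle := hmax j' hj'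
    rw [Prod.Lex.le_iff] at hle
    simp only [ofLex_toLex] at hle
    rcases h1 with h1 | ⟨h1, h1'⟩ <;> rcases hle with h | ⟨h, h'⟩
    · omega
    · omega
    · omega
    · exact absurd h1' (not_lt.2 h')
  · intro h; exact absurd hj h

theorem measurable_lab : Measurable fun x : V × ℕ → unitInterval => fun v : V => x (v, 0) :=
  measurable_pi_iff.2 fun v => measurable_pi_apply _

theorem abs_prod_le_one {ι : Type*} (S : Finset ι) {f : ι → ℝ} (h : ∀ i ∈ S, |f i| ≤ 1) :
    |∏ i ∈ S, f i| ≤ 1 := by
  rw [Finset.abs_prod]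
  exact Finset.prod_le_one (fun i _ => abs_nonneg _) h

theorem indep_induction (μ : Measure (V → Bool)) [IsProbabilityMeasure μ] {ε : ℝ}
    (h1 : ε < 1) {str : V → ℝ} (hstr : ∀ v, |str v| ≤ ε)
    {a : V → ℕ → (V × ℕ → unitInterval) → ℝ} (ha : IsPredictor μ str ε a)
    (f : V × ℕ → unitInterval → ℝ) (hf : ∀ j, Measurable (f j)) (hfb : ∀ j x, |f j x| ≤ 1) :
    ∀ n, ∀ S : Finset (V × ℕ), S.card = n → (∀ j ∈ S, j.2 ≠ 0) →
    ∀ g : (V → unitInterval) → ℝ, Measurable g → (∀ l, |g l| ≤ 1) →
    ∫ ω, g (fun v => ω.2 (v, 0)) * ∏ j ∈ S, f j (innov a (obs str ω) j)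
        ∂(μ.prod (iidUniform (V × ℕ))) =
      (∫ ω, g (fun v => ω.2 (v, 0)) ∂(μ.prod (iidUniform (V × ℕ)))) *
        ∏ j ∈ S, ∫ x : unitInterval, f j x := by
  classical
  intro n
  induction n with
  | zero =>
    intro S hS _ g _ _
    rw [Finset.card_eq_zero] at hS
    subst hS
    simp
  | succ n ih =>
    intro S hS hS0 g hg hgb
    have hne : S.Nonempty := by
      rw [← Finset.card_pos]; omega
    -- measurability facts
    have hmX : Measurable (obs str : (V → Bool) × (V × ℕ → unitInterval) → _) :=
      measurable_obs str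
    have hmI : Measurable (innov a) := measurable_innov ha.meas
    have hlab : Measurable fun ω : (V → Bool) × (V × ℕ → unitInterval) =>
        (fun v => ω.2 (v, 0) : V → unitInterval) := measurable_lab.comp measurable_snd
    have hmprod : ∀ T : Finset (V × ℕ), Measurable fun x => ∏ j ∈ T, f j (innov a x j) :=
      fun T => Finset.measurable_prod T fun j _ =>
        (hf j).comp ((measurable_pi_apply j).comp hmI)
    have hbprod : ∀ (T : Finset (V × ℕ)) x, |∏ j ∈ T, f j (innov a x j)| ≤ 1 :=
      fun T x => abs_prod_le_one T fun j _ => hfb j _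
    -- a.s. decomposition
    have hae : ∀ᵐ ω ∂(μ.prod (iidUniform (V × ℕ))),
        ∑ j ∈ S, lastInd S j (fun v => ω.2 (v, 0)) = 1 := by
      have h2 : ∀ᵐ R ∂(iidUniform (V × ℕ)),
          ∀ j ∈ S, ∀ j' ∈ S, j.1 ≠ j'.1 → R (j.1, 0) ≠ R (j'.1, 0) := by
        rw [Finset.eventually_all]
        intro j _
        rw [Finset.eventually_all]
        intro j' _
        by_cases hjj : j.1 = j'.1
        · exact Eventually.of_forall fun R hR => absurd hjj hR
        · refine (ae_ne_of_ne (j := (j.1, 0)) (j' := (j'.1, 0)) ?_).mono fun R hR _ => hR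
          intro h; exact hjj (by simpa using congrArg Prod.fst h)
      have h3 : ∀ᵐ ω ∂(μ.prod (iidUniform (V × ℕ))),
          ∀ j ∈ S, ∀ j' ∈ S, j.1 ≠ j'.1 → ω.2 (j.1, 0) ≠ ω.2 (j'.1, 0) :=
        Measure.quasiMeasurePreserving_snd.ae h2
      exact h3.mono fun ω hω => sum_lastInd hne hω
    -- the terms
    have hterm : ∀ j ∈ S,
        ∫ ω, (g (fun v => ω.2 (v, 0)) * lastInd S j (fun v => ω.2 (v, 0))) *
            ∏ i ∈ S, f i (innov a (obs str ω) i) ∂(μ.prod (iidUniform (V × ℕ))) =
          (∫ ω, g (fun v => ω.2 (v, 0)) * lastInd S j (fun v => ω.2 (v, 0))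
            ∂(μ.prod (iidUniform (V × ℕ)))) * ∏ i ∈ S, ∫ x : unitInterval, f i x := by
      intro j hj
      obtain ⟨v, m⟩ := j
      obtain ⟨k, rfl⟩ : ∃ k, m = k + 1 := ⟨m - 1, by have := hS0 _ hj; simp at this; omega⟩
      set g' : (V → unitInterval) → ℝ := fun l => g l * lastInd S (v, k + 1) l with hg'
      have hg'm : Measurable g' := hg.mul (measurable_lastInd S _)
      have hg'b : ∀ l, |g' l| ≤ 1 := fun l => by
        rw [hg', abs_mul]
        exact mul_le_one₀ (hgb l) (abs_nonneg _) (abs_lastInd_le _ _ _)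
      set h : (V × ℕ → unitInterval) → ℝ := fun x =>
        g' (fun v => x (v, 0)) * ∏ i ∈ S.erase (v, k + 1), f i (innov a x i) with hh
      have hhm : Measurable h := (hg'm.comp measurable_lab).mul (hmprod _)
      have hhb : ∀ x, |h x| ≤ 1 := fun x => by
        rw [hh, abs_mul]
        exact mul_le_one₀ (hg'b _) (abs_nonneg _) (hbprod _ _)
      have hmask : ∀ x, h (mask v k x) = h x := by
        intro x
        simp only [hh, hg']
        simp only [mask_zero]
        by_cases hlast : ∀ j' ∈ S, j' ≠ (v, k + 1) → bef (fun v => x (v, 0)) j' (v, k + 1)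
        · congr 1
          refine Finset.prod_congr rfl fun i hi => ?_
          have hiS := Finset.mem_of_mem_erase hi
          have hib := hlast i hiS (Finset.ne_of_mem_erase hi)
          obtain ⟨u, m⟩ := i
          obtain ⟨i, rfl⟩ : ∃ k, m = k + 1 := ⟨m - 1, by have := hS0 _ hiS; simp at this; omega⟩
          have hib' : i < k ∨ (i = k ∧ x (u, 0) < x (v, 0)) := by
            rcases hib with h | ⟨h, h'⟩
            · left; simpa using h
            · right; exact ⟨by simpa using h, h'⟩
          rw [innov_succ, innov_succ, mask_succ, if_pos hib']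
          rw [← ha.masked u i (mask v k x), mask_mask (Or.inl hib'), ha.masked]
        · have : lastInd S (v, k + 1) (fun v => x (v, 0)) = 0 := by
            unfold lastInd; rw [if_neg hlast]
          rw [this]; simp
      have hcore := core_event μ h1 hstr ha v k hhm hhb (hf (v, k + 1)) (hfb (v, k + 1))
      simp only [hmask] at hcore
      have e1 : ∀ ω : (V → Bool) × (V × ℕ → unitInterval),
          (g (fun v => ω.2 (v, 0)) * lastInd S (v, k + 1) (fun v => ω.2 (v, 0))) *
            ∏ i ∈ S, f i (innov a (obs str ω) i) =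
          h (obs str ω) * f (v, k + 1) (innov a (obs str ω) (v, k + 1)) := by
        intro ω
        rw [← Finset.prod_erase_mul S _ hj]
        simp only [hh, hg', obs_zero]
        ring
      simp_rw [e1]
      rw [hcore]
      have hih := ih (S.erase (v, k + 1)) (by rw [Finset.card_erase_of_mem hj]; omega)
        (fun i hi => hS0 i (Finset.mem_of_mem_erase hi)) g' hg'm hg'b
      have e2 : ∀ ω : (V → Bool) × (V × ℕ → unitInterval), h (obs str ω) =
          g' (fun v => ω.2 (v, 0)) *
            ∏ i ∈ S.erase (v, k + 1), f i (innov a (obs str ω) i) := fun ω => rfl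
      simp_rw [e2]
      rw [hih, mul_assoc, Finset.prod_erase_mul S _ hj]
    -- summation
    have hsum1 : ∫ ω, g (fun v => ω.2 (v, 0)) * ∏ j ∈ S, f j (innov a (obs str ω) j)
        ∂(μ.prod (iidUniform (V × ℕ))) =
      ∫ ω, ∑ j ∈ S, (g (fun v => ω.2 (v, 0)) * lastInd S j (fun v => ω.2 (v, 0))) *
            ∏ i ∈ S, f i (innov a (obs str ω) i) ∂(μ.prod (iidUniform (V × ℕ))) := by
      refine integral_congr_ae (hae.mono fun ω hω => ?_)
      beta_reduce
      rw [← Finset.sum_mul, ← Finset.mul_sum, hω, mul_one]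
    have hsum2 : ∫ ω, g (fun v => ω.2 (v, 0)) ∂(μ.prod (iidUniform (V × ℕ))) =
      ∫ ω, ∑ j ∈ S, (g (fun v => ω.2 (v, 0)) * lastInd S j (fun v => ω.2 (v, 0)))
        ∂(μ.prod (iidUniform (V × ℕ))) := by
      refine integral_congr_ae (hae.mono fun ω hω => ?_)
      beta_reduce
      rw [← Finset.mul_sum, hω, mul_one]
    have hgl : ∀ j, Measurable fun ω : (V → Bool) × (V × ℕ → unitInterval) =>
        g (fun v => ω.2 (v, 0)) * lastInd S j (fun v => ω.2 (v, 0)) := fun j =>
      (hg.comp hlab).mul ((measurable_lastInd S j).comp hlab)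
    have hglb : ∀ j (ω : (V → Bool) × (V × ℕ → unitInterval)),
        |g (fun v => ω.2 (v, 0)) * lastInd S j (fun v => ω.2 (v, 0))| ≤ 1 := fun j ω => by
      rw [abs_mul]
      exact mul_le_one₀ (hgb _) (abs_nonneg _) (abs_lastInd_le _ _ _)
    rw [hsum1, integral_finsetSum, Finset.sum_congr rfl hterm, ← Finset.sum_mul,
      ← integral_finsetSum, ← hsum2]
    · intro j _
      exact integrable_of_bdd (hgl j) (hglb j)
    · intro j _
      refine integrable_of_bdd (C := 1) ((hgl j).mul ((hmprod S).comp hmX)) fun ω => ?_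
      rw [abs_mul]
      exact mul_le_one₀ (hglb _ _) (abs_nonneg _) (hbprod _ _)

theorem map_innov_obs (μ : Measure (V → Bool)) [IsProbabilityMeasure μ] {ε : ℝ}
    (h1 : ε < 1) {str : V → ℝ} (hstr : ∀ v, |str v| ≤ ε)
    {a : V → ℕ → (V × ℕ → unitInterval) → ℝ} (ha : IsPredictor μ str ε a) :
    (μ.prod (iidUniform (V × ℕ))).map (fun ω => innov a (obs str ω)) = iidUniform (V × ℕ) := by
  classical
  have hmX : Measurable fun ω => innov a (obs str ω) :=
    (measurable_innov ha.meas).comp (measurable_obs str)
  have : IsProbabilityMeasure ((μ.prod (iidUniform (V × ℕ))).map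
      (fun ω => innov a (obs str ω))) := Measure.isProbabilityMeasure_map hmX.aemeasurable
  refine Measure.eq_infinitePi (fun _ => (volume : Measure unitInterval)) ?_
  intro s t ht
  set f : V × ℕ → unitInterval → ℝ := fun j => (t j).indicator 1 with hf
  have hfm : ∀ j, Measurable (f j) := fun j => measurable_one.indicator (ht j)
  have hfb : ∀ j x, |f j x| ≤ 1 := fun j x => by
    simp only [hf, Set.indicator]; split_ifs <;> simp
  have hfi : ∀ j, ∫ x : unitInterval, f j x = (volume : Measure unitInterval).real (t j) :=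
    fun j => by simp only [hf]; rw [integral_indicator_one (ht j)]
  have hbox : MeasurableSet (Set.pi (s : Set (V × ℕ)) t) :=
    MeasurableSet.pi s.countable_toSet fun j _ => ht j
  have hprodind : ∀ x : V × ℕ → unitInterval,
      (Set.pi (s : Set (V × ℕ)) t).indicator (1 : (V × ℕ → unitInterval) → ℝ) x = ∏ j ∈ s, f j (x j) := by
    intro x
    by_cases hx : x ∈ Set.pi (s : Set (V × ℕ)) t
    · rw [Set.indicator_of_mem hx, Pi.one_apply, Finset.prod_eq_one]
      intro j hj
      simp only [hf]
      rw [Set.indicator_of_mem (hx j hj), Pi.one_apply]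
    · rw [Set.indicator_of_notMem hx]
      simp only [Set.mem_pi, not_forall] at hx
      obtain ⟨j, hj, hxj⟩ := hx
      rw [Finset.prod_eq_zero hj]
      simp only [hf]
      exact Set.indicator_of_notMem hxj _
  set s0 := s.filter (fun j => j.2 = 0) with hs0
  set s1 := s.filter (fun j => ¬ j.2 = 0) with hs1
  set g : (V → unitInterval) → ℝ := fun l => ∏ j ∈ s0, f j (l j.1) with hg
  have hgm : Measurable g := Finset.measurable_prod _ fun j _ =>
    (hfm j).comp (measurable_pi_apply _)
  have hgb : ∀ l, |g l| ≤ 1 := fun l => abs_prod_le_one _ fun j _ => hfb _ _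
  have key := indep_induction μ h1 hstr ha f hfm hfb s1.card s1 rfl
    (fun j hj => (Finset.mem_filter.1 hj).2) g hgm hgb
  -- left side
  have hL : ∫ ω, g (fun v => ω.2 (v, 0)) * ∏ j ∈ s1, f j (innov a (obs str ω) j)
        ∂(μ.prod (iidUniform (V × ℕ))) =
      ((μ.prod (iidUniform (V × ℕ))).map (fun ω => innov a (obs str ω))).real
        (Set.pi (s : Set (V × ℕ)) t) := by
    rw [← integral_indicator_one hbox, integral_map hmX.aemeasurable
      (measurable_one.indicator hbox).aestronglyMeasurable]
    refine integral_congr_ae (Eventually.of_forall fun ω => ?_)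
    beta_reduce
    rw [hprodind, ← Finset.prod_filter_mul_prod_filter_not s (fun j => j.2 = 0)]
    congr 1
    refine Finset.prod_congr rfl fun j hj => ?_
    obtain ⟨v, m⟩ := j
    have : m = 0 := (Finset.mem_filter.1 hj).2
    subst this
    rfl
  have hR : ∫ ω, g (fun v => ω.2 (v, 0)) ∂(μ.prod (iidUniform (V × ℕ))) =
      ∏ j ∈ s0, (volume : Measure unitInterval).real (t j) := by
    have e1 : ∫ ω, g (fun v => ω.2 (v, 0)) ∂(μ.prod (iidUniform (V × ℕ))) =
        ∫ R, g (fun v => R (v, 0)) ∂(iidUniform (V × ℕ)) := by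
      have := integral_fun_snd (μ := μ) (ν := iidUniform (V × ℕ))
        (f := fun R : V × ℕ → unitInterval => g (fun v => R (v, 0)))
      simpa using this
    rw [e1]
    have hbox0 : MeasurableSet (Set.pi (s0 : Set (V × ℕ)) t) :=
      MeasurableSet.pi s0.countable_toSet fun j _ => ht j
    have e2 : ∀ R : V × ℕ → unitInterval, g (fun v => R (v, 0)) =
        (Set.pi (s0 : Set (V × ℕ)) t).indicator (1 : (V × ℕ → unitInterval) → ℝ) R := by
      intro R
      have e3 : g (fun v => R (v, 0)) = ∏ j ∈ s0, f j (R j) := by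
        refine Finset.prod_congr rfl fun j hj => ?_
        obtain ⟨v, m⟩ := j
        have : m = 0 := (Finset.mem_filter.1 hj).2
        subst this
        rfl
      rw [e3]
      by_cases hx : R ∈ Set.pi (s0 : Set (V × ℕ)) t
      · rw [Set.indicator_of_mem hx, Pi.one_apply, Finset.prod_eq_one]
        intro j hj
        simp only [hf]
        rw [Set.indicator_of_mem (hx j hj), Pi.one_apply]
      · rw [Set.indicator_of_notMem hx]
        simp only [Set.mem_pi, not_forall] at hx
        obtain ⟨j, hj, hxj⟩ := hx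
        rw [Finset.prod_eq_zero hj]
        simp only [hf]
        exact Set.indicator_of_notMem hxj _
    simp_rw [e2]
    rw [integral_indicator_one hbox0]
    unfold iidUniform
    rw [measureReal_def, Measure.infinitePi_pi _ (fun j _ => ht j), ENNReal.toReal_prod]
    rfl
  rw [hL, hR] at key
  simp only [hfi] at key
  have hfinal : ((μ.prod (iidUniform (V × ℕ))).map (fun ω => innov a (obs str ω))).real
        (Set.pi (s : Set (V × ℕ)) t) = ∏ j ∈ s, (volume : Measure unitInterval).real (t j) := by
    rw [key, ← Finset.prod_filter_mul_prod_filter_not s (fun j => j.2 = 0)]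
  rw [measureReal_def] at hfinal
  have hne : ((μ.prod (iidUniform (V × ℕ))).map (fun ω => innov a (obs str ω)))
        (Set.pi (s : Set (V × ℕ)) t) ≠ ⊤ := measure_ne_top _ _
  have hne' : ∏ j ∈ s, (volume : Measure unitInterval) (t j) ≠ ⊤ :=
    ENNReal.prod_ne_top fun j _ => measure_ne_top _ _
  rw [← ENNReal.toReal_eq_toReal_iff' hne hne', hfinal, ENNReal.toReal_prod]
  rfl

end Vale.Agent.P161L
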