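import Vale.Agent.P161L.Bayes

open MeasureTheory ProbabilityTheory Set Filter Topology

namespace Vale.Agent.P161L

variable {V : Type*}

open Classical in
/-- keep the labels and the coordinates in `D`; replace the others by 1/2 -/
noncomputable def restr (D : Finset V) (x : V × ℕ → unitInterval) : V × ℕ → unitInterval
  | (u, 0) => x (u, 0)
  | (u, i + 1) => if u ∈ D then x (u, i + 1) else half

theorem restr_zero (D : Finset V) (x : V × ℕ → unitInterval) (u : V) :
    restr D x (u, 0) = x (u, 0) := rfl

open Classical in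
theorem restr_succ (D : Finset V) (x : V × ℕ → unitInterval) (u : V) (i : ℕ) :
    restr D x (u, i + 1) = if u ∈ D then x (u, i + 1) else half := rfl

theorem measurable_restr (D : Finset V) : Measurable (restr D) := by
  classical
  rw [measurable_pi_iff]
  rintro ⟨u, i⟩
  cases i with
  | zero => exact measurable_pi_apply _
  | succ i =>
    simp only [restr_succ]
    split_ifs
    · exact measurable_pi_apply _
    · exact measurable_const

theorem restr_restr {D D' : Finset V} (h : D ⊆ D') (x : V × ℕ → unitInterval) :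
    restr D (restr D' x) = restr D x := by
  classical
  funext j
  obtain ⟨u, i⟩ := j
  cases i with
  | zero => rfl
  | succ i =>
    rw [restr_succ D (restr D' x), restr_succ D x]
    split_ifs with h1
    · rw [restr_succ, if_pos (h h1)]
    · rfl

theorem restr_mask_obs (ε : ℝ) (D : Finset V) (v : V) (k : ℕ)
    (ω : (V → Bool) × (V × ℕ → unitInterval)) :
    restr D (mask v k (obs (strOn ε D) ω)) = restr D (mask v k (obs (fun _ => ε) ω)) := by
  classical
  funext j
  obtain ⟨u, i⟩ := j
  cases i with
  | zero => rfl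
  | succ i =>
    rw [restr_succ, restr_succ]
    split_ifs with h1
    · rw [mask_succ, mask_succ, obs_zero, obs_zero, obs_zero, obs_zero, obs_succ, obs_succ]
      have : strOn ε D u = ε := by unfold strOn; rw [if_pos h1]
      rw [this]
    · rfl

theorem postMean_congr (μ : Measure (V → Bool)) (D : Finset V) (v : V) {y y' : V → ℝ}
    (h : ∀ u ∈ D, y u = y' u) : postMean μ D v y = postMean μ D v y' := by
  unfold postMean
  have : ∀ σ : V → Bool, ∑ u ∈ D, y u * spin (σ u) = ∑ u ∈ D, y' u * spin (σ u) := fun σ =>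
    Finset.sum_congr rfl fun u hu => by rw [h u hu]
  simp_rw [this]

theorem fieldOf_restr_mask (ε : ℝ) (D : Finset V) (v : V) (k : ℕ)
    (x : V × ℕ → unitInterval) {u : V} (hu : u ∈ D) :
    fieldOf ε v k (restr D (mask v k x)) u = fieldOf ε v k x u := by
  classical
  unfold fieldOf
  refine Finset.sum_congr rfl fun i _ => ?_
  congr 1
  rw [mask_succ, mask_succ, restr_zero, restr_zero, mask_zero, mask_zero]
  split_ifs with h
  · rw [restr_succ, if_pos hu, mask_succ, if_pos h]
  · rfl

theorem postMean_restr_mask (μ : Measure (V → Bool)) (ε : ℝ) (D : Finset V) (v : V) (k : ℕ)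
    (x : V × ℕ → unitInterval) :
    postMean μ D v (fieldOf ε v k (restr D (mask v k x))) = postMean μ D v (fieldOf ε v k x) :=
  postMean_congr μ D v fun _ hu => fieldOf_restr_mask ε D v k x hu

theorem postMean_obs (μ : Measure (V → Bool)) (ε : ℝ) (D : Finset V) (v : V) (k : ℕ)
    (ω : (V → Bool) × (V × ℕ → unitInterval)) :
    postMean μ D v (fieldOf ε v k (obs (strOn ε D) ω)) =
      postMean μ D v (fieldOf ε v k (obs (fun _ => ε) ω)) := by
  rw [← postMean_restr_mask, restr_mask_obs, postMean_restr_mask]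

section

variable [Countable V] (μ : Measure (V → Bool)) [IsProbabilityMeasure μ]

/-- the restricted masked observations -/
noncomputable def Yobs (ε : ℝ) (D : Finset V) (v : V) (k : ℕ)
    (ω : (V → Bool) × (V × ℕ → unitInterval)) : V × ℕ → unitInterval :=
  restr D (mask v k (obs (fun _ => ε) ω))

omit [Countable V] in
theorem measurable_Yobs (ε : ℝ) (D : Finset V) (v : V) (k : ℕ) : Measurable (Yobs ε D v k) :=
  (measurable_restr D).comp ((measurable_mask v k).comp (measurable_obs _))

theorem pred_Yobs {ε : ℝ} (h0 : 0 < ε) (h1 : ε < 1) (D : Finset V) {v : V} (hv : v ∈ D) (k : ℕ)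
    {h : (V × ℕ → unitInterval) → ℝ} (hm : Measurable h) (hb : ∃ C, ∀ x, |h x| ≤ C) :
    ∫ ω, spin (ω.1 v) * h (Yobs ε D v k ω) ∂(μ.prod (iidUniform (V × ℕ))) =
      ∫ ω, postMean μ D v (fieldOf ε v k (obs (fun _ => ε) ω)) * h (Yobs ε D v k ω)
        ∂(μ.prod (iidUniform (V × ℕ))) := by
  classical
  obtain ⟨C, hb⟩ := hb
  have hp := (isPredictor_predFin μ h0 h1 D).pred v k (fun x => h (restr D x))
    (hm.comp (measurable_restr D)) ⟨C, fun x => hb _⟩
  have e1 : strOn ε D v = ε := by unfold strOn; rw [if_pos hv]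
  have e2 : ∀ ω, predFin μ ε D v k (obs (strOn ε D) ω) =
      ε * postMean μ D v (fieldOf ε v k (obs (fun _ => ε) ω)) := fun ω => by
    unfold predFin; rw [if_pos hv, postMean_obs]
  simp only [e1, e2, restr_mask_obs, mul_assoc] at hp
  rw [integral_const_mul, integral_const_mul] at hp
  exact mul_left_cancel₀ h0.ne' hp

theorem condExp_Yobs {ε : ℝ} (h0 : 0 < ε) (h1 : ε < 1) (D : Finset V) {v : V} (hv : v ∈ D)
    (k : ℕ) :
    (fun ω => postMean μ D v (fieldOf ε v k (obs (fun _ => ε) ω)))
      =ᵐ[μ.prod (iidUniform (V × ℕ))]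
      (μ.prod (iidUniform (V × ℕ)))[fun ω => spin (ω.1 v) |
        MeasurableSpace.comap (Yobs ε D v k) inferInstance] := by
  have hle : MeasurableSpace.comap (Yobs ε D v k) inferInstance ≤
      (inferInstance : MeasurableSpace ((V → Bool) × (V × ℕ → unitInterval))) :=
    (measurable_Yobs ε D v k).comap_le
  have hsm : Measurable fun ω : (V → Bool) × (V × ℕ → unitInterval) => spin (ω.1 v) :=
    measurable_spin.comp ((measurable_pi_apply v).comp measurable_fst)
  have hgm : Measurable fun ω : (V → Bool) × (V × ℕ → unitInterval) =>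
      postMean μ D v (fieldOf ε v k (obs (fun _ => ε) ω)) :=
    (measurable_postMean μ D v).comp ((measurable_fieldOf ε v k).comp (measurable_obs _))
  refine ae_eq_condExp_of_forall_setIntegral_eq hle
    (integrable_of_bdd hsm (C := 1) fun ω => (abs_spin _).le) ?_ ?_ ?_
  · intro s _ _
    exact (integrable_of_bdd hgm (C := 1) fun ω => abs_postMean_le _ _ _ _).integrableOn
  · rintro s ⟨t, ht, rfl⟩ _
    have hms : MeasurableSet (Yobs ε D v k ⁻¹' t) := measurable_Yobs ε D v k ht
    rw [← integral_indicator hms, ← integral_indicator hms]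
    have := pred_Yobs μ h0 h1 D hv k (h := t.indicator 1) (measurable_one.indicator ht)
      ⟨1, fun x => by simp only [Set.indicator]; split_ifs <;> simp⟩
    have e1 : ∀ (f : (V → Bool) × (V × ℕ → unitInterval) → ℝ) ω,
        (Yobs ε D v k ⁻¹' t).indicator f ω =
          f ω * (t.indicator 1 (Yobs ε D v k ω) : ℝ) := by
      intro f ω
      by_cases h : Yobs ε D v k ω ∈ t
      · rw [Set.indicator_of_mem h, Set.indicator_of_mem (by exact h)]; simp
      · rw [Set.indicator_of_notMem h, Set.indicator_of_notMem (by exact h)]; simp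
    simp only [e1]
    exact this.symm
  · have : (fun ω => postMean μ D v (fieldOf ε v k (obs (fun _ => ε) ω))) =
        (fun x => postMean μ D v (fieldOf ε v k x)) ∘ Yobs ε D v k := by
      funext ω
      simp only [Function.comp_apply, Yobs, postMean_restr_mask]
    rw [this]
    refine Measurable.aestronglyMeasurable ?_
    exact ((measurable_postMean μ D v).comp (measurable_fieldOf ε v k)).comp
      (comap_measurable (Yobs ε D v k))

/-- Levy's upward theorem for the posterior means. -/
theorem levy_ae {ε : ℝ} (h0 : 0 < ε) (h1 : ε < 1) (D : ℕ → Finset V) (hmono : Monotone D)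
    (hcov : ∀ u, ∃ N, u ∈ D N) {v : V} (hv : ∀ N, v ∈ D N) (k : ℕ) :
    ∀ᵐ ω ∂(μ.prod (iidUniform (V × ℕ))),
      Tendsto (fun N => postMean μ (D N) v (fieldOf ε v k (obs (fun _ => ε) ω))) atTop
        (𝓝 ((μ.prod (iidUniform (V × ℕ)))[fun ω => spin (ω.1 v) |
          MeasurableSpace.comap (fun ω => mask v k (obs (fun _ => ε) ω)) inferInstance] ω)) := by
  classical
  have hmm : Measurable fun ω : (V → Bool) × (V × ℕ → unitInterval) =>
      mask v k (obs (fun _ => ε) ω) := (measurable_mask v k).comp (measurable_obs _)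
  let ℱ : Filtration ℕ (inferInstance : MeasurableSpace ((V → Bool) × (V × ℕ → unitInterval))) :=
    { seq := fun N => MeasurableSpace.comap (Yobs ε (D N) v k) inferInstance
      mono' := by
        intro N N' h
        have : Yobs ε (D N) v k = restr (D N) ∘ Yobs ε (D N') v k := by
          funext ω
          simp only [Function.comp_apply, Yobs, restr_restr (hmono h)]
        simp only [this]
        rw [← MeasurableSpace.comap_comp]
        exact MeasurableSpace.comap_mono (measurable_restr (D N)).comap_le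
      le' := fun N => (measurable_Yobs ε (D N) v k).comap_le }
  have hsup : (⨆ N, (ℱ N)) =
      MeasurableSpace.comap (fun ω : (V → Bool) × (V × ℕ → unitInterval) =>
        mask v k (obs (fun _ => ε) ω)) inferInstance := by
    apply le_antisymm
    · refine iSup_le fun N => ?_
      change MeasurableSpace.comap (Yobs ε (D N) v k) inferInstance ≤ _
      have : Yobs ε (D N) v k = restr (D N) ∘ fun ω => mask v k (obs (fun _ => ε) ω) := rfl
      rw [this, ← MeasurableSpace.comap_comp]
      exact MeasurableSpace.comap_mono (measurable_restr (D N)).comap_le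
    · rw [← measurable_iff_comap_le]
      refine @measurable_pi_iff _ _ _ (⨆ N, (ℱ N)) _ _ |>.2 ?_
      rintro ⟨u, i⟩
      cases i with
      | zero =>
        have h1 : @Measurable _ _ (ℱ 0) _ fun ω => Yobs ε (D 0) v k ω (u, 0) :=
          (measurable_pi_apply (u, 0)).comp (comap_measurable (Yobs ε (D 0) v k))
        exact h1.mono (le_iSup (fun N => (ℱ N : MeasurableSpace _)) 0) le_rfl
      | succ i =>
        obtain ⟨N, hN⟩ := hcov u
        have h1 : @Measurable _ _ (ℱ N) _ fun ω => Yobs ε (D N) v k ω (u, i + 1) :=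
          (measurable_pi_apply (u, i + 1)).comp (comap_measurable (Yobs ε (D N) v k))
        have h2 : (fun ω => Yobs ε (D N) v k ω (u, i + 1)) =
            fun ω => mask v k (obs (fun _ => ε) ω) (u, i + 1) := by
          funext ω
          simp only [Yobs, restr_succ, if_pos hN]
        rw [h2] at h1
        exact h1.mono (le_iSup (fun N => (ℱ N : MeasurableSpace _)) N) le_rfl
  have hl := tendsto_ae_condExp (μ := μ.prod (iidUniform (V × ℕ))) (ℱ := ℱ)
    (fun ω : (V → Bool) × (V × ℕ → unitInterval) => spin (ω.1 v))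
  rw [hsup] at hl
  have hc : ∀ᵐ ω ∂(μ.prod (iidUniform (V × ℕ))), ∀ N,
      postMean μ (D N) v (fieldOf ε v k (obs (fun _ => ε) ω)) =
      ((μ.prod (iidUniform (V × ℕ)))[fun ω => spin (ω.1 v) | ℱ N]) ω :=
    ae_all_iff.2 fun N => condExp_Yobs μ h0 h1 (D N) (hv N) k
  filter_upwards [hl, hc] with ω h1 h2
  simp_rw [h2]
  exact h1

/-- the conditional expectation of the spin at `v` given the masked observations -/
noncomputable def condSpin (ε : ℝ) (v : V) (k : ℕ) (ω : (V → Bool) × (V × ℕ → unitInterval)) : ℝ :=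
  ((μ.prod (iidUniform (V × ℕ)))[fun ω => spin (ω.1 v) |
          MeasurableSpace.comap (fun ω => mask v k (obs (fun _ => ε) ω)) inferInstance]) ω

theorem levy_ae' {ε : ℝ} (h0 : 0 < ε) (h1 : ε < 1) (D : ℕ → Finset V) (hmono : Monotone D)
    (hcov : ∀ u, ∃ N, u ∈ D N) (v : V) (k : ℕ) :
    ∀ᵐ ω ∂(μ.prod (iidUniform (V × ℕ))),
      Tendsto (fun N => postMean μ (D N) v (fieldOf ε v k (obs (fun _ => ε) ω))) atTop
        (𝓝 (condSpin μ ε v k ω)) := by
  obtain ⟨N0, hN0⟩ := hcov v
  have h := levy_ae μ h0 h1 (fun N => D (N + N0)) (fun a b hab => hmono (by omega))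
    (fun u => by
      obtain ⟨N, hN⟩ := hcov u
      exact ⟨N, hmono (Nat.le_add_right N N0) hN⟩)
    (v := v) (fun N => hmono (Nat.le_add_left N0 N) hN0) k
  filter_upwards [h] with ω hω
  rw [← tendsto_add_atTop_iff_nat N0]
  exact hω

theorem predInf_ae {ε : ℝ} (h0 : 0 < ε) (h1 : ε < 1) (B : V → ℕ → Finset V)
    (hmono : ∀ v, Monotone (B v)) (hcov : ∀ v u, ∃ N, u ∈ B v N) (v : V) (k : ℕ) :
    ∀ᵐ ω ∂(μ.prod (iidUniform (V × ℕ))),
      predInf μ ε B v k (obs (fun _ => ε) ω) = ε * condSpin μ ε v k ω := by
  filter_upwards [levy_ae' μ h0 h1 (B v) (hmono v) (hcov v) v k] with ω hω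
  unfold predInf
  rw [hω.limsup_eq]

theorem abs_limsup_le {f : ℕ → ℝ} (hf : ∀ n, |f n| ≤ 1) : |limsup f atTop| ≤ 1 := by
  rw [abs_le]
  have hb : IsBoundedUnder (· ≤ ·) atTop f := ⟨1, by
    simp only [eventually_map]
    exact Eventually.of_forall fun n => (abs_le.1 (hf n)).2⟩
  have hb' : IsBoundedUnder (· ≥ ·) atTop f := ⟨-1, by
    simp only [eventually_map]
    exact Eventually.of_forall fun n => (abs_le.1 (hf n)).1⟩
  constructor
  · exact le_limsup_of_frequently_le (Frequently.of_forall fun n => (abs_le.1 (hf n)).1) hb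
  · exact limsup_le_of_le hb'.isCoboundedUnder_le
      (Eventually.of_forall fun n => (abs_le.1 (hf n)).2)

theorem isPredictor_predInf {ε : ℝ} (h0 : 0 < ε) (h1 : ε < 1) (B : V → ℕ → Finset V)
    (hmono : ∀ v, Monotone (B v)) (hcov : ∀ v u, ∃ N, u ∈ B v N) :
    IsPredictor μ (fun _ => ε) ε (predInf μ ε B) := by
  have hmeas : ∀ v k, Measurable (predInf μ ε B v k) := by
    intro v k
    unfold predInf
    refine Measurable.const_mul ?_ ε
    exact Measurable.limsup fun N =>
      (measurable_postMean μ (B v N) v).comp (measurable_fieldOf ε v k)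
  have hbound : ∀ v k x, |predInf μ ε B v k x| ≤ ε := by
    intro v k x
    unfold predInf
    rw [abs_mul, abs_of_pos h0]
    calc ε * _ ≤ ε * 1 := mul_le_mul_of_nonneg_left
          (abs_limsup_le fun n => abs_postMean_le _ _ _ _) h0.le
      _ = ε := mul_one _
  refine ⟨hmeas, hbound, ?_, ?_⟩
  · intro v k x
    unfold predInf
    rw [fieldOf_mask]
  · intro v k h hm hbd
    obtain ⟨C, hb⟩ := hbd
    set P := μ.prod (iidUniform (V × ℕ)) with hP
    have hmm : Measurable fun ω : (V → Bool) × (V × ℕ → unitInterval) =>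
        mask v k (obs (fun _ => ε) ω) := (measurable_mask v k).comp (measurable_obs _)
    have hsm : Measurable fun ω : (V → Bool) × (V × ℕ → unitInterval) => spin (ω.1 v) :=
      measurable_spin.comp ((measurable_pi_apply v).comp measurable_fst)
    have hle : MeasurableSpace.comap (fun ω : (V → Bool) × (V × ℕ → unitInterval) =>
        mask v k (obs (fun _ => ε) ω)) inferInstance ≤
        (inferInstance : MeasurableSpace ((V → Bool) × (V × ℕ → unitInterval))) := hmm.comap_le
    have hf : Integrable (fun ω : (V → Bool) × (V × ℕ → unitInterval) => spin (ω.1 v)) P :=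
      integrable_of_bdd hsm (C := 1) fun ω => (abs_spin _).le
    have hg : Integrable ((fun ω : (V → Bool) × (V × ℕ → unitInterval) => spin (ω.1 v)) *
        fun ω => h (mask v k (obs (fun _ => ε) ω))) P := by
      refine integrable_of_bdd (hsm.mul (hm.comp hmm)) (C := C) fun ω => ?_
      rw [Pi.mul_apply, abs_mul, abs_spin, one_mul]
      exact hb _
    have hpull := condExp_mul_of_stronglyMeasurable_right
      (m := MeasurableSpace.comap (fun ω : (V → Bool) × (V × ℕ → unitInterval) =>
        mask v k (obs (fun _ => ε) ω)) inferInstance) (μ := P)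
      (f := fun ω : (V → Bool) × (V × ℕ → unitInterval) => spin (ω.1 v))
      (g := fun ω => h (mask v k (obs (fun _ => ε) ω)))
      ((hm.comp (comap_measurable _)).stronglyMeasurable) hg hf
    have hint := integral_condExp (μ := P) hle
      (f := (fun ω : (V → Bool) × (V × ℕ → unitInterval) => spin (ω.1 v)) *
        fun ω => h (mask v k (obs (fun _ => ε) ω)))
    simp only [Pi.mul_apply] at hint
    simp only [mul_assoc]
    rw [integral_const_mul, ← hint, integral_congr_ae hpull, ← integral_const_mul]
    refine integral_congr_ae ?_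
    filter_upwards [predInf_ae μ h0 h1 B hmono hcov v k] with ω hω
    simp only [Pi.mul_apply]
    rw [hω, ← mul_assoc]
    rfl

theorem tendsto_predFin {ε : ℝ} (h0 : 0 < ε) (h1 : ε < 1) (B : V → ℕ → Finset V)
    (hmono : ∀ v, Monotone (B v)) (hcov : ∀ v u, ∃ N, u ∈ B v N) (o v : V) (k : ℕ) :
    Tendsto (fun N => ∫ ω, |predFin μ ε (B o N) v k (obs (fun _ => ε) ω) -
      predInf μ ε B v k (obs (fun _ => ε) ω)| ∂(μ.prod (iidUniform (V × ℕ)))) atTop (𝓝 0) := by
  classical
  have hX : Measurable (obs (fun _ => ε) : (V → Bool) × (V × ℕ → unitInterval) → _) :=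
    measurable_obs _
  have hA := isPredictor_predInf μ h0 h1 B hmono hcov
  have hmF : ∀ N, Measurable fun ω => predFin μ ε (B o N) v k (obs (fun _ => ε) ω) := fun N =>
    ((isPredictor_predFin μ h0 h1 (B o N)).meas v k).comp hX
  have hbF : ∀ N x, |predFin μ ε (B o N) v k x| ≤ ε := fun N x =>
    (isPredictor_predFin μ h0 h1 (B o N)).bound v k x
  obtain ⟨N0, hN0⟩ := hcov o v
  have hlim : Tendsto (fun N => ∫ ω, |predFin μ ε (B o N) v k (obs (fun _ => ε) ω) -
      predInf μ ε B v k (obs (fun _ => ε) ω)| ∂(μ.prod (iidUniform (V × ℕ)))) atTop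
      (𝓝 (∫ ω, (0 : ℝ) ∂(μ.prod (iidUniform (V × ℕ))))) := by
    refine tendsto_integral_of_dominated_convergence (fun _ => 2 * ε) (fun N => ?_)
      (integrable_const _) (fun N => ?_) ?_
    · exact (((hmF N).sub ((hA.meas v k).comp hX)).abs).aestronglyMeasurable
    · refine Eventually.of_forall fun ω => ?_
      rw [Real.norm_eq_abs, abs_abs]
      refine (abs_sub _ _).trans ?_
      have := hbF N (obs (fun _ => ε) ω)
      have := hA.bound v k (obs (fun _ => ε) ω)
      linarith
    · filter_upwards [levy_ae' μ h0 h1 (B o) (hmono o) (hcov o) v k,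
        predInf_ae μ h0 h1 B hmono hcov v k] with ω h2 h3
      rw [h3]
      have h4 : Tendsto (fun N => predFin μ ε (B o N) v k (obs (fun _ => ε) ω)) atTop
          (𝓝 (ε * condSpin μ ε v k ω)) := by
        refine (h2.const_mul ε).congr' ?_
        filter_upwards [eventually_ge_atTop N0] with N hN
        unfold predFin
        rw [if_pos (hmono o hN hN0)]
      have h5 := (h4.sub_const (ε * condSpin μ ε v k ω)).abs
      simpa using h5
  simpa using hlim

end

end Vale.Agent.P161L
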