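import Vale.Agent.P161L.Setup

open MeasureTheory ProbabilityTheory Set Filter Topology

namespace Vale.Agent.P161L

theorem measurable_cdfF : Measurable fun p : ℝ × unitInterval => cdfF p.1 p.2 := by
  unfold cdfF
  refine continuous_projIcc.measurable.comp ?_
  have h1 : Measurable fun p : ℝ × unitInterval => (p.2 : ℝ) :=
    measurable_subtype_coe.comp measurable_snd
  exact h1.add (measurable_fst.mul ((h1.pow_const 2).sub h1))

theorem measurable_quant : Measurable fun p : ℝ × unitInterval => quant p.1 p.2 := by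
  unfold quant
  refine continuous_projIcc.measurable.comp ?_
  have h1 : Measurable fun p : ℝ × unitInterval => (p.2 : ℝ) :=
    measurable_subtype_coe.comp measurable_snd
  refine (h1.const_mul 2).div ((measurable_fst.const_sub 1).add ?_)
  exact Real.continuous_sqrt.measurable.comp
    (((measurable_fst.const_sub 1).pow_const 2).add ((measurable_fst.const_mul 4).mul h1))

theorem measurable_ell (ε : ℝ) : Measurable (ell ε) := by
  unfold ell
  have h1 : Measurable fun x : unitInterval => ε * (2 * (x : ℝ) - 1) :=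
    ((measurable_subtype_coe.const_mul 2).sub_const 1).const_mul ε
  exact (Real.measurable_log.comp ((h1.const_add 1).div (h1.const_sub 1))).const_mul _

theorem cdf_mem {a x : ℝ} (ha : |a| ≤ 1) (h0 : 0 ≤ x) (h1 : x ≤ 1) :
    x + a * (x ^ 2 - x) ∈ Set.Icc (0 : ℝ) 1 := by
  obtain ⟨h2, h3⟩ := abs_le.1 ha
  have h4 : 0 ≤ x * (1 - x) := mul_nonneg h0 (by linarith)
  constructor
  · nlinarith [sq_nonneg x]
  · nlinarith [sq_nonneg (1 - x)]

theorem cdfF_coe {a : ℝ} (ha : |a| ≤ 1) (x : unitInterval) :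
    (cdfF a x : ℝ) = x + a * ((x : ℝ) ^ 2 - x) := by
  unfold cdfF
  rw [Set.projIcc_of_mem zero_le_one (cdf_mem ha x.2.1 x.2.2)]

theorem rad_nonneg {a r : ℝ} (h0 : 0 ≤ r) (h1 : r ≤ 1) : 0 ≤ (1 - a) ^ 2 + 4 * a * r := by
  nlinarith [mul_nonneg (sub_nonneg.2 h1) (sq_nonneg (1 - a)), mul_nonneg h0 (sq_nonneg (1 + a))]

theorem quant_mem {a r : ℝ} (ha : |a| < 1) (h0 : 0 ≤ r) (h1 : r ≤ 1) :
    2 * r / ((1 - a) + Real.sqrt ((1 - a) ^ 2 + 4 * a * r)) ∈ Set.Icc (0 : ℝ) 1 := by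
  obtain ⟨h2, h3⟩ := abs_lt.1 ha
  have hs := Real.sqrt_nonneg ((1 - a) ^ 2 + 4 * a * r)
  have hs2 := Real.sq_sqrt (rad_nonneg (a := a) h0 h1)
  set s := Real.sqrt ((1 - a) ^ 2 + 4 * a * r)
  have hpos : 0 < (1 - a) + s := by linarith
  constructor
  · positivity
  · rw [div_le_one hpos]
    by_contra hcon
    push Not at hcon
    have h5 : s < 2 * r - (1 - a) := by linarith
    nlinarith [mul_nonneg h0 (sub_nonneg.2 h1)]

theorem quant_coe {a : ℝ} (ha : |a| < 1) (r : unitInterval) :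
    (quant a r : ℝ) = 2 * (r : ℝ) / ((1 - a) + Real.sqrt ((1 - a) ^ 2 + 4 * a * r)) := by
  unfold quant
  rw [Set.projIcc_of_mem zero_le_one (quant_mem ha r.2.1 r.2.2)]

theorem quant_eq {a : ℝ} (ha : |a| < 1) (r : unitInterval) :
    (quant a r : ℝ) + a * ((quant a r : ℝ) ^ 2 - quant a r) = r := by
  rw [quant_coe ha]
  obtain ⟨h2, h3⟩ := abs_lt.1 ha
  have hs := Real.sqrt_nonneg ((1 - a) ^ 2 + 4 * a * (r : ℝ))
  have hs2 := Real.sq_sqrt (rad_nonneg (a := a) r.2.1 r.2.2)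
  set s := Real.sqrt ((1 - a) ^ 2 + 4 * a * (r : ℝ))
  have hpos : (1 - a) + s ≠ 0 := by
    have : 0 < (1 - a) + s := by linarith
    exact this.ne'
  field_simp
  linear_combination (-(r : ℝ)) * hs2

theorem cdfF_quant {a : ℝ} (ha : |a| < 1) (r : unitInterval) : cdfF a (quant a r) = r := by
  apply Subtype.ext
  rw [cdfF_coe ha.le, quant_eq ha]

theorem cdfF_sub {a : ℝ} (x y : ℝ) :
    (x + a * (x ^ 2 - x)) - (y + a * (y ^ 2 - y)) = (x - y) * (1 + a * (x + y - 1)) := by ring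

theorem one_add_pos {a x y : ℝ} (_ha : |a| < 1) (h0 : 0 ≤ x) (h1 : x ≤ 1) (h2 : 0 ≤ y)
    (h3 : y ≤ 1) : 1 - |a| ≤ 1 + a * (x + y - 1) := by
  have h4 : |a * (x + y - 1)| ≤ |a| := by
    rw [abs_mul]
    have : |x + y - 1| ≤ 1 := by rw [abs_le]; constructor <;> linarith
    nlinarith [abs_nonneg a]
  have := (abs_le.1 h4).1
  linarith

theorem cdfF_injective {a : ℝ} (ha : |a| < 1) : Function.Injective (cdfF a) := by
  intro x y hxy
  have h := congrArg (Subtype.val) hxy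
  rw [cdfF_coe ha.le, cdfF_coe ha.le] at h
  have h2 := cdfF_sub (a := a) (x : ℝ) y
  rw [h, sub_self] at h2
  have h3 := one_add_pos ha x.2.1 x.2.2 y.2.1 y.2.2
  rcases mul_eq_zero.1 h2.symm with h4 | h4
  · exact Subtype.ext (by linarith)
  · linarith

theorem quant_cdfF {a : ℝ} (ha : |a| < 1) (x : unitInterval) : quant a (cdfF a x) = x :=
  cdfF_injective ha (cdfF_quant ha _)

theorem quant_zero (r : unitInterval) : quant 0 r = r := by
  apply Subtype.ext
  have h := quant_eq (a := 0) (by simp) r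
  linarith

theorem quant_lip {ε a a' : ℝ} (hε : ε ≤ 1 / 2) (ha : |a| ≤ ε) (ha' : |a'| ≤ ε)
    (r r' : unitInterval) :
    |(quant a r : ℝ) - quant a' r'| ≤ |a - a'| / 2 + 2 * |(r : ℝ) - r'| := by
  have h1 : |a| < 1 := by linarith
  have h1' : |a'| < 1 := by linarith
  have e1 := quant_eq h1 r
  have e2 := quant_eq h1' r'
  have hq := (quant a r).2
  have hq' := (quant a' r').2
  set q : ℝ := (quant a r : ℝ)
  set q' : ℝ := (quant a' r' : ℝ)
  have hkey : (q - q') * (1 + a * (q + q' - 1)) = ((r : ℝ) - r') + (a - a') * (q' - q' ^ 2) := by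
    linear_combination e1 - e2
  have hpos := one_add_pos h1 hq.1 hq.2 hq'.1 hq'.2
  have hpos2 : 1 / 2 ≤ 1 + a * (q + q' - 1) := by linarith
  have hb : |(q - q') * (1 + a * (q + q' - 1))| ≤ |(r : ℝ) - r'| + |a - a'| / 4 := by
    rw [hkey]
    refine (abs_add_le _ _).trans ?_
    have : |(a - a') * (q' - q' ^ 2)| ≤ |a - a'| / 4 := by
      rw [abs_mul]
      have : |q' - q' ^ 2| ≤ 1 / 4 := by
        rw [abs_le]
        constructor <;> nlinarith [sq_nonneg (q' - 1 / 2), hq'.1, hq'.2]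
      nlinarith [abs_nonneg (a - a')]
    linarith
  rw [abs_mul, abs_of_pos (by linarith : 0 < 1 + a * (q + q' - 1))] at hb
  nlinarith [abs_nonneg (q - q')]

theorem cdfF_lip {a a' : ℝ} (ha : |a| ≤ 1) (ha' : |a'| ≤ 1) (x : unitInterval) :
    |(cdfF a x : ℝ) - cdfF a' x| ≤ |a - a'| := by
  rw [cdfF_coe ha, cdfF_coe ha']
  have : (x : ℝ) + a * ((x : ℝ) ^ 2 - x) - (x + a' * ((x : ℝ) ^ 2 - x)) =
      (a - a') * ((x : ℝ) ^ 2 - x) := by ring
  rw [this, abs_mul]
  have : |(x : ℝ) ^ 2 - x| ≤ 1 := by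
    rw [abs_le]
    constructor <;> nlinarith [x.2.1, x.2.2, sq_nonneg ((x : ℝ) - 1 / 2)]
  nlinarith [abs_nonneg (a - a')]

theorem ell_half (ε : ℝ) : ell ε half = 0 := by
  unfold ell half
  norm_num

theorem tmem {ε : ℝ} (h0 : 0 < ε) (_h1 : ε < 1) (x : unitInterval) :
    |ε * (2 * (x : ℝ) - 1)| ≤ ε := by
  rw [abs_mul, abs_of_pos h0]
  have : |2 * (x : ℝ) - 1| ≤ 1 := by
    rw [abs_le]; constructor <;> linarith [x.2.1, x.2.2]
  nlinarith

theorem ell_exp {ε : ℝ} (h0 : 0 < ε) (h1 : ε < 1) (b : Bool) (x : unitInterval) :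
    1 + ε * spin b * (2 * (x : ℝ) - 1) =
      Real.sqrt (1 - ε ^ 2 * (2 * (x : ℝ) - 1) ^ 2) * Real.exp (ell ε x * spin b) := by
  have ht := tmem h0 h1 x
  have e1 : ε ^ 2 * (2 * (x : ℝ) - 1) ^ 2 = (ε * (2 * (x : ℝ) - 1)) ^ 2 := by ring
  have e2 : 1 + ε * spin b * (2 * (x : ℝ) - 1) = 1 + spin b * (ε * (2 * (x : ℝ) - 1)) := by ring
  rw [e1, e2]
  unfold ell
  set t := ε * (2 * (x : ℝ) - 1) with htdef
  obtain ⟨h2, h3⟩ := abs_le.1 ht
  have hp : 0 < 1 + t := by linarith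
  have hm : 0 < 1 - t := by linarith
  have hlhs : 0 ≤ 1 + spin b * t := by
    cases b <;> simp only [spin] <;> norm_num <;> linarith
  have hrhs : 0 ≤ Real.sqrt (1 - t ^ 2) *
      Real.exp (1 / 2 * Real.log ((1 + t) / (1 - t)) * spin b) := by positivity
  rw [← sq_eq_sq₀ hlhs hrhs, mul_pow, Real.sq_sqrt (by nlinarith : 0 ≤ 1 - t ^ 2),
    ← Real.exp_nat_mul]
  cases b with
  | false =>
    simp only [spin, Bool.false_eq_true, if_false]
    have e3 : ((2 : ℕ) : ℝ) * (1 / 2 * Real.log ((1 + t) / (1 - t)) * -1) =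
        Real.log (((1 + t) / (1 - t))⁻¹) := by
      rw [Real.log_inv]; push_cast; ring
    rw [e3, Real.exp_log (by positivity)]
    field_simp
    ring
  | true =>
    simp only [spin, if_true]
    have e3 : ((2 : ℕ) : ℝ) * (1 / 2 * Real.log ((1 + t) / (1 - t)) * 1) =
        Real.log ((1 + t) / (1 - t)) := by
      push_cast; ring
    rw [e3, Real.exp_log (by positivity)]
    field_simp
    ring

theorem half_log_lip {t t' : ℝ} (ht : |t| ≤ 1 / 2) (ht' : |t'| ≤ 1 / 2) :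
    |1 / 2 * Real.log ((1 + t) / (1 - t)) - 1 / 2 * Real.log ((1 + t') / (1 - t'))| ≤
      4 / 3 * |t - t'| := by
  have hd : ∀ s ∈ Set.Icc (-(1 / 2) : ℝ) (1 / 2), HasDerivWithinAt
      (fun s : ℝ => 1 / 2 * Real.log ((1 + s) / (1 - s))) (1 / (1 - s ^ 2))
      (Set.Icc (-(1 / 2) : ℝ) (1 / 2)) s := by
    intro s hs
    obtain ⟨h1, h2⟩ := hs
    have hp : 0 < 1 + s := by linarith
    have hm : 0 < 1 - s := by linarith
    have h3 := (((hasDerivAt_id s).const_add 1).div ((hasDerivAt_id s).const_sub 1) hm.ne').log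
      (by simp only [Pi.div_apply, id]; positivity)
    have h4 := h3.const_mul (1 / 2)
    refine (h4.congr_deriv ?_).hasDerivWithinAt
    have h5 : 1 - s ^ 2 ≠ 0 := by nlinarith
    simp only [Pi.div_apply, id]
    field_simp
    ring
  have hb : ∀ s ∈ Set.Icc (-(1 / 2) : ℝ) (1 / 2), ‖1 / (1 - s ^ 2)‖ ≤ 4 / 3 := by
    intro s hs
    obtain ⟨h1, h2⟩ := hs
    have h3 : 3 / 4 ≤ 1 - s ^ 2 := by nlinarith
    rw [Real.norm_eq_abs, abs_of_pos (by positivity), div_le_div_iff₀ (by linarith) (by norm_num)]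
    linarith
  have := Convex.norm_image_sub_le_of_norm_hasDerivWithin_le hd hb (convex_Icc _ _)
    (show t' ∈ Set.Icc (-(1 / 2) : ℝ) (1 / 2) from ⟨(abs_le.1 ht').1, (abs_le.1 ht').2⟩)
    (show t ∈ Set.Icc (-(1 / 2) : ℝ) (1 / 2) from ⟨(abs_le.1 ht).1, (abs_le.1 ht).2⟩)
  simpa [Real.norm_eq_abs] using this

theorem ell_lip {ε : ℝ} (h0 : 0 < ε) (h1 : ε ≤ 1 / 2) (x x' : unitInterval) :
    |ell ε x - ell ε x'| ≤ 8 / 3 * ε * |(x : ℝ) - x'| := by
  have ht := (tmem h0 (by linarith) x).trans h1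
  have ht' := (tmem h0 (by linarith) x').trans h1
  refine (half_log_lip ht ht').trans (le_of_eq ?_)
  have : ε * (2 * (x : ℝ) - 1) - ε * (2 * (x' : ℝ) - 1) = 2 * ε * ((x : ℝ) - x') := by ring
  rw [this, abs_mul, abs_of_pos (by positivity : 0 < 2 * ε)]
  ring

theorem integral_cdfF {a : ℝ} (ha : |a| < 1) {h : unitInterval → ℝ} (_hm : Measurable h)
    (_hb : ∃ C, ∀ x, |h x| ≤ C) :
    ∫ x : unitInterval, h (cdfF a x) * (1 + a * (2 * (x : ℝ) - 1)) = ∫ u : unitInterval, h u := by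
  set F : ℝ → ℝ := fun x => x + a * (x ^ 2 - x) with hF
  set g : ℝ → ℝ := fun u => h (Set.projIcc 0 1 zero_le_one u) with hg
  have hderiv : ∀ x ∈ Set.Icc (0 : ℝ) 1, HasDerivWithinAt F (1 + a * (2 * x - 1))
      (Set.Icc 0 1) x := by
    intro x _
    have h1 := (hasDerivAt_id x).add ((((hasDerivAt_id x).pow 2).sub (hasDerivAt_id x)).const_mul a)
    refine HasDerivAt.hasDerivWithinAt (h1.congr_deriv ?_)
    simp
  have hinj : Set.InjOn F (Set.Icc 0 1) := by
    intro x hx y hy hxy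
    have := cdfF_injective ha (a₁ := ⟨x, hx⟩) (a₂ := ⟨y, hy⟩) (by
      apply Subtype.ext
      rw [cdfF_coe ha.le, cdfF_coe ha.le]
      exact hxy)
    exact congrArg Subtype.val this
  have himg : F '' (Set.Icc 0 1) = Set.Icc 0 1 := by
    ext u
    constructor
    · rintro ⟨x, hx, rfl⟩
      exact cdf_mem ha.le hx.1 hx.2
    · intro hu
      refine ⟨(quant a ⟨u, hu⟩ : ℝ), (quant a ⟨u, hu⟩).2, ?_⟩
      exact quant_eq ha ⟨u, hu⟩
  have hcov := integral_image_eq_integral_abs_deriv_smul measurableSet_Icc hderiv hinj g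
  rw [himg] at hcov
  have e1 : ∫ u : unitInterval, h u = ∫ u in Set.Icc (0 : ℝ) 1, g u := by
    rw [← integral_subtype measurableSet_Icc g]
    refine integral_congr_ae (Eventually.of_forall fun u => ?_)
    simp only [hg, projIcc_val]
  have e2 : ∫ x : unitInterval, h (cdfF a x) * (1 + a * (2 * (x : ℝ) - 1)) =
      ∫ x in Set.Icc (0 : ℝ) 1, |1 + a * (2 * x - 1)| • g (F x) := by
    rw [← integral_subtype measurableSet_Icc (fun x => |1 + a * (2 * x - 1)| • g (F x))]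
    refine integral_congr_ae (Eventually.of_forall fun x => ?_)
    have hpos : 0 < 1 + a * (2 * (x : ℝ) - 1) := by
      have := one_add_pos ha x.2.1 x.2.2 x.2.1 x.2.2
      have h2 : 1 + a * ((x : ℝ) + x - 1) = 1 + a * (2 * (x : ℝ) - 1) := by ring
      rw [h2] at this
      linarith
    simp only [hg, hF, smul_eq_mul, abs_of_pos hpos]
    rw [mul_comm]
    rfl
  rw [e1, e2, hcov]

theorem integral_quant {a : ℝ} (ha : |a| < 1) {h : unitInterval → ℝ} (hm : Measurable h)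
    (hb : ∃ C, ∀ x, |h x| ≤ C) :
    ∫ r : unitInterval, h (quant a r) = ∫ x : unitInterval, h x * (1 + a * (2 * (x : ℝ) - 1)) := by
  obtain ⟨C, hC⟩ := hb
  have := integral_cdfF ha (h := fun r => h (quant a r))
    (hm.comp (measurable_quant.comp (measurable_const.prodMk measurable_id))) ⟨C, fun x => hC _⟩
  simp only [quant_cdfF ha] at this
  exact this.symm

end Vale.Agent.P161L
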