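import Vale.Agent.P161L.Quant

open MeasureTheory ProbabilityTheory Set Filter Topology

namespace Vale.Agent.P161L


variable {ι : Type*}

instance instProbIid (ι : Type*) : IsProbabilityMeasure (iidUniform ι) := by
  unfold iidUniform; infer_instance

theorem integrable_of_bdd' {Ω : Type*} [MeasurableSpace Ω] {P : Measure Ω} [IsFiniteMeasure P]
    {f : Ω → ℝ} (hf : Measurable f) {C : ℝ} (hC : ∀ x, |f x| ≤ C) : Integrable f P :=
  Integrable.of_bound hf.aestronglyMeasurable C (Eventually.of_forall hC)

theorem abs_integral_le_of_bdd' {Ω : Type*} [MeasurableSpace Ω] {P : Measure Ω}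
    [IsProbabilityMeasure P] {f : Ω → ℝ} {C : ℝ} (hC : ∀ x, |f x| ≤ C) : |∫ x, f x ∂P| ≤ C := by
  have h := norm_integral_le_of_norm_le_const (μ := P) (f := f) (C := C)
    (Eventually.of_forall hC)
  simpa using h

open Classical in
theorem measurable_update_pair (j : ι) : Measurable
    (fun p : (ι → unitInterval) × unitInterval => Function.update p.1 j p.2) := by
  rw [measurable_pi_iff]
  intro i
  by_cases h : i = j
  · subst h
    simp only [Function.update_self]
    exact measurable_snd
  · simp only [Function.update_of_ne h]
    exact (measurable_pi_apply i).comp measurable_fst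

open Classical in
theorem measurePreserving_update (j : ι) :
    MeasurePreserving (fun p : (ι → unitInterval) × unitInterval => Function.update p.1 j p.2)
      ((iidUniform ι).prod volume) (iidUniform ι) := by
  refine ⟨measurable_update_pair j, ?_⟩
  refine Measure.eq_infinitePi (fun _ => (volume : Measure unitInterval))
    fun s (t : ι → Set unitInterval) ht => ?_
  rw [Measure.map_apply (measurable_update_pair j)
    (MeasurableSet.pi s.countable_toSet fun j _ => ht j)]
  by_cases hj : j ∈ s
  · have : (fun p : (ι → unitInterval) × unitInterval => Function.update p.1 j p.2) ⁻¹'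
        (Set.pi (s : Set ι) t) = (Set.pi ((s.erase j : Finset ι) : Set ι) t) ×ˢ (t j) := by
      ext ⟨R, r⟩
      simp only [Set.mem_preimage, Set.mem_pi, Finset.mem_coe, Set.mem_prod, Finset.mem_erase]
      constructor
      · intro h
        refine ⟨fun i hi => ?_, ?_⟩
        · have := h i hi.2
          rwa [Function.update_of_ne hi.1] at this
        · have := h j hj
          rwa [Function.update_self] at this
      · rintro ⟨h1, h2⟩ i hi
        by_cases hij : i = j
        · subst hij; rwa [Function.update_self]
        · rw [Function.update_of_ne hij]; exact h1 i ⟨hij, hi⟩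
    rw [this, Measure.prod_prod]
    unfold iidUniform
    rw [Measure.infinitePi_pi _ (fun j _ => ht j), Finset.prod_erase_mul s _ hj]
  · have : (fun p : (ι → unitInterval) × unitInterval => Function.update p.1 j p.2) ⁻¹'
        (Set.pi (s : Set ι) t) = (Set.pi (s : Set ι) t) ×ˢ univ := by
      ext ⟨R, r⟩
      simp only [Set.mem_preimage, Set.mem_pi, Finset.mem_coe, Set.mem_prod, Set.mem_univ,
        and_true]
      refine forall₂_congr fun i hi => ?_
      rw [Function.update_of_ne]
      rintro rfl
      exact hj hi
    rw [this, Measure.prod_prod]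
    unfold iidUniform
    rw [Measure.infinitePi_pi _ (fun j _ => ht j), measure_univ, mul_one]

open Classical in
theorem integral_resample (j : ι) {F : (ι → unitInterval) → ℝ} (hF : Measurable F)
    (hb : ∃ C, ∀ x, |F x| ≤ C) :
    ∫ R, F R ∂(iidUniform ι) =
      ∫ R, (∫ r : unitInterval, F (Function.update R j r)) ∂(iidUniform ι) := by
  obtain ⟨C, hC⟩ := hb
  have hmp := measurePreserving_update (ι := ι) j
  have h1 : ∫ R, F R ∂(iidUniform ι) =
      ∫ p, F (Function.update p.1 j p.2) ∂((iidUniform ι).prod volume) := by
    conv_lhs => rw [← hmp.map_eq]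
    rw [integral_map hmp.measurable.aemeasurable hF.aestronglyMeasurable]
  rw [h1, integral_prod]
  exact integrable_of_bdd' (hF.comp hmp.measurable) fun p => hC _

open Classical in
/-- average over one coordinate -/
noncomputable def avg1 (j : ι) (F : (ι → unitInterval) → ℝ) (u : ι → unitInterval) : ℝ :=
  ∫ r : unitInterval, F (Function.update u j r)

/-- average over a list of coordinates -/
noncomputable def avgL (l : List ι) (F : (ι → unitInterval) → ℝ) : (ι → unitInterval) → ℝ :=
  l.foldr avg1 F

theorem avgL_nil (F : (ι → unitInterval) → ℝ) : avgL [] F = F := rfl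

theorem avgL_cons (j : ι) (l : List ι) (F : (ι → unitInterval) → ℝ) :
    avgL (j :: l) F = avg1 j (avgL l F) := rfl

theorem avg1_measurable (j : ι) {F : (ι → unitInterval) → ℝ} (hF : Measurable F) :
    Measurable (avg1 j F) := by
  classical
  have h := (hF.comp (measurable_update_pair j)).stronglyMeasurable.integral_prod_right'
    (ν := (volume : Measure unitInterval))
  exact h.measurable

theorem avgL_measurable (l : List ι) {F : (ι → unitInterval) → ℝ} (hF : Measurable F) :
    Measurable (avgL l F) := by
  induction l with
  | nil => exact hF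
  | cons j l ih => rw [avgL_cons]; exact avg1_measurable j ih

theorem avg1_bounded (j : ι) {F : (ι → unitInterval) → ℝ} {C : ℝ}
    (hb : ∀ x, |F x| ≤ C) : ∀ x, |avg1 j F x| ≤ C := fun _ =>
  abs_integral_le_of_bdd' fun _ => hb _

theorem avgL_bounded (l : List ι) {F : (ι → unitInterval) → ℝ} {C : ℝ}
    (hb : ∀ x, |F x| ≤ C) : ∀ x, |avgL l F x| ≤ C := by
  induction l with
  | nil => exact hb
  | cons j l ih => rw [avgL_cons]; exact avg1_bounded j ih

open Classical in
theorem avg1_lip (i : ι) {F : (ι → unitInterval) → ℝ} (hF : Measurable F)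
    (hb : ∃ C, ∀ x, |F x| ≤ C) (L : Set ι) (S : Finset ι) (c : ι → ℝ) (hc : ∀ j, 0 ≤ c j)
    (hi : i ∉ L)
    (h : ∀ u u', (∀ j ∈ L, u j = u' j) → |F u - F u'| ≤ ∑ j ∈ S, c j * |(u j : ℝ) - u' j|) :
    ∀ u u', (∀ j ∈ L, u j = u' j) →
      |avg1 i F u - avg1 i F u'| ≤ ∑ j ∈ S.erase i, c j * |(u j : ℝ) - u' j| := by
  obtain ⟨C, hC⟩ := hb
  intro u u' huu
  unfold avg1
  have hint : ∀ w : ι → unitInterval, Integrable (fun r : unitInterval =>
      F (Function.update w i r)) := fun w =>
    integrable_of_bdd' (hF.comp ((measurable_update_pair i).comp measurable_prodMk_left))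
      fun r => hC _
  rw [← integral_sub (hint u) (hint u')]
  refine abs_integral_le_of_bdd' fun r => ?_
  refine (h (Function.update u i r) (Function.update u' i r) ?_).trans ?_
  · intro j hj
    rw [Function.update_of_ne, Function.update_of_ne]
    · exact huu j hj
    · rintro rfl; exact hi hj
    · rintro rfl; exact hi hj
  · by_cases hiS : i ∈ S
    · rw [← Finset.sum_erase_add S _ hiS]
      simp only [Function.update_self, sub_self, abs_zero, mul_zero, add_zero]
      refine le_of_eq (Finset.sum_congr rfl fun j hj => ?_)
      rw [Function.update_of_ne (Finset.ne_of_mem_erase hj),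
        Function.update_of_ne (Finset.ne_of_mem_erase hj)]
    · rw [Finset.erase_eq_of_notMem hiS]
      refine le_of_eq (Finset.sum_congr rfl fun j hj => ?_)
      have : j ≠ i := by rintro rfl; exact hiS hj
      rw [Function.update_of_ne this, Function.update_of_ne this]

open Classical in
/-- Lipschitz bounds are inherited, and the averaged coordinates drop out. `L` is a set of
coordinates (the labels) on which the two points are required to agree. -/
theorem avgL_lip (l : List ι) {F : (ι → unitInterval) → ℝ} (hF : Measurable F)
    (hb : ∃ C, ∀ x, |F x| ≤ C) (L : Set ι) (S : Finset ι) (c : ι → ℝ) (hc : ∀ j, 0 ≤ c j)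
    (hl : ∀ j ∈ l, j ∉ L)
    (h : ∀ u u', (∀ j ∈ L, u j = u' j) → |F u - F u'| ≤ ∑ j ∈ S, c j * |(u j : ℝ) - u' j|) :
    ∀ u u', (∀ j ∈ L, u j = u' j) →
      |avgL l F u - avgL l F u'| ≤ ∑ j ∈ S with j ∉ l, c j * |(u j : ℝ) - u' j| := by
  induction l with
  | nil => simpa [avgL_nil] using h
  | cons i l ih =>
    obtain ⟨C, hC⟩ := hb
    intro u u' huu
    rw [avgL_cons]
    refine (avg1_lip i (avgL_measurable l hF) ⟨C, avgL_bounded l hC⟩ L (S.filter (· ∉ l)) c hc
      (hl i List.mem_cons_self) (ih fun j hj => hl j (List.mem_cons_of_mem i hj)) u u'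
      huu).trans (le_of_eq ?_)
    refine Finset.sum_congr ?_ fun _ _ => rfl
    ext j
    simp only [Finset.mem_erase, Finset.mem_filter, List.mem_cons, not_or]
    tauto

open Classical in
theorem avg1_osc (i : ι) {F : (ι → unitInterval) → ℝ} (hF : Measurable F)
    (hb : ∃ C, ∀ x, |F x| ≤ C) {j : ι} {c : ℝ}
    (h : ∀ u r, |F (Function.update u j r) - F u| ≤ c) :
    ∀ u r, |avg1 i F (Function.update u j r) - avg1 i F u| ≤ c := by
  obtain ⟨C, hC⟩ := hb
  intro u r
  have hc0 : 0 ≤ c := (abs_nonneg _).trans (h u r)
  unfold avg1
  have hint : ∀ w : ι → unitInterval, Integrable (fun r : unitInterval =>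
      F (Function.update w i r)) := fun w =>
    integrable_of_bdd' (hF.comp ((measurable_update_pair i).comp measurable_prodMk_left))
      fun r => hC _
  rw [← integral_sub (hint _) (hint u)]
  refine abs_integral_le_of_bdd' fun r' => ?_
  by_cases hij : i = j
  · subst hij
    rw [Function.update_idem, sub_self, abs_zero]; exact hc0
  · rw [Function.update_comm (Ne.symm hij)]
    exact h _ _

open Classical in
theorem avgL_osc (l : List ι) {F : (ι → unitInterval) → ℝ} (hF : Measurable F)
    (hb : ∃ C, ∀ x, |F x| ≤ C) {j : ι} {c : ℝ}
    (h : ∀ u r, |F (Function.update u j r) - F u| ≤ c) :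
    ∀ u r, |avgL l F (Function.update u j r) - avgL l F u| ≤ c := by
  induction l with
  | nil => exact h
  | cons i l ih =>
    obtain ⟨C, hC⟩ := hb
    rw [avgL_cons]
    exact avg1_osc i (avgL_measurable l hF) ⟨C, avgL_bounded l hC⟩ ih

open Classical in
/-- `avg1 i` commutes with the other averages and is idempotent; we only need that averaging
`avg1 i H` over the coordinate `i` changes nothing. -/
theorem avg1_update_self (i : ι) (F : (ι → unitInterval) → ℝ) (u : ι → unitInterval)
    (r : unitInterval) : avg1 i F (Function.update u i r) = avg1 i F u := by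
  unfold avg1
  simp only [Function.update_idem]

theorem avgL_append_singleton (l : List ι) (j : ι) (F : (ι → unitInterval) → ℝ) :
    avgL (l ++ [j]) F = avgL l (avg1 j F) := by
  unfold avgL
  rw [List.foldr_append]
  rfl

open Classical in
theorem efron_stein (l : List ι) {F : (ι → unitInterval) → ℝ} (hF : Measurable F)
    (hb : ∃ C, ∀ x, |F x| ≤ C) (c : ι → ℝ)
    (h : ∀ j ∈ l, ∀ u r, |F (Function.update u j r) - F u| ≤ c j) :
    ∫ u, (F u - avgL l F u) ^ 2 ∂(iidUniform ι) ≤ (l.map fun j => c j ^ 2).sum := by
  induction l using List.reverseRecOn generalizing F with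
  | nil => simp [avgL_nil]
  | append_singleton l j ih =>
    obtain ⟨C, hC⟩ := hb
    rw [avgL_append_singleton, List.map_append, List.sum_append]
    simp only [List.map_cons, List.map_nil, List.sum_cons, List.sum_nil, add_zero]
    set H := avg1 j F with hH
    have hHm : Measurable H := avg1_measurable j hF
    have hHb : ∀ x, |H x| ≤ C := avg1_bounded j hC
    have hih := ih hHm ⟨C, hHb⟩ (fun i hi =>
      avg1_osc j hF ⟨C, hC⟩ (h i (List.mem_append_left _ hi)))
    set K : (ι → unitInterval) → ℝ := fun u => H u - avgL l H u with hK
    have hKm : Measurable K := hHm.sub (avgL_measurable l hHm)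
    have hKb : ∀ x, |K x| ≤ 2 * C := fun x => by
      simp only [hK]
      refine (abs_sub _ _).trans ?_
      have := hHb x
      have := avgL_bounded l hHb x
      linarith
    have hC0 : 0 ≤ C := (abs_nonneg _).trans (hC fun _ => half)
    have hHj : ∀ u r, H (Function.update u j r) = H u := fun u r => avg1_update_self j F u r
    have hKj : ∀ u r, K (Function.update u j r) = K u := by
      intro u r
      simp only [hK]
      have h1 := avgL_osc l hHm ⟨C, hHb⟩ (j := j) (c := 0) (fun u r => by
        rw [hHj, sub_self, abs_zero]) u r
      have h2 : avgL l H (Function.update u j r) = avgL l H u := by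
        have := abs_nonpos_iff.1 h1
        linarith
      rw [hHj, h2]
    have hFint : ∀ w : ι → unitInterval, Integrable (fun r : unitInterval =>
        F (Function.update w j r)) := fun w =>
      integrable_of_bdd' (hF.comp ((measurable_update_pair j).comp measurable_prodMk_left))
        fun r => hC _
    have hFH : ∀ u, |F u - H u| ≤ c j := by
      intro u
      have h1 : F u - H u = ∫ r : unitInterval, (F u - F (Function.update u j r)) := by
        rw [integral_sub (integrable_const _) (hFint u), integral_const]
        simp only [probReal_univ, one_smul]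
        rfl
      rw [h1]
      refine abs_integral_le_of_bdd' fun r => ?_
      rw [abs_sub_comm]
      exact h j (by simp) u r
    have hFHm : Measurable fun u => F u - H u := hF.sub hHm
    have hcross : ∫ u, (F u - H u) * K u ∂(iidUniform ι) = 0 := by
      rw [integral_resample j (F := fun u => (F u - H u) * K u) (hFHm.mul hKm)
        ⟨c j * (2 * C), fun u => by
          rw [abs_mul]
          exact mul_le_mul (hFH u) (hKb u) (abs_nonneg _) ((abs_nonneg _).trans (hFH u))⟩]
      have : ∀ R : ι → unitInterval, (∫ r : unitInterval,
          (F (Function.update R j r) - H (Function.update R j r)) *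
            K (Function.update R j r)) = 0 := by
        intro R
        simp_rw [hKj, hHj]
        rw [integral_mul_const, integral_sub (hFint R) (integrable_const _), integral_const]
        simp only [probReal_univ, one_smul]
        have : ∫ r : unitInterval, F (Function.update R j r) = H R := rfl
        rw [this, sub_self, zero_mul]
      simp_rw [this]
      simp
    have hI1 : Integrable (fun u => (F u - H u) ^ 2) (iidUniform ι) :=
      integrable_of_bdd' (C := c j ^ 2) (hFHm.pow_const 2) fun u => by
        rw [abs_pow]; exact pow_le_pow_left₀ (abs_nonneg _) (hFH u) 2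
    have hI2 : Integrable (fun u => 2 * ((F u - H u) * K u)) (iidUniform ι) :=
      (integrable_of_bdd' (C := c j * (2 * C)) (f := fun u => (F u - H u) * K u)
        (hFHm.mul hKm) fun u => by
        rw [abs_mul]
        exact mul_le_mul (hFH u) (hKb u) (abs_nonneg _)
          ((abs_nonneg _).trans (hFH u))).const_mul 2
    have hI3 : Integrable (fun u => K u ^ 2) (iidUniform ι) :=
      integrable_of_bdd' (C := (2 * C) ^ 2) (hKm.pow_const 2) fun u => by
        rw [abs_pow]; exact pow_le_pow_left₀ (abs_nonneg _) (hKb u) 2
    have hexp : ∀ u, (F u - avgL l H u) ^ 2 =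
        ((F u - H u) ^ 2 + 2 * ((F u - H u) * K u)) + K u ^ 2 := fun u => by
      simp only [hK]; ring
    simp_rw [hexp]
    have hI12 : Integrable (fun u => (F u - H u) ^ 2 + 2 * ((F u - H u) * K u))
        (iidUniform ι) := hI1.add hI2
    rw [integral_add hI12 hI3, integral_add hI1 hI2, integral_const_mul, hcross,
      mul_zero, add_zero, add_comm]
    refine add_le_add hih ?_
    have : ∫ u, (F u - H u) ^ 2 ∂(iidUniform ι) ≤ ∫ _u, c j ^ 2 ∂(iidUniform ι) := by
      refine integral_mono_of_nonneg (Eventually.of_forall fun _ => sq_nonneg _)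
        (integrable_const _) (Eventually.of_forall fun u => ?_)
      beta_reduce
      rw [← sq_abs]
      exact pow_le_pow_left₀ (abs_nonneg _) (hFH u) 2
    simpa using this

open Classical in
theorem integral_quant_finset (a : ι → ℝ) (ha : ∀ j, |a j| < 1) (S : Finset ι)
    {F : (ι → unitInterval) → ℝ} (hF : Measurable F) (hb : ∃ C, ∀ x, |F x| ≤ C) :
    ∫ R, F (fun j => if j ∈ S then quant (a j) (R j) else R j) ∂(iidUniform ι) =
      ∫ R, F R * ∏ j ∈ S, (1 + a j * (2 * (R j : ℝ) - 1)) ∂(iidUniform ι) := by
  induction S using Finset.induction_on generalizing F with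
  | empty => simp
  | insert j S hj ih =>
    obtain ⟨C, hC⟩ := hb
    have hC0 : 0 ≤ C := (abs_nonneg _).trans (hC fun _ => half)
    have hcoe : Measurable fun x : unitInterval => (x : ℝ) := measurable_subtype_coe
    have hqm : Measurable fun r : unitInterval => quant (a j) r :=
      measurable_quant.comp (measurable_const.prodMk measurable_id)
    set H : (ι → unitInterval) → ℝ := fun x => F (Function.update x j (quant (a j) (x j)))
      with hH
    have hHm : Measurable H := hF.comp ((measurable_update_pair j).comp
      (measurable_id.prodMk (hqm.comp (measurable_pi_apply j))))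
    have hHb : ∀ x, |H x| ≤ C := fun x => hC _
    set W : (ι → unitInterval) → ℝ := fun R => ∏ i ∈ S, (1 + a i * (2 * (R i : ℝ) - 1)) with hW
    have hfac : ∀ (i : ι) (x : unitInterval), |1 + a i * (2 * (x : ℝ) - 1)| ≤ 2 := by
      intro i x
      refine (abs_add_le _ _).trans ?_
      rw [abs_one, abs_mul]
      have h1 : |2 * (x : ℝ) - 1| ≤ 1 := by
        rw [abs_le]; constructor <;> linarith [x.2.1, x.2.2]
      have := mul_le_mul (ha i).le h1 (abs_nonneg _) zero_le_one
      linarith
    have hWm : Measurable W := Finset.measurable_prod _ fun i _ =>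
      ((((hcoe.comp (measurable_pi_apply i)).const_mul 2).sub_const 1).const_mul _).const_add 1
    have hWb : ∀ R, |W R| ≤ 2 ^ S.card := fun R => by
      simp only [hW]
      rw [Finset.abs_prod, ← Finset.prod_const]
      exact Finset.prod_le_prod (fun _ _ => abs_nonneg _) fun i _ => hfac i _
    have hWj : ∀ R r, W (Function.update R j r) = W R := by
      intro R r
      simp only [hW]
      refine Finset.prod_congr rfl fun i hi => ?_
      have : i ≠ j := by rintro rfl; exact hj hi
      rw [Function.update_of_ne this]
    have e1 : ∀ R : ι → unitInterval,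
        F (fun i => if i ∈ insert j S then quant (a i) (R i) else R i) =
        H (fun i => if i ∈ S then quant (a i) (R i) else R i) := by
      intro R
      simp only [hH]
      congr 1
      funext i
      by_cases hij : i = j
      · subst hij
        simp [hj]
      · rw [Function.update_of_ne hij]
        simp [hij]
    simp_rw [e1]
    rw [ih hHm ⟨C, hHb⟩]
    -- resample both sides
    have hb1 : ∀ R, |H R * W R| ≤ C * 2 ^ S.card := fun R => by
      rw [abs_mul]; exact mul_le_mul (hHb _) (hWb _) (abs_nonneg _) hC0
    rw [integral_resample j (F := fun R => H R * W R) (hHm.mul hWm) ⟨_, hb1⟩]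
    have hm2 : Measurable fun R : ι → unitInterval =>
        F R * ∏ i ∈ insert j S, (1 + a i * (2 * (R i : ℝ) - 1)) :=
      hF.mul (Finset.measurable_prod _ fun i _ =>
        ((((hcoe.comp (measurable_pi_apply i)).const_mul 2).sub_const 1).const_mul
          _).const_add 1)
    have hb2 : ∀ R : ι → unitInterval,
        |F R * ∏ i ∈ insert j S, (1 + a i * (2 * (R i : ℝ) - 1))| ≤
          C * 2 ^ (insert j S).card := fun R => by
      rw [abs_mul]
      refine mul_le_mul (hC _) ?_ (abs_nonneg _) hC0
      rw [Finset.abs_prod, ← Finset.prod_const]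
      exact Finset.prod_le_prod (fun _ _ => abs_nonneg _) fun i _ => hfac i _
    rw [integral_resample j hm2 ⟨_, hb2⟩]
    refine integral_congr_ae (Eventually.of_forall fun R => ?_)
    beta_reduce
    have e2 : ∀ r : unitInterval, H (Function.update R j r) * W (Function.update R j r) =
        F (Function.update R j (quant (a j) r)) * W R := by
      intro r
      rw [hWj]
      simp only [hH, Function.update_self, Function.update_idem]
    have e3 : ∀ r : unitInterval, F (Function.update R j r) *
        ∏ i ∈ insert j S, (1 + a i * (2 * ((Function.update R j r) i : ℝ) - 1)) =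
        (F (Function.update R j r) * (1 + a j * (2 * (r : ℝ) - 1))) * W R := by
      intro r
      rw [Finset.prod_insert hj, Function.update_self]
      have := hWj R r
      simp only [hW] at this ⊢
      rw [this]; ring
    simp_rw [e2, e3]
    rw [integral_mul_const, integral_mul_const]
    congr 1
    exact integral_quant (ha j) (h := fun x => F (Function.update R j x))
      (hF.comp ((measurable_update_pair j).comp measurable_prodMk_left)) ⟨C, fun x => hC _⟩

end Vale.Agent.P161L
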