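import Vale.Agent.P161L.Defs

open MeasureTheory ProbabilityTheory Set Filter Topology

namespace Vale.Agent.P161L

/-! Auxiliary definitions for the proof. -/

/-- The point 1/2 of the unit interval. -/
noncomputable def half : unitInterval := ⟨1 / 2, by norm_num, by norm_num⟩

/-- Distribution function of the density `1 + a (2x - 1)` on [0,1]. -/
noncomputable def cdfF (a : ℝ) (x : unitInterval) : unitInterval :=
  Set.projIcc 0 1 zero_le_one ((x : ℝ) + a * ((x : ℝ) ^ 2 - x))

/-- Its inverse (quantile function). -/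
noncomputable def quant (a : ℝ) (r : unitInterval) : unitInterval :=
  Set.projIcc 0 1 zero_le_one (2 * (r : ℝ) / ((1 - a) + Real.sqrt ((1 - a) ^ 2 + 4 * a * r)))

/-- The field increment: `artanh (ε (2x - 1))`. -/
noncomputable def ell (ε : ℝ) (x : unitInterval) : ℝ :=
  1 / 2 * Real.log ((1 + ε * (2 * (x : ℝ) - 1)) / (1 - ε * (2 * (x : ℝ) - 1)))

variable {V : Type*}

open Classical in
/-- `mask v k x` keeps the labels `x (u,0)` and those `x (u,i+1)` for which the event `(u,i)`
comes before the event `(v,k)` in the order (first the stage `i`, then the label);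
all the other coordinates are replaced by 1/2. -/
noncomputable def mask (v : V) (k : ℕ) (x : V × ℕ → unitInterval) : V × ℕ → unitInterval
  | (u, 0) => x (u, 0)
  | (u, i + 1) => if i < k ∨ (i = k ∧ x (u, 0) < x (v, 0)) then x (u, i + 1) else half

/-- The field at `u` accumulated before the event `(v,k)`. -/
noncomputable def fieldOf (ε : ℝ) (v : V) (k : ℕ) (x : V × ℕ → unitInterval) (u : V) : ℝ :=
  ∑ i ∈ Finset.range (k + 1), ell ε (mask v k x (u, i + 1))

/-- Posterior mean of the spin at `v` given the field `y` on `D`. -/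
noncomputable def postMean (μ : Measure (V → Bool)) (D : Finset V) (v : V) (y : V → ℝ) : ℝ :=
  (∫ σ, spin (σ v) * Real.exp (∑ u ∈ D, y u * spin (σ u)) ∂μ) /
    ∫ σ, Real.exp (∑ u ∈ D, y u * spin (σ u)) ∂μ

/-- The observations: labels and, for each `(v,k)`, a variable `X (v,k+1)` which given the spins
has density `1 + str v * s_v * (2x-1)`. -/
noncomputable def obs (str : V → ℝ) (ω : (V → Bool) × (V × ℕ → unitInterval)) :
    V × ℕ → unitInterval
  | (v, 0) => ω.2 (v, 0)
  | (v, k + 1) => quant (str v * spin (ω.1 v)) (ω.2 (v, k + 1))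

/-- The innovations of `x` with respect to the predictor `a`. -/
noncomputable def innov (a : V → ℕ → (V × ℕ → unitInterval) → ℝ) (x : V × ℕ → unitInterval) :
    V × ℕ → unitInterval
  | (v, 0) => x (v, 0)
  | (v, k + 1) => cdfF (a v k x) (x (v, k + 1))

/-- One step of the reconstruction of the observations from the innovations `u`. -/
noncomputable def reconStep (a : V → ℕ → (V × ℕ → unitInterval) → ℝ)
    (u x : V × ℕ → unitInterval) : V × ℕ → unitInterval
  | (v, 0) => u (v, 0)
  | (v, k + 1) => quant (a v k x) (u (v, k + 1))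

/-- The reconstruction iterated `n` times. -/
noncomputable def recon (a : V → ℕ → (V × ℕ → unitInterval) → ℝ) (n : ℕ)
    (u : V × ℕ → unitInterval) : V × ℕ → unitInterval :=
  (reconStep a u)^[n] u

open Classical in
/-- The finite-volume predictor in the volume `D`. -/
noncomputable def predFin (μ : Measure (V → Bool)) (ε : ℝ) (D : Finset V) (v : V) (k : ℕ)
    (x : V × ℕ → unitInterval) : ℝ :=
  if v ∈ D then ε * postMean μ D v (fieldOf ε v k x) else 0

/-- The infinite-volume predictor (`B v N` is the ball of radius `N` around `v`). -/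
noncomputable def predInf (μ : Measure (V → Bool)) (ε : ℝ) (B : V → ℕ → Finset V) (v : V) (k : ℕ)
    (x : V × ℕ → unitInterval) : ℝ :=
  ε * limsup (fun N => postMean μ (B v N) v (fieldOf ε v k x)) atTop

/-- `a` is a predictor for the observations with strengths `str`. -/
structure IsPredictor (μ : Measure (V → Bool)) (str : V → ℝ) (ε : ℝ)
    (a : V → ℕ → (V × ℕ → unitInterval) → ℝ) : Prop where
  meas : ∀ v k, Measurable (a v k)
  bound : ∀ v k x, |a v k x| ≤ ε
  masked : ∀ v k x, a v k (mask v k x) = a v k x
  pred : ∀ v k (h : (V × ℕ → unitInterval) → ℝ), Measurable h → (∃ C, ∀ x, |h x| ≤ C) →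
    ∫ ω, str v * spin (ω.1 v) * h (mask v k (obs str ω)) ∂(μ.prod (iidUniform (V × ℕ))) =
    ∫ ω, a v k (obs str ω) * h (mask v k (obs str ω)) ∂(μ.prod (iidUniform (V × ℕ)))

open Classical in
/-- strengths: `ε` in `D`, 0 outside. -/
noncomputable def strOn (ε : ℝ) (D : Finset V) (v : V) : ℝ := if v ∈ D then ε else 0

/-- `D` is closed under stepping toward `v`. -/
def StarTo (G : SimpleGraph V) (D : Finset V) (v : V) : Prop :=
  ∀ u ∈ D, u ≠ v → ∃ p ∈ D, G.Adj u p ∧ G.dist v p + 1 = G.dist v u

end Vale.Agent.P161L
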