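import Mathlib

/-!
# P161: definitions for the finite-volume sequential sampler of the free Ising model on a tree
-/

open MeasureTheory

namespace Vale.Agent.P161T

noncomputable section

/-- linear response of a BP message -/
def kap (θ M : ℝ) : ℝ := θ * (1 - M ^ 2) / (1 - θ ^ 2 * M ^ 2)

/-- constant part of a BP message -/
def cc (θ M : ℝ) : ℝ := M * (1 - θ ^ 2) / (1 - θ ^ 2 * M ^ 2)

/-- inverse of the distribution function `τ ↦ (τ+1)/2 + e (τ²-1)/4` on `[-1,1]` -/
def T (e u : ℝ) : ℝ := (4 * u - 2 + e) / (1 + √((1 - e) ^ 2 + 4 * e * u))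

variable {V : Type*}

open Classical in
/-- `par G x y`: the neighbour of `y` one step closer to `x` (junk value `y` if `y = x`) -/
def par (G : SimpleGraph V) (x y : V) : V :=
  if h : ∃ p, G.Adj p y ∧ G.dist x p + 1 = G.dist x y then h.choose else y

/-- state: vertex marginals `s.1 y`, cavity messages `s.2 k i` (from `k` to the neighbour `i`) -/
abbrev State (V : Type*) := (V → ℝ) × (V → V → ℝ)

/-- product of `kap` along the path from `x` (where `pr = par G x`) -/
def Bn (θ : ℝ) (pr : V → V) (M : V → V → ℝ) : ℕ → V → ℝ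
  | 0, _ => 1
  | n + 1, y => kap θ (M (pr y) y) * Bn θ pr M n (pr y)

/-- sensitivity of the marginal at `y` to an observation at `x` -/
def B (G : SimpleGraph V) (θ : ℝ) (M : V → V → ℝ) (x y : V) : ℝ :=
  Bn θ (par G x) M (G.dist x y) y

/-- sum of `f` over the (directed) edges of the path from `x` to `y` -/
def Pn (pr : V → V) (f : V → V → ℝ) : ℕ → V → ℝ
  | 0, _ => 0
  | n + 1, y => f (pr y) y + Pn pr f n (pr y)

def PS (G : SimpleGraph V) (f : V → V → ℝ) (x y : V) : ℝ := Pn (par G x) f (G.dist x y) y

/-- new marginal at `y` after an observation at `x` with tilt `z` -/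
def updm (G : SimpleGraph V) (θ : ℝ) (x : V) (z : ℝ) (s : State V) (y : V) : ℝ :=
  s.1 y + z * B G θ s.2 x y * (1 - s.1 y ^ 2) / (1 + z * s.1 x)

open Classical in
/-- new message `k → i` after an observation at `x` with tilt `z` -/
def updM (G : SimpleGraph V) (θ : ℝ) (x : V) (z : ℝ) (s : State V) (k i : V) : ℝ :=
  if G.Adj k i ∧ G.dist x k < G.dist x i then
    s.2 k i + z * B G θ s.2 x k * (1 - s.2 k i ^ 2) /
      (1 + z * (s.1 x - B G θ s.2 x k * (s.1 k - s.2 k i)))
  else s.2 k i

/-- deterministic tilt -/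
def tilt (G : SimpleGraph V) (θ : ℝ) (x : V) (z : ℝ) (s : State V) : State V :=
  (updm G θ x z s, updM G θ x z s)

/-- one event at `x` with uniform variable `u` -/
def step (G : SimpleGraph V) (θ ε : ℝ) (x : V) (u : ℝ) (s : State V) : State V :=
  tilt G θ x (ε * T (ε * s.1 x) u) s

/-- invariants of reachable states -/
structure Inv (G : SimpleGraph V) (θ : ℝ) (s : State V) : Prop where
  abs_m : ∀ y, |s.1 y| ≤ 1
  abs_M : ∀ k i, |s.2 k i| ≤ 1
  bal : ∀ k i, G.Adj k i → s.1 k * (1 + θ * s.2 k i * s.2 i k) = s.2 k i + θ * s.2 i k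

/-- noise: one uniform variable for each (vertex, round) -/
abbrev Noise (V : Type*) := V × ℕ → unitInterval

/-- product measure on the noise -/
def noiseMeasure (V : Type*) : Measure (Noise V) :=
  Measure.infinitePi (fun _ : V × ℕ => (volume : Measure unitInterval))

/-- run the events of the list, the LAST element of the list first, from the zero state -/
def run (G : SimpleGraph V) (θ ε : ℝ) (ω : Noise V) : List (V × ℕ) → State V
  | [] => (fun _ => 0, fun _ _ => 0)
  | e :: l => step G θ ε e.1 (ω e : ℝ) (run G θ ε ω l)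

/-- events of `r` rounds, each round processing the vertex list `q` -/
def evs (q : List V) : ℕ → List (V × ℕ)
  | 0 => []
  | r + 1 => q.map (fun x => (x, r)) ++ evs q r

/-- conditional mean of the spin at `v` given spin `a` at `p` -/
def Econd (θ M a : ℝ) : ℝ := (M + θ * a) / (1 + θ * M * a)

open Classical in
/-- the cylinder weight of `η` on the finite set `D`, rooted at `o` -/
def pD (G : SimpleGraph V) (θ : ℝ) (s : State V) (o : V) (D : Finset V) (η : V → ℝ) : ℝ :=
  (1 + s.1 o * η o) / 2 *
    ∏ v ∈ D.erase o, (1 + η v * Econd θ (s.2 v (par G o v)) (η (par G o v))) / 2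

/-- `D` contains the root `o` and is closed under `par G o` -/
def PClosed (G : SimpleGraph V) (o : V) (D : Finset V) : Prop :=
  o ∈ D ∧ ∀ v ∈ D, par G o v ∈ D

end

end Vale.Agent.P161T
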